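import Vale.Agent.P171.Shift

open MeasureTheory Set Filter Topology
open scoped ENNReal

namespace Vale.Agent.P171

lemma MeasC.finset_sum {ι : Type*} (T : Finset ι) {f : ι → Cfg → ℝ≥0∞}
    (hf : ∀ i ∈ T, MeasC (f i)) : MeasC (fun s => ∑ i ∈ T, f i s) :=
  fun n => Finset.measurable_sum _ (fun i hi => hf i hi n)

lemma G_finset_sum (A : Set V) {ι : Type*} (T : Finset ι) {f : ι → Cfg → ℝ≥0∞}
    (hf : ∀ i ∈ T, MeasC (f i)) (s : Cfg) :
    G A (fun s => ∑ i ∈ T, f i s) s = ∑ i ∈ T, G A (f i) s := by
  classical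
  induction T using Finset.induction_on with
  | empty =>
    simp only [Finset.sum_empty]
    have h := G_const_mul A (f := fun _ => 0) (fun _ => measurable_const) 0 s
    simpa using h
  | insert a T ha ih =>
    simp only [Finset.sum_insert ha]
    rw [G_add A (hf a (Finset.mem_insert_self a T)),
      ih (fun i hi => hf i (Finset.mem_insert_of_mem hi))]

/-- the cube `[0,L]^3` -/
def box (L : ℝ) : Set V := Set.pi univ (fun _ => Icc 0 L)

lemma measurableSet_box (L : ℝ) : MeasurableSet (box L) :=
  MeasurableSet.univ_pi (fun _ => measurableSet_Icc)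

lemma volume_box {L : ℝ} (hL : 0 ≤ L) : volume (box L) = ENNReal.ofReal (L ^ 3) := by
  unfold box
  rw [volume_pi_pi]
  simp only [Real.volume_Icc, sub_zero, Finset.prod_const, Finset.card_univ, Fintype.card_fin]
  rw [ENNReal.ofReal_pow hL]

/-- the half open block -/
def B0 (R : ℕ) : Set V := {x | blk R 0 x = 0}

lemma measurableSet_blk (R q : ℕ) (c : Fin 3 → ℤ) : MeasurableSet {x : V | blk R q x = c} :=
  (measurable_blk R q) (measurableSet_singleton c)

lemma measurableSet_B0 (R : ℕ) : MeasurableSet (B0 R) := measurableSet_blk R 0 0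

lemma B0_subset_box (R : ℕ) (hR : 0 < R) : B0 R ⊆ box R := by
  intro x hx i _
  have h1 : (⌊x i⌋ + (0 : ℕ)) / (R : ℤ) = 0 := congrFun hx i
  have hRz : (0 : ℤ) < (R : ℤ) := by exact_mod_cast hR
  have h2 := Int.emod_add_mul_ediv (⌊x i⌋ + (0 : ℕ)) (R : ℤ)
  have h3 := Int.emod_nonneg (⌊x i⌋ + (0 : ℕ)) hRz.ne'
  have h4 := Int.emod_lt_of_pos (⌊x i⌋ + (0 : ℕ)) hRz
  rw [h1, mul_zero, add_zero] at h2
  have h5 : (0 : ℤ) ≤ ⌊x i⌋ := by
    push_cast at h2 h3 h4
    omega
  have h6 : ⌊x i⌋ < (R : ℤ) := by
    push_cast at h2 h3 h4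
    omega
  constructor
  · exact Int.floor_nonneg.mp h5
  · have := Int.floor_lt.mp h6
    push_cast at this
    exact this.le

/-- integer shift vector -/
noncomputable def ivec (c : Fin 3 → ℤ) : V := fun i => (c i : ℝ)

lemma cell_add_ivec (x : V) (c : Fin 3 → ℤ) : cell (x + ivec c) = cell x + c := by
  funext i
  simp [cell, ivec]

lemma dist3_add (x y v : V) : dist3 (x + v) (y + v) = dist3 x y := by
  unfold dist3
  simp

lemma bker_add_ivec (K : ℝ) (a : ℕ → ℝ) (θ c : ℝ) (x y : V) (v : Fin 3 → ℤ) :
    bker K a θ c (x + ivec v) (y + ivec v) = bker K a θ c x y := by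
  unfold bker ker
  rw [dist3_add]
  have : same cell (x + ivec v) (y + ivec v) = same cell x y := by
    by_cases h : cell x = cell y
    · rw [same_eq_one h, same_eq_one]
      rw [cell_add_ivec, cell_add_ivec, h]
    · rw [same_eq_zero h, same_eq_zero]
      rw [cell_add_ivec, cell_add_ivec]
      intro h2
      exact h (add_right_cancel h2)
  rw [this]

lemma W_congr_inside {m : ℝ} {κ κ' : V → V → ℝ} {s : Cfg}
    (h : ∀ x ∈ s, ∀ y ∈ s, κ x y = κ' x y) : W m κ s = W m κ' s := by
  unfold W
  have : Q κ s = Q κ' s :=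
    le_antisymm (Q_mono (fun x hx y hy => (h x hx y hy).le))
      (Q_mono (fun x hx y hy => (h x hx y hy).ge))
  rw [this]

lemma G_blk_eq {R : ℕ} (hR : 0 < R) (q : ℕ) (c : Fin 3 → ℤ) (K : ℝ) (a : ℕ → ℝ) (θ d m : ℝ) :
    G {x | blk R q x = c} (W m (rker (bker K a θ d) R q)) 0 = G (B0 R) (W m (bker K a θ d)) 0 := by
  have e1 : G {x | blk R q x = c} (W m (rker (bker K a θ d) R q)) 0 =
      G {x | blk R q x = c} (W m (bker K a θ d)) 0 := by
    have hc : ∀ t, Inside {x | blk R q x = c} t →
        W m (rker (bker K a θ d) R q) (t + 0) = W m (bker K a θ d) (t + 0) := by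
      intro t ht
      rw [add_zero]
      refine W_congr_inside (fun x hx y hy => ?_)
      unfold rker
      rw [same_eq_one, mul_one]
      exact (ht x hx).trans (ht y hy).symm
    exact le_antisymm (G_mono_inside (measurableSet_blk R q c) 0 (fun t ht => (hc t ht).le))
      (G_mono_inside (measurableSet_blk R q c) 0 (fun t ht => (hc t ht).ge))
  rw [e1]
  have e2 : {x : V | blk R q x = c} =
      (fun x => x + ivec (fun i => (q : ℤ) - R * c i)) ⁻¹' B0 R := by
    ext x
    simp only [Set.mem_preimage, B0, Set.mem_setOf_eq]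
    have hRz : (R : ℤ) ≠ 0 := by exact_mod_cast hR.ne'
    have key : ∀ i, blk R 0 (x + ivec (fun i => (q : ℤ) - R * c i)) i = blk R q x i - c i := by
      intro i
      unfold blk ivec
      simp only [Pi.add_apply]
      rw [Int.floor_add_intCast]
      have : ⌊x i⌋ + ((q : ℤ) - R * c i) + ((0 : ℕ) : ℤ) = (⌊x i⌋ + q) + (-(c i)) * R := by
        push_cast
        ring
      rw [this, Int.add_mul_ediv_right _ _ hRz]
      ring
    constructor
    · intro h
      funext i
      rw [key i, h]
      simp
    · intro h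
      funext i
      have := congrFun h i
      rw [key i] at this
      simp only [Pi.zero_apply] at this
      linarith
  rw [e2]
  refine G_translate (B0 R) (measurableSet_B0 R) _ _ (fun s => ?_)
  unfold W
  rw [Q_map, Multiset.card_map]
  congr 3
  simp only [bker_add_ivec]

lemma box_subset (R : ℕ) (hR : 0 < R) (m q : ℕ) (hq : q < R) :
    box ((m * R : ℕ) : ℝ) ⊆ ⋃ c ∈ Fintype.piFinset (fun _ : Fin 3 => Finset.Icc (0 : ℤ) m),
      {x : V | blk R q x = c} := by
  intro x hx
  have hRz : (0 : ℤ) < (R : ℤ) := by exact_mod_cast hR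
  simp only [Set.mem_iUnion]
  refine ⟨blk R q x, ?_, rfl⟩
  rw [Fintype.mem_piFinset]
  intro i
  have hxi := hx i (Set.mem_univ i)
  have h1 : (0 : ℤ) ≤ ⌊x i⌋ := Int.floor_nonneg.mpr hxi.1
  have h2 : ⌊x i⌋ ≤ (m * R : ℤ) := by
    have : ⌊x i⌋ ≤ ⌊(((m * R : ℤ)) : ℝ)⌋ := by
      apply Int.floor_le_floor
      have := hxi.2
      push_cast at this ⊢
      exact this
    rwa [Int.floor_intCast] at this
  rw [Finset.mem_Icc]
  unfold blk
  constructor
  · positivity
  · apply Int.le_of_lt_add_one
    rw [Int.ediv_lt_iff_lt_mul hRz]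
    have : (q : ℤ) < R := by exact_mod_cast hq
    nlinarith

/-- **block upper bound** -/
lemma box_upper {K : ℝ} (hK : 0 ≤ K) {a : ℕ → ℝ} (ha : ∀ j, 0 ≤ a j) (hs : Summable a)
    (k : ℕ) {t : ℝ} (ht : 0 ≤ t) (m : ℝ) (n : ℕ) :
    G (box ((n * 2 ^ k : ℕ) : ℝ)) (W m (ker K (pert a k t))) 0 ≤
      (2 ^ k : ℕ) * (G (B0 (2 ^ k))
        (W m (bker K a (125 * tau a (2 ^ k)) (125 * t * (1 / 8) ^ k))) 0) ^ ((n + 1) ^ 3) := by
  classical
  set R := 2 ^ k with hRdef
  have hR : 0 < R := by positivity
  set θ := 125 * tau a R with hθ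
  set d := 125 * t * (1 / 8) ^ k with hd
  have hbm := measurable_bker K a ha hs θ d
  have hrm : ∀ q, Measurable (fun p : V × V => rker (bker K a θ d) R q p.1 p.2) := by
    intro q
    unfold rker
    exact hbm.mul (measurable_same_blk R q)
  have hWm : ∀ q, MeasC (W m (rker (bker K a θ d) R q)) := fun q => MeasC_W m (hrm q)
  calc G (box ((n * R : ℕ) : ℝ)) (W m (ker K (pert a k t))) 0
      ≤ G (box ((n * R : ℕ) : ℝ)) (fun s => ∑ q ∈ Finset.range R,
          W m (rker (bker K a θ d) R q) s) 0 := by
        refine G_mono_inside (measurableSet_box _) 0 (fun s _ => ?_)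
        exact W_ker_pert_le hK ha hs k ht m (s + 0)
    _ = ∑ q ∈ Finset.range R, G (box ((n * R : ℕ) : ℝ)) (W m (rker (bker K a θ d) R q)) 0 :=
        G_finset_sum _ _ (fun q _ => hWm q) 0
    _ ≤ ∑ _q ∈ Finset.range R, (G (B0 R) (W m (bker K a θ d)) 0) ^ ((n + 1) ^ 3) := by
        refine Finset.sum_le_sum (fun q hq => ?_)
        have hqR := Finset.mem_range.mp hq
        set C := Fintype.piFinset (fun _ : Fin 3 => Finset.Icc (0 : ℤ) n) with hC
        have hcard : C.card = (n + 1) ^ 3 := by
          rw [hC, Fintype.card_piFinset_const]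
          simp
        calc G (box ((n * R : ℕ) : ℝ)) (W m (rker (bker K a θ d) R q)) 0
            ≤ G (⋃ c ∈ C, {x : V | blk R q x = c}) (W m (rker (bker K a θ d) R q)) 0 :=
              G_mono_set (box_subset R hR n q hqR) _ _
          _ ≤ ∏ c ∈ C, G {x : V | blk R q x = c} (W m (rker (bker K a θ d) R q)) 0 := by
              refine G_biUnion_le (fun c => {x : V | blk R q x = c})
                (fun c => measurableSet_blk R q c) (hWm q) (le_of_eq (W_zero _ _)) C ?_ ?_
              · intro i _ j _ hij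
                rw [Set.disjoint_left]
                intro x hx hx'
                exact hij (hx.symm.trans hx')
              · intro i _ T _ hiT x hx y hy
                have hne : ∀ u ∈ x, ∀ v ∈ y, blk R q u ≠ blk R q v := by
                  intro u hu v hv huv
                  have h1 : blk R q u = i := hx u hu
                  have h2 := hy v hv
                  simp only [Set.mem_iUnion] at h2
                  obtain ⟨j, hj, hvj⟩ := h2
                  have h3 : blk R q v = j := hvj
                  apply hiT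
                  rw [← h1, huv, h3]
                  exact hj
                refine W_add_le (fun u hu v hv => ?_) (fun v hv u hu => ?_)
                · unfold rker
                  rw [same_eq_zero (hne u hu v hv), mul_zero]
                · unfold rker
                  rw [same_eq_zero (hne u hu v hv).symm, mul_zero]
          _ = ∏ _c ∈ C, G (B0 R) (W m (bker K a θ d)) 0 :=
              Finset.prod_congr rfl (fun c _ => G_blk_eq hR q c K a θ d m)
          _ = (G (B0 R) (W m (bker K a θ d)) 0) ^ ((n + 1) ^ 3) := by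
              rw [Finset.prod_const, hcard]
    _ = (R : ℕ) * (G (B0 R) (W m (bker K a θ d)) 0) ^ ((n + 1) ^ 3) := by
        rw [Finset.sum_const, Finset.card_range, nsmul_eq_mul]

end Vale.Agent.P171
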