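import Vale.Agent.P171.Final

open MeasureTheory Set Filter Topology
open scoped ENNReal

namespace Vale.Agent.P171

lemma energy_eq (φ : ℝ → ℝ) {N : ℕ} (x : Fin N → V) :
    energy φ x = ((∑ i, ∑ j, φ (dist3 (x i) (x j))) - N * φ 0) / 2 := by
  have h1 : ∀ i j : Fin N, φ (dist3 (x i) (x j)) =
      (if i < j then φ (dist3 (x i) (x j)) else 0) + (if j < i then φ (dist3 (x j) (x i)) else 0)
        + (if i = j then φ 0 else 0) := by
    intro i j
    rcases lt_trichotomy i j with h | h | h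
    · rw [if_pos h, if_neg (not_lt.mpr h.le), if_neg h.ne]
      ring
    · subst h
      rw [if_neg (lt_irrefl _), if_pos rfl, dist3_self]
      ring
    · rw [if_neg (not_lt.mpr h.le), if_pos h, if_neg h.ne', dist3_comm]
      ring
  have h2 : (∑ i, ∑ j, φ (dist3 (x i) (x j))) = energy φ x + energy φ x + N * φ 0 := by
    calc (∑ i, ∑ j, φ (dist3 (x i) (x j))) = ∑ i, ∑ j,
          ((if i < j then φ (dist3 (x i) (x j)) else 0)
            + (if j < i then φ (dist3 (x j) (x i)) else 0) + (if i = j then φ 0 else 0)) :=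
          Finset.sum_congr rfl (fun i _ => Finset.sum_congr rfl (fun j _ => h1 i j))
      _ = (∑ i, ∑ j, (if i < j then φ (dist3 (x i) (x j)) else 0))
          + (∑ i, ∑ j, (if j < i then φ (dist3 (x j) (x i)) else 0))
          + (∑ i : Fin N, ∑ j : Fin N, (if i = j then φ 0 else 0)) := by
          simp only [Finset.sum_add_distrib]
      _ = energy φ x + energy φ x + N * φ 0 := by
          congr 1
          · congr 1
            rw [Finset.sum_comm]
            rfl
          · simp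
  rw [h2]
  ring

lemma phi_zero_le {K : ℝ} {a : ℕ → ℝ} (ha : ∀ j, 0 ≤ a j) : phi K a 0 ≤ K := by
  unfold phi ind
  have := att_nonneg ha 0
  rw [if_pos (by norm_num)]
  linarith

lemma energy_phi {K : ℝ} {a : ℕ → ℝ} {N : ℕ} (x : Fin N → V) :
    energy (phi K a) x = -(Q (ker K a) (toCfg x) + N * phi K a 0) / 2 := by
  rw [energy_eq, Q_toCfg]
  have : ∑ i, ∑ j, ker K a (x i) (x j) = -∑ i, ∑ j, phi K a (dist3 (x i) (x j)) := by
    unfold ker
    simp only [Finset.sum_neg_distrib]
  rw [this]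
  ring

lemma energy_phi_ge {K : ℝ} (hK0 : 0 ≤ K) {a : ℕ → ℝ} (ha : ∀ j, 0 ≤ a j) (hs : Summable a)
    (hK : 125 * (∑' j, a j) ≤ K) {N : ℕ} (x : Fin N → V) : -(K / 2) * N ≤ energy (phi K a) x := by
  rw [energy_phi]
  have h1 := Q_ker_le hK0 ha hs (toCfg x)
  have h2 := Q_cell_nonneg (toCfg x)
  have h3 := phi_zero_le (K := K) ha
  have h4 : (0 : ℝ) ≤ N := by positivity
  have h5 : (N : ℝ) * phi K a 0 ≤ N * K := mul_le_mul_of_nonneg_left h3 h4
  nlinarith

lemma measurable_phi {K : ℝ} {a : ℕ → ℝ} (ha : ∀ j, 0 ≤ a j) (hs : Summable a) :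
    Measurable (phi K a) := by
  unfold phi
  exact ((measurable_ind 2).const_mul K).sub (measurable_att a ha hs)

lemma abs_phi_le {K : ℝ} (hK0 : 0 ≤ K) {a : ℕ → ℝ} (ha : ∀ j, 0 ≤ a j) (hs : Summable a)
    (hK : 125 * (∑' j, a j) ≤ K) (r : ℝ) : |phi K a r| ≤ K := by
  have h1 := att_nonneg ha r
  have h2 := att_le ha hs r
  have h3 := ind_nonneg 2 r
  have h4 := ind_le_one 2 r
  have h5 : 0 ≤ ∑' j, a j := tsum_nonneg ha
  unfold phi
  rw [abs_le]
  constructor <;> nlinarith

lemma stable_phi {K : ℝ} (hK0 : 0 ≤ K) {a : ℕ → ℝ} (ha : ∀ j, 0 ≤ a j) (hs : Summable a)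
    (hK : 125 * (∑' j, a j) ≤ K) : Stable (phi K a) :=
  ⟨K / 2, fun _ x _ => energy_phi_ge hK0 ha hs hK x⟩

lemma phi_nonpos {K : ℝ} {a : ℕ → ℝ} (ha : ∀ j, 0 ≤ a j) {r : ℝ} (hr : 2 ≤ r) :
    phi K a r ≤ 0 := by
  unfold phi ind
  rw [if_neg (not_lt.mpr hr)]
  have := att_nonneg ha r
  linarith

lemma tempered_phi {K : ℝ} {a : ℕ → ℝ} (ha : ∀ j, 0 ≤ a j) : Tempered (phi K a) := by
  refine ⟨1, 1, 2, one_pos, one_pos, two_pos, fun r hr => ?_⟩
  refine (phi_nonpos ha hr).trans ?_
  positivity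

lemma cube_eq (L : ℝ) (N : ℕ) : cube L N = Set.pi univ (fun _ : Fin N => box L) := by
  ext x
  constructor
  · intro h i _ k _
    exact h i k
  · intro h i k
    exact h i (Set.mem_univ i) k (Set.mem_univ k)

lemma restrict_cube (L : ℝ) (N : ℕ) :
    (volume : Measure (Fin N → V)).restrict (cube L N) =
      Measure.pi (fun _ : Fin N => (volume : Measure V).restrict (box L)) := by
  rw [cube_eq, volume_pi, Measure.restrict_pi_pi]

lemma term_eq {K : ℝ} (hK0 : 0 ≤ K) {a : ℕ → ℝ} (ha : ∀ j, 0 ≤ a j) (hs : Summable a)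
    (hK : 125 * (∑' j, a j) ≤ K) {z : ℝ} (hz : 0 < z) {L : ℝ} (hL : 0 ≤ L) (n : ℕ) :
    term K a (Real.log z + phi K a 0 / 2) L n = ENNReal.ofReal (z ^ n * Z (phi K a) 1 L n) := by
  unfold term
  rw [iterate_eq_lintegral _ (MeasC_W _ (measurable_ker K a ha hs))]
  have hfin : IsFiniteMeasure ((volume : Measure V).restrict (box L)) :=
    ⟨by rw [Measure.restrict_apply_univ, volume_box hL]; exact ENNReal.ofReal_lt_top⟩
  have hW : ∀ x : Fin n → V, W (Real.log z + phi K a 0 / 2) (ker K a) (toCfg x + 0) =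
      ENNReal.ofReal (z ^ n * Real.exp (-1 * energy (phi K a) x)) := by
    intro x
    unfold W
    rw [add_zero, card_toCfg, energy_phi]
    congr 1
    have : z ^ n = Real.exp (Real.log z * n) := by
      rw [mul_comm, ← Real.log_pow, Real.exp_log (by positivity)]
    rw [this, ← Real.exp_add]
    congr 1
    ring
  rw [lintegral_congr hW]
  have hmeas : Measurable (fun x : Fin n → V => z ^ n * Real.exp (-1 * energy (phi K a) x)) := by
    refine Measurable.const_mul (Real.measurable_exp.comp (Measurable.const_mul ?_ _)) _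
    unfold energy
    refine Finset.measurable_sum _ (fun i _ => Finset.measurable_sum _ (fun j _ => ?_))
    by_cases hij : i < j
    · simp only [hij, if_true]
      have h1 : Measurable (fun x : Fin n → V => (x i : V)) := measurable_pi_apply i
      have h2 : Measurable (fun x : Fin n → V => (x j : V)) := measurable_pi_apply j
      exact (measurable_phi ha hs).comp (measurable_dist3.comp (h1.prodMk h2))
    · simp only [hij, if_false]
      exact measurable_const
  have hint : Integrable (fun x : Fin n → V => z ^ n * Real.exp (-1 * energy (phi K a) x))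
      (Measure.pi (fun _ : Fin n => (volume : Measure V).restrict (box L))) := by
    refine Integrable.of_bound hmeas.aestronglyMeasurable (z ^ n * Real.exp (K / 2 * n)) ?_
    refine Eventually.of_forall (fun x => ?_)
    rw [Real.norm_of_nonneg (by positivity)]
    refine mul_le_mul_of_nonneg_left (Real.exp_le_exp.mpr ?_) (by positivity)
    have := energy_phi_ge hK0 ha hs hK x
    linarith
  rw [← ofReal_integral_eq_lintegral_ofReal hint (Eventually.of_forall (fun x => by positivity))]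
  have hfac : ((n.factorial : ℝ≥0∞))⁻¹ = ENNReal.ofReal (1 / (n.factorial : ℝ)) := by
    rw [one_div, ENNReal.ofReal_inv_of_pos (by positivity), ENNReal.ofReal_natCast]
  rw [hfac, ← ENNReal.ofReal_mul (by positivity)]
  congr 1
  unfold Z
  rw [restrict_cube, integral_const_mul]
  ring

lemma Z_nonneg (φ : ℝ → ℝ) (β L : ℝ) (N : ℕ) : 0 ≤ Z φ β L N := by
  unfold Z
  refine mul_nonneg (by positivity) (integral_nonneg (fun x => (Real.exp_pos _).le))

lemma isPressure_phi {K : ℝ} (hK0 : 0 ≤ K) {a : ℕ → ℝ} (ha : ∀ j, 0 ≤ a j) (hs : Summable a)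
    (hK : 125 * (∑' j, a j) ≤ K) :
    IsPressure (phi K a) 1 (fun z => P K a (Real.log z + phi K a 0 / 2)) := by
  intro z hz
  have hterm : ∀ L : ℝ, 0 < L → ∀ n, term K a (Real.log z + phi K a 0 / 2) L n =
      ENNReal.ofReal (z ^ n * Z (phi K a) 1 L n) := fun L hL n => term_eq hK0 ha hs hK hz hL.le n
  have hnn : ∀ L n, 0 ≤ z ^ n * Z (phi K a) 1 L n := fun L n =>
    mul_nonneg (by positivity) (Z_nonneg _ _ _ _)
  have hX : ∀ L : ℝ, 0 < L → Xi K a (Real.log z + phi K a 0 / 2) L =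
      ∑' n, ENNReal.ofReal (z ^ n * Z (phi K a) 1 L n) := by
    intro L hL
    rw [Xi_eq_tsum]
    exact tsum_congr (hterm L hL)
  have hne : ∀ L : ℝ, 0 < L → (∑' n, ENNReal.ofReal (z ^ n * Z (phi K a) 1 L n)) ≠ ⊤ := by
    intro L hL
    rw [← hX L hL]
    exact Xi_ne_top hK0 ha hs hK _ hL.le
  have hreal : ∀ L : ℝ, 0 < L → (Xi K a (Real.log z + phi K a 0 / 2) L).toReal =
      ∑' n, z ^ n * Z (phi K a) 1 L n := by
    intro L hL
    rw [hX L hL, ENNReal.tsum_toReal_eq (fun n => ENNReal.ofReal_ne_top)]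
    exact tsum_congr (fun n => ENNReal.toReal_ofReal (hnn L n))
  refine ⟨fun L hL => ?_, ?_⟩
  · have := ENNReal.summable_toReal (hne L hL)
    refine this.congr (fun n => ?_)
    rw [ENNReal.toReal_ofReal (hnn L n)]
  · have h1 := P_tendsto hK0 ha hs hK (Real.log z + phi K a 0 / 2)
    refine h1.congr' ?_
    filter_upwards [eventually_gt_atTop 0] with L hL
    unfold lX
    rw [hreal L hL]

lemma integrableOn_att {a : ℕ → ℝ} (ha : ∀ j, 0 ≤ a j) (hs : Summable a) :
    IntegrableOn (fun r : ℝ => r ^ 2 * att a r) (Ioi 0) := by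
  refine ⟨?_, ?_⟩
  · exact ((measurable_id.pow_const 2).mul (measurable_att a ha hs)).aestronglyMeasurable
  · rw [hasFiniteIntegral_iff_ofReal
      (Eventually.of_forall (fun r => mul_nonneg (sq_nonneg r) (att_nonneg ha r)))]
    have h1 : ∀ r : ℝ, ENNReal.ofReal (r ^ 2 * att a r) =
        ∑' j : ℕ, ENNReal.ofReal (r ^ 2 * (a j * (1 / 8) ^ j * ind (2 ^ (j + 1)) r)) := by
      intro r
      unfold att
      rw [← tsum_mul_left]
      exact ENNReal.ofReal_tsum_of_nonneg
        (fun j => mul_nonneg (sq_nonneg r) (att_term_nonneg ha j r))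
        ((att_summable ha hs r).mul_left _)
    rw [lintegral_congr h1, lintegral_tsum (fun j => by
      refine Measurable.aemeasurable ?_
      exact ENNReal.measurable_ofReal.comp ((measurable_id.pow_const 2).mul
        ((measurable_ind _).const_mul _)))]
    have h2 : ∀ j : ℕ, ∫⁻ r in Ioi (0 : ℝ),
        ENNReal.ofReal (r ^ 2 * (a j * (1 / 8) ^ j * ind (2 ^ (j + 1)) r)) ≤
        ENNReal.ofReal (8 * a j) := by
      intro j
      have h3 : ∀ r ∈ Ioi (0 : ℝ),
          ENNReal.ofReal (r ^ 2 * (a j * (1 / 8) ^ j * ind (2 ^ (j + 1)) r)) ≤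
          (Iic ((2 : ℝ) ^ (j + 1))).indicator
            (fun _ => ENNReal.ofReal (((2 : ℝ) ^ (j + 1)) ^ 2 * (a j * (1 / 8) ^ j))) r := by
        intro r hr
        have hr0 : 0 < r := hr
        unfold ind
        split_ifs with h
        · rw [Set.indicator_of_mem (show r ∈ Iic ((2 : ℝ) ^ (j + 1)) from h.le), mul_one]
          refine ENNReal.ofReal_le_ofReal ?_
          have := ha j
          gcongr
        · simp
      calc ∫⁻ r in Ioi (0 : ℝ), ENNReal.ofReal (r ^ 2 * (a j * (1 / 8) ^ j * ind (2 ^ (j + 1)) r))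
          ≤ ∫⁻ r in Ioi (0 : ℝ), (Iic ((2 : ℝ) ^ (j + 1))).indicator
            (fun _ => ENNReal.ofReal (((2 : ℝ) ^ (j + 1)) ^ 2 * (a j * (1 / 8) ^ j))) r :=
            setLIntegral_mono' measurableSet_Ioi h3
        _ = ENNReal.ofReal (((2 : ℝ) ^ (j + 1)) ^ 2 * (a j * (1 / 8) ^ j)) *
            ENNReal.ofReal ((2 : ℝ) ^ (j + 1)) := by
            rw [lintegral_indicator measurableSet_Iic, setLIntegral_const,
              Measure.restrict_apply measurableSet_Iic]
            have : Iic ((2 : ℝ) ^ (j + 1)) ∩ Ioi 0 = Ioc 0 ((2 : ℝ) ^ (j + 1)) := by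
              ext r
              simp [and_comm]
            rw [this, Real.volume_Ioc, sub_zero]
        _ = ENNReal.ofReal (8 * a j) := by
            rw [← ENNReal.ofReal_mul (by have := ha j; positivity)]
            congr 1
            have h4 : ((2 : ℝ) ^ (j + 1)) ^ 3 = 8 * 8 ^ j := by
              rw [← pow_mul, mul_comm (j + 1) 3, pow_mul]
              norm_num
              ring
            calc ((2 : ℝ) ^ (j + 1)) ^ 2 * (a j * (1 / 8) ^ j) * 2 ^ (j + 1)
                = ((2 : ℝ) ^ (j + 1)) ^ 3 * (1 / 8) ^ j * a j := by ring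
              _ = 8 * a j * (8 * (1 / 8)) ^ j := by rw [h4, mul_pow]; ring
              _ = 8 * a j := by norm_num
    refine lt_of_le_of_lt (ENNReal.tsum_le_tsum h2) ?_
    rw [← ENNReal.ofReal_tsum_of_nonneg (fun j => by have := ha j; positivity) (hs.mul_left 8)]
    exact ENNReal.ofReal_lt_top

lemma integrableOn_phi {K : ℝ} (hK0 : 0 ≤ K) {a : ℕ → ℝ} (ha : ∀ j, 0 ≤ a j) (hs : Summable a) :
    IntegrableOn (fun r : ℝ => r ^ 2 * |phi K a r|) (Ioi 0) := by
  have h1 := integrableOn_att (pert_nonneg ha 0 hK0) (pert_hasSum hs 0 K).summable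
  refine Integrable.mono' h1 ?_ ?_
  · exact ((measurable_id.pow_const 2).mul
      (measurable_phi ha hs).abs).aestronglyMeasurable
  · refine Eventually.of_forall (fun r => ?_)
    rw [Real.norm_of_nonneg (mul_nonneg (sq_nonneg r) (abs_nonneg _)), att_pert ha hs]
    refine mul_le_mul_of_nonneg_left ?_ (sq_nonneg r)
    have h2 := att_nonneg ha r
    have h3 := ind_nonneg 2 r
    unfold phi
    have h4 : (2 : ℝ) ^ (0 + 1) = 2 := by norm_num
    rw [h4, pow_zero, mul_one, abs_le]
    have h5 : 0 ≤ K * ind 2 r := mul_nonneg hK0 h3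
    constructor <;> linarith

/-- **main theorem** -/
theorem main : ∃ φ : ℝ → ℝ, Measurable φ ∧ LocallyBounded φ ∧ Stable φ ∧ Tempered φ ∧
    (∃ M, ∀ r, |φ r| ≤ M) ∧ (∀ r, 2 ≤ r → φ r ≤ 0) ∧
    IntegrableOn (fun r : ℝ => r ^ 2 * |φ r|) (Ioi 0) ∧
    ∃ p : ℝ → ℝ, IsPressure φ 1 p ∧ ∃ z : ℝ, 0 < z ∧ ¬ DifferentiableAt ℝ p z := by
  obtain ⟨K, a, ha, hs, hK2, m, hm⟩ := exists_kink
  have hsum : 0 ≤ ∑' j, a j := tsum_nonneg ha
  have hK0 : 0 ≤ K := by linarith
  have hK : 125 * (∑' j, a j) ≤ K := by linarith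
  refine ⟨phi K a, measurable_phi ha hs, ?_, stable_phi hK0 ha hs hK, tempered_phi ha,
    ⟨K, abs_phi_le hK0 ha hs hK⟩, fun r hr => phi_nonpos ha hr, integrableOn_phi hK0 ha hs,
    fun z => P K a (Real.log z + phi K a 0 / 2), isPressure_phi hK0 ha hs hK,
    Real.exp (m - phi K a 0 / 2), Real.exp_pos _, ?_⟩
  · intro s t _
    exact ⟨K, fun r _ => abs_phi_le hK0 ha hs hK r⟩
  · intro hd
    apply hm
    have h1 : DifferentiableAt ℝ (fun u : ℝ => Real.exp (u - phi K a 0 / 2)) m := by fun_prop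
    have h2 := DifferentiableAt.comp m hd h1
    refine h2.congr_of_eventuallyEq (Eventually.of_forall (fun u => ?_))
    simp only [Function.comp_def, Real.log_exp]
    congr 1
    ring

end Vale.Agent.P171
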