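import Mathlib

open MeasureTheory Set
open scoped ENNReal

namespace Vale.Agent.P171

/-- points of space -/
abbrev V := Fin 3 → ℝ
/-- finite configurations of points -/
abbrev Cfg := Multiset V

/-- the configuration of a tuple of points -/
def toCfg {n : ℕ} (x : Fin n → V) : Cfg := (Finset.univ : Finset (Fin n)).val.map x

lemma toCfg_zero (x : Fin 0 → V) : toCfg x = 0 := by
  simp [toCfg]

lemma toCfg_eq_ofFn {n : ℕ} (x : Fin n → V) : toCfg x = (List.ofFn x : Multiset V) := by
  unfold toCfg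
  exact Fin.univ_val_map x

lemma toCfg_cons {n : ℕ} (a : V) (x : Fin n → V) :
    toCfg (Fin.cons a x : Fin (n + 1) → V) = a ::ₘ toCfg x := by
  rw [toCfg_eq_ofFn, toCfg_eq_ofFn, List.ofFn_succ]
  simp

lemma exists_toCfg (s : Cfg) : ∃ (n : ℕ) (x : Fin n → V), toCfg x = s := by
  refine ⟨s.toList.length, s.toList.get, ?_⟩
  rw [toCfg_eq_ofFn, List.ofFn_get, Multiset.coe_toList]

lemma card_toCfg {n : ℕ} (x : Fin n → V) : Multiset.card (toCfg x) = n := by
  simp [toCfg]

/-- measurability of a function of finite configurations -/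
def MeasC (h : Cfg → ℝ≥0∞) : Prop := ∀ n : ℕ, Measurable (fun x : Fin n → V => h (toCfg x))

/-- integrate out one additional point over the region `A` -/
noncomputable def D (A : Set V) (h : Cfg → ℝ≥0∞) : Cfg → ℝ≥0∞ :=
  fun s => ∫⁻ x in A, h (x ::ₘ s)

lemma measurable_cons_fst (n : ℕ) :
    Measurable (fun p : (Fin n → V) × V => (Fin.cons p.2 p.1 : Fin (n + 1) → V)) := by
  rw [measurable_pi_iff]
  intro i
  refine Fin.cases ?_ (fun j => ?_) i
  · simpa using measurable_snd
  · simp only [Fin.cons_succ]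
    exact (measurable_pi_apply j).comp measurable_fst

lemma MeasC.cons_prod {h : Cfg → ℝ≥0∞} (hh : MeasC h) (n : ℕ) :
    Measurable (fun p : (Fin n → V) × V => h (p.2 ::ₘ toCfg p.1)) := by
  have := (hh (n + 1)).comp (measurable_cons_fst n)
  simpa [Function.comp_def, toCfg_cons] using this

lemma MeasC.cons {h : Cfg → ℝ≥0∞} (hh : MeasC h) (s : Cfg) :
    Measurable (fun a : V => h (a ::ₘ s)) := by
  obtain ⟨n, x, rfl⟩ := exists_toCfg s
  exact (hh.cons_prod n).comp (measurable_prodMk_left : Measurable (Prod.mk x))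

lemma MeasC.cons_cons {h : Cfg → ℝ≥0∞} (hh : MeasC h) (s : Cfg) :
    Measurable (fun p : V × V => h (p.1 ::ₘ p.2 ::ₘ s)) := by
  obtain ⟨n, x, rfl⟩ := exists_toCfg s
  have h1 := hh.cons_prod (n + 1)
  have h2 : Measurable (fun p : V × V => ((Fin.cons p.2 x : Fin (n + 1) → V), p.1)) := by
    refine Measurable.prodMk ?_ measurable_fst
    exact (measurable_cons_fst n).comp ((measurable_const).prodMk measurable_snd)
  have := h1.comp h2
  simpa [Function.comp_def, toCfg_cons] using this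

lemma MeasC.D {h : Cfg → ℝ≥0∞} (hh : MeasC h) (A : Set V) : MeasC (D A h) := by
  intro n
  have := hh.cons_prod n
  exact Measurable.lintegral_prod_right' (ν := volume.restrict A) this

lemma MeasC.add {f g : Cfg → ℝ≥0∞} (hf : MeasC f) (hg : MeasC g) : MeasC (f + g) :=
  fun n => (hf n).add (hg n)

/-- the additive monoid of measurable functions on configurations -/
def MS : AddSubmonoid (Cfg → ℝ≥0∞) where
  carrier := {h | MeasC h}
  add_mem' := fun hf hg => MeasC.add hf hg
  zero_mem' := fun _ => measurable_const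

/-- `D A` as an endomorphism -/
noncomputable def De (A : Set V) : AddMonoid.End MS where
  toFun h := ⟨D A h.1, MeasC.D h.2 A⟩
  map_zero' := by
    ext s
    simp [D]
  map_add' := by
    intro f g
    ext s
    simp only [D, AddSubmonoid.coe_add, Pi.add_apply]
    exact lintegral_add_left (MeasC.cons f.2 s) _

lemma De_apply (A : Set V) (h : MS) : ((De A) h).1 = D A h.1 := rfl

lemma End_mul (f g : AddMonoid.End MS) (x : MS) : (f * g) x = f (g x) := rfl

lemma End_add (f g : AddMonoid.End MS) (x : MS) : (f + g) x = f x + g x := rfl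

lemma De_pow_apply (A : Set V) (h : MS) (n : ℕ) : (((De A) ^ n) h).1 = (D A)^[n] h.1 := by
  induction n with
  | zero => simp
  | succ n ih =>
    rw [pow_succ', End_mul, De_apply, ih, Function.iterate_succ_apply']

lemma De_comm (A B : Set V) : Commute (De A) (De B) := by
  show De A * De B = De B * De A
  ext h s
  simp only [End_mul, De_apply]
  unfold D
  rw [lintegral_lintegral_swap]
  · refine lintegral_congr (fun b => lintegral_congr (fun a => ?_))
    rw [Multiset.cons_swap]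
  · have := MeasC.cons_cons h.2 s
    have h2 := this.comp measurable_swap
    exact h2.aemeasurable

lemma De_union {A B : Set V} (hB : MeasurableSet B) (hAB : Disjoint A B) :
    De (A ∪ B) = De A + De B := by
  ext h s
  rw [End_add, AddSubmonoid.coe_add, Pi.add_apply, De_apply, De_apply, De_apply]
  unfold D
  exact lintegral_union hB hAB

lemma iterate_MeasC {h : Cfg → ℝ≥0∞} (hh : MeasC h) (A : Set V) (n : ℕ) :
    MeasC ((D A)^[n] h) := by
  rw [← De_pow_apply A ⟨h, hh⟩ n]
  exact (((De A) ^ n) ⟨h, hh⟩).2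

lemma iterate_union {A B : Set V} (hB : MeasurableSet B) (hAB : Disjoint A B)
    {h : Cfg → ℝ≥0∞} (hh : MeasC h) (n : ℕ) (s : Cfg) :
    (D (A ∪ B))^[n] h s =
      ∑ m ∈ Finset.range (n + 1), (n.choose m : ℝ≥0∞) * (D A)^[m] ((D B)^[n - m] h) s := by
  set H : MS := ⟨h, hh⟩ with hH
  have hHh : H.1 = h := rfl
  have h1 := De_pow_apply (A ∪ B) H n
  rw [De_union hB hAB, (De_comm A B).add_pow] at h1
  have h2 := congrFun h1 s
  rw [hHh] at h2
  rw [← h2]
  have h3 : ∀ (T : Finset ℕ) (f : ℕ → AddMonoid.End MS),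
      ((∑ m ∈ T, f m) H).1 s = ∑ m ∈ T, ((f m) H).1 s := by
    intro T f
    induction T using Finset.induction_on with
    | empty => simp
    | insert a T ha ih =>
      rw [Finset.sum_insert ha, Finset.sum_insert ha, ← ih]
      rfl
  rw [h3]
  refine Finset.sum_congr rfl (fun m _ => ?_)
  have h4 : ∀ (k : ℕ) (g : MS), ((k : AddMonoid.End MS) g).1 s = (k : ℝ≥0∞) * g.1 s := by
    intro k g
    rw [AddMonoid.End.natCast_apply]
    simp
  rw [← Nat.cast_comm, End_mul, h4, End_mul, De_pow_apply, De_pow_apply]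

/-- grand canonical sum over the region `A` of the weight `h`, with the points of `s` present -/
noncomputable def G (A : Set V) (h : Cfg → ℝ≥0∞) : Cfg → ℝ≥0∞ :=
  fun s => ∑' n : ℕ, ((n.factorial : ℝ≥0∞))⁻¹ * (D A)^[n] h s

lemma MeasC.tsum {f : ℕ → Cfg → ℝ≥0∞} (hf : ∀ n, MeasC (f n)) : MeasC (fun s => ∑' n, f n s) :=
  fun k => Measurable.tsum (fun n => hf n k)

lemma MeasC.const_mul {f : Cfg → ℝ≥0∞} (hf : MeasC f) (c : ℝ≥0∞) : MeasC (fun s => c * f s) :=
  fun k => (hf k).const_mul c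

lemma G_MeasC {h : Cfg → ℝ≥0∞} (hh : MeasC h) (A : Set V) : MeasC (G A h) :=
  MeasC.tsum (fun n => (iterate_MeasC hh A n).const_mul _)

lemma D_tsum (A : Set V) {f : ℕ → Cfg → ℝ≥0∞} (hf : ∀ n, MeasC (f n)) :
    D A (fun s => ∑' n, f n s) = fun s => ∑' n, D A (f n) s := by
  funext s
  unfold D
  exact lintegral_tsum (fun n => ((hf n).cons s).aemeasurable)

lemma D_const_mul (A : Set V) {f : Cfg → ℝ≥0∞} (hf : MeasC f) (c : ℝ≥0∞) :
    D A (fun s => c * f s) = fun s => c * D A f s := by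
  funext s
  unfold D
  exact lintegral_const_mul c (hf.cons s)

lemma iterate_const_mul (A : Set V) {f : Cfg → ℝ≥0∞} (hf : MeasC f) (c : ℝ≥0∞) (n : ℕ) :
    (D A)^[n] (fun s => c * f s) = fun s => c * (D A)^[n] f s := by
  induction n with
  | zero => rfl
  | succ n ih =>
    rw [Function.iterate_succ_apply', ih, D_const_mul A (iterate_MeasC hf A n),
      Function.iterate_succ_apply']

lemma iterate_tsum (A : Set V) {f : ℕ → Cfg → ℝ≥0∞} (hf : ∀ n, MeasC (f n)) (n : ℕ) :
    (D A)^[n] (fun s => ∑' k, f k s) = fun s => ∑' k, (D A)^[n] (f k) s := by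
  induction n with
  | zero => rfl
  | succ n ih =>
    rw [Function.iterate_succ_apply', ih, D_tsum A (fun k => iterate_MeasC (hf k) A n)]
    funext s
    simp only [Function.iterate_succ_apply']

lemma D_add (A : Set V) {f g : Cfg → ℝ≥0∞} (hf : MeasC f) :
    D A (fun s => f s + g s) = fun s => D A f s + D A g s := by
  funext s
  unfold D
  exact lintegral_add_left (hf.cons s) _

lemma iterate_add (A : Set V) {f g : Cfg → ℝ≥0∞} (hf : MeasC f) (n : ℕ) :
    (D A)^[n] (fun s => f s + g s) = fun s => (D A)^[n] f s + (D A)^[n] g s := by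
  induction n with
  | zero => rfl
  | succ n ih =>
    rw [Function.iterate_succ_apply', ih, D_add A (iterate_MeasC hf A n)]
    funext s
    simp only [Function.iterate_succ_apply']

lemma G_const_mul (A : Set V) {f : Cfg → ℝ≥0∞} (hf : MeasC f) (c : ℝ≥0∞) (s : Cfg) :
    G A (fun s => c * f s) s = c * G A f s := by
  unfold G
  rw [← ENNReal.tsum_mul_left]
  refine tsum_congr (fun n => ?_)
  rw [iterate_const_mul A hf]
  ring

lemma G_add (A : Set V) {f g : Cfg → ℝ≥0∞} (hf : MeasC f) (s : Cfg) :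
    G A (fun s => f s + g s) s = G A f s + G A g s := by
  unfold G
  rw [← ENNReal.tsum_add]
  refine tsum_congr (fun n => ?_)
  rw [iterate_add A hf]
  ring

/-- all points of the configuration lie in `A` -/
def Inside (A : Set V) (s : Cfg) : Prop := ∀ x ∈ s, x ∈ A

lemma inside_zero (A : Set V) : Inside A 0 := by
  intro x hx
  simp at hx

lemma inside_cons {A : Set V} {x : V} {s : Cfg} (hx : x ∈ A) (hs : Inside A s) :
    Inside A (x ::ₘ s) := by
  intro y hy
  rcases Multiset.mem_cons.mp hy with rfl | h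
  · exact hx
  · exact hs y h

lemma inside_add {A : Set V} {s t : Cfg} (hs : Inside A s) (ht : Inside A t) :
    Inside A (s + t) := by
  intro y hy
  rcases Multiset.mem_add.mp hy with h | h
  · exact hs y h
  · exact ht y h

lemma Inside.mono {A B : Set V} (hAB : A ⊆ B) {s : Cfg} (hs : Inside A s) : Inside B s :=
  fun x hx => hAB (hs x hx)

lemma D_mono_inside {A : Set V} (hA : MeasurableSet A) {f g : Cfg → ℝ≥0∞} (s : Cfg)
    (h : ∀ t, Inside A t → f (t + s) ≤ g (t + s)) :
    ∀ t, Inside A t → D A f (t + s) ≤ D A g (t + s) := by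
  intro t ht
  unfold D
  refine setLIntegral_mono' hA (fun x hx => ?_)
  rw [← Multiset.cons_add]
  exact h _ (inside_cons hx ht)

lemma iterate_mono_inside {A : Set V} (hA : MeasurableSet A) {f g : Cfg → ℝ≥0∞} (s : Cfg)
    (h : ∀ t, Inside A t → f (t + s) ≤ g (t + s)) (n : ℕ) :
    ∀ t, Inside A t → (D A)^[n] f (t + s) ≤ (D A)^[n] g (t + s) := by
  induction n with
  | zero => exact h
  | succ n ih =>
    simp only [Function.iterate_succ_apply']
    exact D_mono_inside hA s ih

lemma G_mono_inside {A : Set V} (hA : MeasurableSet A) {f g : Cfg → ℝ≥0∞} (s : Cfg)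
    (h : ∀ t, Inside A t → f (t + s) ≤ g (t + s)) : G A f s ≤ G A g s := by
  unfold G
  refine ENNReal.tsum_le_tsum (fun n => ?_)
  have := iterate_mono_inside hA s h n 0 (inside_zero A)
  rw [zero_add] at this
  gcongr

lemma D_mono_set {A B : Set V} (hAB : A ⊆ B) {f g : Cfg → ℝ≥0∞} (h : ∀ t, f t ≤ g t) (s : Cfg) :
    D A f s ≤ D B g s := by
  unfold D
  calc ∫⁻ x in A, f (x ::ₘ s) ≤ ∫⁻ x in A, g (x ::ₘ s) := lintegral_mono (fun x => h _)
    _ ≤ ∫⁻ x in B, g (x ::ₘ s) := lintegral_mono_set hAB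

lemma iterate_mono_set {A B : Set V} (hAB : A ⊆ B) {f g : Cfg → ℝ≥0∞} (h : ∀ t, f t ≤ g t)
    (n : ℕ) : ∀ s : Cfg, (D A)^[n] f s ≤ (D B)^[n] g s := by
  induction n with
  | zero => exact h
  | succ n ih =>
    intro s
    simp only [Function.iterate_succ_apply']
    exact D_mono_set hAB ih s

lemma G_mono_set {A B : Set V} (hAB : A ⊆ B) (h : Cfg → ℝ≥0∞) (s : Cfg) : G A h s ≤ G B h s := by
  unfold G
  refine ENNReal.tsum_le_tsum (fun n => ?_)
  have := iterate_mono_set hAB (fun t => le_refl (h t)) n s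
  gcongr

/-- the composition formula -/
lemma G_union {A B : Set V} (hB : MeasurableSet B) (hAB : Disjoint A B)
    {h : Cfg → ℝ≥0∞} (hh : MeasC h) (s : Cfg) :
    G (A ∪ B) h s = G A (G B h) s := by
  have h1 : G A (G B h) s = ∑' j : ℕ, ∑' m : ℕ,
      ((j.factorial : ℝ≥0∞))⁻¹ * (((m.factorial : ℝ≥0∞))⁻¹ * (D A)^[j] ((D B)^[m] h) s) := by
    unfold G
    refine tsum_congr (fun j => ?_)
    rw [iterate_tsum A (fun m => (iterate_MeasC hh B m).const_mul _), ← ENNReal.tsum_mul_left]
    refine tsum_congr (fun m => ?_)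
    rw [iterate_const_mul A (iterate_MeasC hh B m)]
  rw [h1, ← ENNReal.tsum_prod (f := fun j m => ((j.factorial : ℝ≥0∞))⁻¹ *
    (((m.factorial : ℝ≥0∞))⁻¹ * (D A)^[j] ((D B)^[m] h) s)),
    ← Finset.HasAntidiagonal.sigmaAntidiagonalEquivProd.tsum_eq, ENNReal.tsum_sigma']
  unfold G
  refine tsum_congr (fun n => ?_)
  rw [iterate_union hB hAB hh, tsum_fintype, Finset.mul_sum]
  simp only [Finset.HasAntidiagonal.sigmaAntidiagonalEquivProd_apply]
  rw [Finset.sum_coe_sort (Finset.HasAntidiagonal.antidiagonal n) (fun p : ℕ × ℕ =>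
    ((p.1.factorial : ℝ≥0∞))⁻¹ * (((p.2.factorial : ℝ≥0∞))⁻¹ * (D A)^[p.1] ((D B)^[p.2] h) s))]
  rw [Finset.Nat.sum_antidiagonal_eq_sum_range_succ (fun a b =>
    ((a.factorial : ℝ≥0∞))⁻¹ * (((b.factorial : ℝ≥0∞))⁻¹ * (D A)^[a] ((D B)^[b] h) s))]
  refine Finset.sum_congr rfl (fun m hm => ?_)
  have hmn : m ≤ n := Nat.lt_succ_iff.mp (Finset.mem_range.mp hm)
  rw [← mul_assoc, ← mul_assoc]
  congr 1
  have h2 : (n.choose m : ℝ≥0∞) * ((m.factorial : ℝ≥0∞) * ((n - m).factorial : ℝ≥0∞))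
      = (n.factorial : ℝ≥0∞) := by
    rw [← mul_assoc]
    exact_mod_cast Nat.choose_mul_factorial_mul_factorial hmn
  have hf : ∀ k : ℕ, (k.factorial : ℝ≥0∞) ≠ 0 := fun k => by
    exact_mod_cast k.factorial_ne_zero
  have hf' : ∀ k : ℕ, (k.factorial : ℝ≥0∞) ≠ ⊤ := fun k => ENNReal.natCast_ne_top _
  rw [← ENNReal.mul_inv (Or.inl (hf m)) (Or.inl (hf' m))]
  have hc : (n.choose m : ℝ≥0∞) ≠ 0 := by exact_mod_cast (Nat.choose_pos hmn).ne'
  have hc' : (n.choose m : ℝ≥0∞) ≠ ⊤ := ENNReal.natCast_ne_top _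
  rw [← h2, ENNReal.mul_inv (Or.inl hc) (Or.inl hc'), mul_comm, ← mul_assoc,
    ENNReal.mul_inv_cancel hc hc', one_mul]

end Vale.Agent.P171
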