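import Vale.Agent.P171.Cfg

open MeasureTheory Set
open scoped ENNReal

namespace Vale.Agent.P171

lemma le_G_zero_term (A : Set V) (h : Cfg → ℝ≥0∞) (s : Cfg) : h s ≤ G A h s := by
  unfold G
  refine le_trans ?_ (ENNReal.le_tsum 0)
  simp

lemma D_le_G (A : Set V) (h : Cfg → ℝ≥0∞) (s : Cfg) : D A h s ≤ G A h s := by
  unfold G
  refine le_trans ?_ (ENNReal.le_tsum 1)
  simp

/-- splitting upper bound -/
lemma G_prod_le {A B : Set V} (hA : MeasurableSet A) (hB : MeasurableSet B) (hAB : Disjoint A B)
    {h f g : Cfg → ℝ≥0∞} (hh : MeasC h) (hf : MeasC f) (hg : MeasC g)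
    (hle : ∀ x, Inside A x → ∀ y, Inside B y → h (x + y) ≤ f x * g y) :
    G (A ∪ B) h 0 ≤ G A f 0 * G B g 0 := by
  rw [G_union hB hAB hh]
  have h1 : ∀ n : ℕ, ∀ x, Inside A x → ∀ y, Inside B y →
      (D B)^[n] h (x + y) ≤ f x * (D B)^[n] g y := by
    intro n
    induction n with
    | zero => exact hle
    | succ n ih =>
      intro x hx y hy
      simp only [Function.iterate_succ_apply']
      unfold D
      have e : f x * ∫⁻ a in B, (D B)^[n] g (a ::ₘ y)
          = ∫⁻ a in B, f x * (D B)^[n] g (a ::ₘ y) := by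
        rw [lintegral_const_mul _ ((iterate_MeasC hg B n).cons y)]
      refine le_trans ?_ (le_of_eq e.symm)
      refine setLIntegral_mono' hB (fun b hb => ?_)
      rw [← Multiset.add_cons]
      exact ih x hx _ (inside_cons hb hy)
  have h2 : ∀ x, Inside A x → G B h x ≤ G B g 0 * f x := by
    intro x hx
    unfold G
    rw [← ENNReal.tsum_mul_right]
    refine ENNReal.tsum_le_tsum (fun n => ?_)
    have := h1 n x hx 0 (inside_zero B)
    rw [add_zero] at this
    calc ((n.factorial : ℝ≥0∞))⁻¹ * (D B)^[n] h x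
        ≤ ((n.factorial : ℝ≥0∞))⁻¹ * (f x * (D B)^[n] g 0) := by gcongr
      _ = ((n.factorial : ℝ≥0∞))⁻¹ * (D B)^[n] g 0 * f x := by ring
  calc G A (G B h) 0 ≤ G A (fun x => G B g 0 * f x) 0 := by
        refine G_mono_inside hA 0 (fun t ht => ?_)
        rw [add_zero]
        exact h2 t ht
    _ = G A f 0 * G B g 0 := by
        rw [G_const_mul A hf, mul_comm]

/-- splitting lower bound -/
lemma G_prod_ge {A B : Set V} (hA : MeasurableSet A) (hB : MeasurableSet B) (hAB : Disjoint A B)
    {h f g : Cfg → ℝ≥0∞} (hh : MeasC h) (hf : MeasC f) (hg : MeasC g)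
    (hle : ∀ x, Inside A x → ∀ y, Inside B y → f x * g y ≤ h (x + y)) :
    G A f 0 * G B g 0 ≤ G (A ∪ B) h 0 := by
  rw [G_union hB hAB hh]
  have h1 : ∀ n : ℕ, ∀ x, Inside A x → ∀ y, Inside B y →
      f x * (D B)^[n] g y ≤ (D B)^[n] h (x + y) := by
    intro n
    induction n with
    | zero => exact hle
    | succ n ih =>
      intro x hx y hy
      simp only [Function.iterate_succ_apply']
      unfold D
      have e : f x * ∫⁻ a in B, (D B)^[n] g (a ::ₘ y)
          = ∫⁻ a in B, f x * (D B)^[n] g (a ::ₘ y) := by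
        rw [lintegral_const_mul _ ((iterate_MeasC hg B n).cons y)]
      refine le_trans (le_of_eq e) ?_
      refine setLIntegral_mono' hB (fun b hb => ?_)
      rw [← Multiset.add_cons]
      exact ih x hx _ (inside_cons hb hy)
  have h2 : ∀ x, Inside A x → G B g 0 * f x ≤ G B h x := by
    intro x hx
    unfold G
    rw [← ENNReal.tsum_mul_right]
    refine ENNReal.tsum_le_tsum (fun n => ?_)
    have := h1 n x hx 0 (inside_zero B)
    rw [add_zero] at this
    calc ((n.factorial : ℝ≥0∞))⁻¹ * (D B)^[n] g 0 * f x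
        = ((n.factorial : ℝ≥0∞))⁻¹ * (f x * (D B)^[n] g 0) := by ring
      _ ≤ ((n.factorial : ℝ≥0∞))⁻¹ * (D B)^[n] h x := by gcongr
  calc G A f 0 * G B g 0 = G A (fun x => G B g 0 * f x) 0 := by
        rw [G_const_mul A hf, mul_comm]
    _ ≤ G A (G B h) 0 := by
        refine G_mono_inside hA 0 (fun t ht => ?_)
        rw [add_zero]
        exact h2 t ht

/-- iterated integration is integration over the product -/
lemma iterate_eq_lintegral (A : Set V) {h : Cfg → ℝ≥0∞} (hh : MeasC h) (n : ℕ) :
    ∀ s : Cfg, (D A)^[n] h s =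
      ∫⁻ x : Fin n → V, h (toCfg x + s) ∂(Measure.pi (fun _ => volume.restrict A)) := by
  induction n with
  | zero =>
    intro s
    simp only [Function.iterate_zero, id_eq]
    rw [Measure.pi_of_empty (fun _ : Fin 0 => volume.restrict A) (fun a => 0)]
    simp [toCfg_zero]
  | succ n ih =>
    intro s
    rw [Function.iterate_succ_apply']
    show ∫⁻ a in A, (D A)^[n] h (a ::ₘ s) = _
    rw [lintegral_congr (fun a => ih (a ::ₘ s))]
    have e := (measurePreserving_piFinSuccAbove (fun _ : Fin (n+1) => volume.restrict A) 0)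
    rw [← e.symm.lintegral_comp_emb (MeasurableEquiv.measurableEmbedding _)]
    rw [lintegral_prod]
    · refine lintegral_congr (fun a => lintegral_congr (fun x => ?_))
      have : (MeasurableEquiv.piFinSuccAbove (fun _ : Fin (n+1) => V) 0).symm (a, x)
          = Fin.cons a x := by
        simp [MeasurableEquiv.piFinSuccAbove]
        rfl
      rw [this, toCfg_cons, Multiset.cons_add, Multiset.add_cons]
    · obtain ⟨k, y, rfl⟩ := exists_toCfg s
      have hm : Measurable (fun x : Fin (n+1) → V => h (toCfg x + toCfg y)) := by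
        have h1 := hh ((n + 1) + k)
        have h2 : Measurable (fun x : Fin (n+1) → V => (Fin.append x y : Fin ((n+1)+k) → V)) := by
          rw [measurable_pi_iff]
          intro i
          refine Fin.addCases (fun j => ?_) (fun j => ?_) i
          · simp only [Fin.append_left]
            exact measurable_pi_apply j
          · simp only [Fin.append_right]
            exact measurable_const
        have h3 := h1.comp h2
        have h4 : (fun x : Fin (n+1) → V => h (toCfg x + toCfg y))
            = (fun x => h (toCfg x)) ∘ (fun x : Fin (n+1) → V => Fin.append x y) := by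
          funext x
          simp only [Function.comp_def, toCfg_eq_ofFn, List.ofFn_fin_append]
          rw [Multiset.coe_add]
        rw [h4]
        exact h3
      exact (hm.comp (MeasurableEquiv.measurable _)).aemeasurable

/-- finite unions, upper bound -/
lemma G_biUnion_le {ι : Type*} [DecidableEq ι] (A : ι → Set V) (hA : ∀ i, MeasurableSet (A i))
    {h : Cfg → ℝ≥0∞} (hh : MeasC h) (h0 : h 0 ≤ 1) (s : Finset ι)
    (hdisj : ∀ i ∈ s, ∀ j ∈ s, i ≠ j → Disjoint (A i) (A j))
    (hle : ∀ i ∈ s, ∀ T ⊆ s, i ∉ T → ∀ x, Inside (A i) x → ∀ y, Inside (⋃ j ∈ T, A j) y →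
      h (x + y) ≤ h x * h y) :
    G (⋃ i ∈ s, A i) h 0 ≤ ∏ i ∈ s, G (A i) h 0 := by
  induction s using Finset.induction_on with
  | empty =>
    have e : (⋃ i ∈ (∅ : Finset ι), A i) = ∅ := by simp
    rw [e, Finset.prod_empty]
    unfold G
    have h1 : ∀ n : ℕ, n ≠ 0 → ((n.factorial : ℝ≥0∞))⁻¹ * (D (∅ : Set V))^[n] h 0 = 0 := by
      intro n hn
      obtain ⟨m, rfl⟩ := Nat.exists_eq_succ_of_ne_zero hn
      rw [Function.iterate_succ_apply']
      simp [D]
    rw [tsum_eq_single 0 h1]
    simpa using h0
  | insert a s ha ih =>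
    have e : (⋃ i ∈ insert a s, A i) = A a ∪ ⋃ i ∈ s, A i := by
      simp [Finset.set_biUnion_insert]
    rw [e, Finset.prod_insert ha]
    have hU : MeasurableSet (⋃ i ∈ s, A i) := s.measurableSet_biUnion (fun i _ => hA i)
    have hd : Disjoint (A a) (⋃ i ∈ s, A i) := by
      rw [Set.disjoint_iUnion₂_right]
      intro j hj
      exact hdisj a (Finset.mem_insert_self a s) j (Finset.mem_insert_of_mem hj)
        (fun h => ha (h ▸ hj))
    refine le_trans (G_prod_le (hA a) hU hd hh hh hh
      (hle a (Finset.mem_insert_self a s) s (Finset.subset_insert a s) ha)) ?_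
    have := ih (fun i hi j hj => hdisj i (Finset.mem_insert_of_mem hi) j
      (Finset.mem_insert_of_mem hj))
      (fun i hi T hT => hle i (Finset.mem_insert_of_mem hi) T
        (hT.trans (Finset.subset_insert a s)))
    gcongr

/-- finite unions, lower bound -/
lemma G_biUnion_ge {ι : Type*} [DecidableEq ι] (A : ι → Set V) (hA : ∀ i, MeasurableSet (A i))
    {h : Cfg → ℝ≥0∞} (hh : MeasC h) (h0 : 1 ≤ h 0) (s : Finset ι)
    (hdisj : ∀ i ∈ s, ∀ j ∈ s, i ≠ j → Disjoint (A i) (A j))
    (hle : ∀ i ∈ s, ∀ T ⊆ s, i ∉ T → ∀ x, Inside (A i) x → ∀ y, Inside (⋃ j ∈ T, A j) y →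
      h x * h y ≤ h (x + y)) :
    ∏ i ∈ s, G (A i) h 0 ≤ G (⋃ i ∈ s, A i) h 0 := by
  induction s using Finset.induction_on with
  | empty =>
    rw [Finset.prod_empty]
    exact h0.trans (le_G_zero_term _ _ _)
  | insert a s ha ih =>
    have e : (⋃ i ∈ insert a s, A i) = A a ∪ ⋃ i ∈ s, A i := by
      simp [Finset.set_biUnion_insert]
    rw [e, Finset.prod_insert ha]
    have hU : MeasurableSet (⋃ i ∈ s, A i) := s.measurableSet_biUnion (fun i _ => hA i)
    have hd : Disjoint (A a) (⋃ i ∈ s, A i) := by
      rw [Set.disjoint_iUnion₂_right]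
      intro j hj
      exact hdisj a (Finset.mem_insert_self a s) j (Finset.mem_insert_of_mem hj)
        (fun h => ha (h ▸ hj))
    refine le_trans ?_ (G_prod_ge (hA a) hU hd hh hh hh
      (hle a (Finset.mem_insert_self a s) s (Finset.subset_insert a s) ha))
    have := ih (fun i hi j hj => hdisj i (Finset.mem_insert_of_mem hi) j
      (Finset.mem_insert_of_mem hj))
      (fun i hi T hT => hle i (Finset.mem_insert_of_mem hi) T
        (hT.trans (Finset.subset_insert a s)))
    gcongr

/-- one point in each of finitely many regions of volume one -/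
lemma le_G_biUnion {ι : Type*} [DecidableEq ι] (A : ι → Set V) (hA : ∀ i, MeasurableSet (A i))
    (hvol : ∀ i, volume (A i) = 1)
    {h : Cfg → ℝ≥0∞} (hh : MeasC h) (C : ℝ≥0∞) (s : Finset ι)
    (hdisj : ∀ i ∈ s, ∀ j ∈ s, i ≠ j → Disjoint (A i) (A j)) :
    ∀ y : Cfg, (∀ x : ι → V, (∀ i ∈ s, x i ∈ A i) → C ≤ h (s.val.map x + y)) →
      C ≤ G (⋃ i ∈ s, A i) h y := by
  induction s using Finset.induction_on with
  | empty =>
    intro y hy
    refine le_trans ?_ (le_G_zero_term _ _ _)
    simpa using hy (fun _ => 0) (by simp)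
  | insert a s ha ih =>
    intro y hy
    have e : (⋃ i ∈ insert a s, A i) = A a ∪ ⋃ i ∈ s, A i := by
      simp [Finset.set_biUnion_insert]
    rw [e]
    have hU : MeasurableSet (⋃ i ∈ s, A i) := s.measurableSet_biUnion (fun i _ => hA i)
    have hd : Disjoint (A a) (⋃ i ∈ s, A i) := by
      rw [Set.disjoint_iUnion₂_right]
      intro j hj
      exact hdisj a (Finset.mem_insert_self a s) j (Finset.mem_insert_of_mem hj)
        (fun h => ha (h ▸ hj))
    rw [G_union hU hd hh]
    refine le_trans ?_ (D_le_G _ _ _)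
    have h1 : ∀ x0 ∈ A a, C ≤ G (⋃ i ∈ s, A i) h (x0 ::ₘ y) := by
      intro x0 hx0
      refine ih (fun i hi j hj => hdisj i (Finset.mem_insert_of_mem hi) j
        (Finset.mem_insert_of_mem hj)) (x0 ::ₘ y) (fun x hx => ?_)
      have := hy (Function.update x a x0) (fun i hi => ?_)
      · refine le_trans this (le_of_eq ?_)
        congr 1
        rw [Finset.insert_val_of_notMem ha, Multiset.map_cons, Multiset.cons_add,
          Multiset.add_cons, Function.update_self]
        congr 2
        refine Multiset.map_congr rfl (fun j hj => ?_)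
        rw [Function.update_of_ne]
        intro h
        exact ha (h ▸ hj)
      · by_cases hia : i = a
        · subst hia
          rw [Function.update_self]
          exact hx0
        · rw [Function.update_of_ne hia]
          exact hx i ((Finset.mem_insert.mp hi).resolve_left hia)
    calc C = ∫⁻ _ in A a, C := by
          rw [setLIntegral_const, hvol, mul_one]
      _ ≤ D (A a) (G (⋃ i ∈ s, A i) h) y := by
          unfold D
          exact setLIntegral_mono' (hA a) h1

/-- translation of configurations -/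
lemma G_translate (A : Set V) (hA : MeasurableSet A) (v : V) (h : Cfg → ℝ≥0∞)
    (hinv : ∀ s : Cfg, h (s.map (fun x => x + v)) = h s) :
    G ((fun x => x + v) ⁻¹' A) h 0 = G A h 0 := by
  have h1 : ∀ n : ℕ, ∀ s : Cfg, (D A)^[n] h (s.map (fun x => x + v))
      = (D ((fun x => x + v) ⁻¹' A))^[n] h s := by
    intro n
    induction n with
    | zero => exact hinv
    | succ n ih =>
      intro s
      rw [Function.iterate_succ_apply', Function.iterate_succ_apply']
      show ∫⁻ a in A, (D A)^[n] h (a ::ₘ _) = ∫⁻ a in _, (D _)^[n] h (a ::ₘ s)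
      have hmp := measurePreserving_add_right (volume : Measure V) v
      rw [← hmp.setLIntegral_comp_preimage_emb
        (MeasurableEquiv.addRight v).measurableEmbedding]
      refine lintegral_congr (fun a => ?_)
      rw [← ih (a ::ₘ s), Multiset.map_cons]
  unfold G
  refine tsum_congr (fun n => ?_)
  have := h1 n 0
  rw [Multiset.map_zero] at this
  rw [this]

/-- comparison with the ideal gas -/
lemma G_le_exp {A : Set V} (hA : MeasurableSet A) {v : ℝ} (hv : volume A = ENNReal.ofReal v)
    (hv0 : 0 ≤ v) (m : ℝ)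
    (h : Cfg → ℝ≥0∞) (hle : ∀ s, h s ≤ ENNReal.ofReal (Real.exp (m * Multiset.card s))) :
    G A h 0 ≤ ENNReal.ofReal (Real.exp (Real.exp m * v)) := by
  have h1 : ∀ n : ℕ, ∀ s : Cfg, (D A)^[n] h s ≤
      ENNReal.ofReal (Real.exp (m * Multiset.card s) * (Real.exp m * v) ^ n) := by
    intro n
    induction n with
    | zero => intro s; simpa using hle s
    | succ n ih =>
      intro s
      rw [Function.iterate_succ_apply']
      show ∫⁻ a in A, (D A)^[n] h (a ::ₘ s) ≤ _
      calc ∫⁻ a in A, (D A)^[n] h (a ::ₘ s)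
          ≤ ∫⁻ a in A, ENNReal.ofReal (Real.exp (m * (Multiset.card s + 1 : ℕ))
              * (Real.exp m * v) ^ n) := by
            refine lintegral_mono (fun a => ?_)
            have := ih (a ::ₘ s)
            rwa [Multiset.card_cons] at this
        _ = ENNReal.ofReal (Real.exp (m * Multiset.card s) * (Real.exp m * v) ^ (n + 1)) := by
            rw [setLIntegral_const, hv, ← ENNReal.ofReal_mul (by positivity)]
            congr 1
            push_cast
            rw [mul_add, Real.exp_add]
            ring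
  unfold G
  calc ∑' n : ℕ, ((n.factorial : ℝ≥0∞))⁻¹ * (D A)^[n] h 0
      ≤ ∑' n : ℕ, ENNReal.ofReal ((Real.exp m * v) ^ n / n.factorial) := by
        refine ENNReal.tsum_le_tsum (fun n => ?_)
        have h2 := h1 n 0
        simp only [Multiset.card_zero, Nat.cast_zero, mul_zero, Real.exp_zero, one_mul] at h2
        rw [div_eq_inv_mul, ENNReal.ofReal_mul (by positivity),
          ENNReal.ofReal_inv_of_pos (by positivity), ENNReal.ofReal_natCast]
        gcongr
    _ = ENNReal.ofReal (∑' n : ℕ, (Real.exp m * v) ^ n / n.factorial) := by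
        rw [ENNReal.ofReal_tsum_of_nonneg (fun n => by positivity)
          (Real.summable_pow_div_factorial _)]
    _ = ENNReal.ofReal (Real.exp (Real.exp m * v)) := by
        rw [Real.exp_eq_exp_ℝ, NormedSpace.exp_eq_tsum_div]

end Vale.Agent.P171
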