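import Vale.Agent.P171.Pair

open MeasureTheory Set
open scoped ENNReal

namespace Vale.Agent.P171

/-- counting pairs with equal labels -/
lemma count_eq {ι β : Type*} [Fintype ι] [DecidableEq β] (f g : ι → β) :
    (∑ i, ∑ j, (if f i = g j then (1 : ℝ) else 0)) =
      ∑ c ∈ Finset.univ.image f ∪ Finset.univ.image g,
        (∑ i, (if f i = c then (1 : ℝ) else 0)) * (∑ j, (if g j = c then (1 : ℝ) else 0)) := by
  have e : ∀ i j, (∑ c ∈ Finset.univ.image f ∪ Finset.univ.image g,
      (if f i = c then (1 : ℝ) else 0) * (if g j = c then (1 : ℝ) else 0))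
      = (if f i = g j then (1 : ℝ) else 0) := by
    intro i j
    rw [Finset.sum_eq_single (g j)]
    · simp
    · intro b _ hbg
      rw [if_neg (Ne.symm hbg), mul_zero]
    · intro hb
      exact absurd (Finset.mem_union_right _
        (Finset.mem_image_of_mem g (Finset.mem_univ j))) hb
  symm
  calc ∑ c ∈ Finset.univ.image f ∪ Finset.univ.image g,
        (∑ i, (if f i = c then (1 : ℝ) else 0)) * (∑ j, (if g j = c then (1 : ℝ) else 0))
      = ∑ c ∈ Finset.univ.image f ∪ Finset.univ.image g, ∑ i, ∑ j,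
        (if f i = c then (1 : ℝ) else 0) * (if g j = c then (1 : ℝ) else 0) := by
        refine Finset.sum_congr rfl (fun c _ => ?_)
        rw [Finset.sum_mul_sum]
    _ = ∑ i, ∑ c ∈ Finset.univ.image f ∪ Finset.univ.image g, ∑ j,
        (if f i = c then (1 : ℝ) else 0) * (if g j = c then (1 : ℝ) else 0) := Finset.sum_comm
    _ = ∑ i, ∑ j, ∑ c ∈ Finset.univ.image f ∪ Finset.univ.image g,
        (if f i = c then (1 : ℝ) else 0) * (if g j = c then (1 : ℝ) else 0) :=
        Finset.sum_congr rfl (fun i _ => Finset.sum_comm)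
    _ = ∑ i, ∑ j, (if f i = g j then (1 : ℝ) else 0) :=
        Finset.sum_congr rfl (fun i _ => Finset.sum_congr rfl (fun j _ => e i j))

lemma count_self {ι β : Type*} [Fintype ι] [DecidableEq β] (f : ι → β) (T : Finset β)
    (hT : Finset.univ.image f ⊆ T) :
    (∑ i, ∑ j, (if f i = f j then (1 : ℝ) else 0)) =
      ∑ c ∈ T, (∑ i, (if f i = c then (1 : ℝ) else 0)) ^ 2 := by
  rw [count_eq f f, Finset.union_self]
  rw [← Finset.sum_subset hT]
  · refine Finset.sum_congr rfl (fun c _ => ?_)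
    ring
  · intro c _ hc
    have : (∑ i, (if f i = c then (1 : ℝ) else 0)) = 0 := by
      refine Finset.sum_eq_zero (fun i _ => ?_)
      rw [if_neg]
      intro h
      exact hc (h ▸ Finset.mem_image_of_mem f (Finset.mem_univ i))
    rw [this]
    ring

lemma count_le {ι β : Type*} [Fintype ι] [DecidableEq β] (f g : ι → β) :
    (∑ i, ∑ j, (if f i = g j then (1 : ℝ) else 0)) ≤
      ((∑ i, ∑ j, (if f i = f j then (1 : ℝ) else 0)) +
        (∑ i, ∑ j, (if g i = g j then (1 : ℝ) else 0))) / 2 := by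
  rw [count_eq f g, count_self f _ Finset.subset_union_left,
    count_self g _ (Finset.subset_union_right (s₁ := Finset.univ.image f)),
    ← Finset.sum_add_distrib, Finset.sum_div]
  refine Finset.sum_le_sum (fun c _ => ?_)
  nlinarith [sq_nonneg ((∑ i, (if f i = c then (1 : ℝ) else 0)) -
    (∑ i, (if g i = c then (1 : ℝ) else 0)))]

/-- grouping -/
lemma count_group {ι β γ : Type*} [Fintype ι] [DecidableEq β] [DecidableEq γ] (f : ι → β)
    (B : β → γ) (M : ℕ) (hM : ∀ c, ∀ T : Finset β, (∀ b ∈ T, B b = c) → T.card ≤ M) :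
    (∑ i, ∑ j, (if B (f i) = B (f j) then (1 : ℝ) else 0)) ≤
      M * ∑ i, ∑ j, (if f i = f j then (1 : ℝ) else 0) := by
  have e1 := count_self (fun i => B (f i)) ((Finset.univ.image f).image B)
    (by rw [Finset.image_image]; rfl)
  have e2 := count_self f (Finset.univ.image f) (le_refl _)
  rw [e1, e2]
  have h1 : ∀ c, (∑ i, (if B (f i) = c then (1 : ℝ) else 0)) =
      ∑ b ∈ (Finset.univ.image f).filter (fun b => B b = c),
        ∑ i, (if f i = b then (1 : ℝ) else 0) := by
    intro c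
    rw [Finset.sum_comm]
    refine Finset.sum_congr rfl (fun i _ => ?_)
    rw [Finset.sum_ite_eq]
    simp
  calc ∑ c ∈ (Finset.univ.image f).image B, (∑ i, (if B (f i) = c then (1 : ℝ) else 0)) ^ 2
      ≤ ∑ c ∈ (Finset.univ.image f).image B, (M : ℝ) *
        ∑ b ∈ (Finset.univ.image f).filter (fun b => B b = c),
          (∑ i, (if f i = b then (1 : ℝ) else 0)) ^ 2 := by
        refine Finset.sum_le_sum (fun c _ => ?_)
        rw [h1 c]
        refine le_trans sq_sum_le_card_mul_sum_sq ?_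
        refine mul_le_mul_of_nonneg_right ?_ (Finset.sum_nonneg (fun _ _ => sq_nonneg _))
        exact_mod_cast hM c _ (fun b hb => (Finset.mem_filter.mp hb).2)
    _ = M * ∑ b ∈ Finset.univ.image f, (∑ i, (if f i = b then (1 : ℝ) else 0)) ^ 2 := by
        rw [← Finset.mul_sum]
        congr 1
        exact Finset.sum_fiberwise_of_maps_to
          (fun b hb => Finset.mem_image_of_mem B hb) _

/-! ### Block arithmetic -/

lemma sum_div_shift (R : ℕ) (hR : 0 < R) (n : ℤ) :
    ∑ q ∈ Finset.range R, (n + q) / (R : ℤ) = n := by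
  have hstep : ∀ n : ℤ, ∑ q ∈ Finset.range R, (n + 1 + q) / (R : ℤ) =
      ∑ q ∈ Finset.range R, (n + q) / (R : ℤ) + 1 := by
    intro n
    have h1 := Finset.sum_range_succ (fun q : ℕ => (n + q) / (R : ℤ)) R
    have h2 := Finset.sum_range_succ' (fun q : ℕ => (n + q) / (R : ℤ)) R
    rw [h1] at h2
    have h3 : (n + (R : ℕ)) / (R : ℤ) = n / R + 1 := by
      rw [Int.add_ediv_of_dvd_right (dvd_refl _), Int.ediv_self (by exact_mod_cast hR.ne')]
    have h4 : ∑ q ∈ Finset.range R, (n + ((q + 1 : ℕ) : ℤ)) / (R : ℤ)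
        = ∑ q ∈ Finset.range R, (n + 1 + q) / (R : ℤ) := by
      refine Finset.sum_congr rfl (fun q _ => ?_)
      congr 1
      push_cast
      ring
    rw [h3, h4] at h2
    simp only [Nat.cast_zero, add_zero] at h2
    linarith
  induction n using Int.induction_on with
  | zero =>
    refine Finset.sum_eq_zero (fun q hq => ?_)
    rw [zero_add]
    exact Int.ediv_eq_zero_of_lt (by positivity) (by exact_mod_cast Finset.mem_range.mp hq)
  | succ k ih => rw [hstep, ih]
  | pred k ih =>
    have := hstep (-(k : ℤ) - 1)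
    rw [show (-(k : ℤ) - 1 + 1) = -k by ring, ih] at this
    linarith

lemma floor_abs_le (a b : ℝ) : |((⌊a⌋ - ⌊b⌋ : ℤ) : ℝ)| ≤ |a - b| + 1 := by
  push_cast
  rw [abs_le]
  have h1 := Int.floor_le a
  have h2 := Int.lt_floor_add_one a
  have h3 := Int.floor_le b
  have h4 := Int.lt_floor_add_one b
  have h5 := le_abs_self (a - b)
  have h6 := neg_abs_le (a - b)
  constructor <;> linarith

lemma coord_sep_le (R : ℕ) (hR : 0 < R) (u w : ℤ) :
    (∑ q ∈ Finset.range R, (if (u + q) / (R : ℤ) ≠ (w + q) / (R : ℤ) then (1 : ℝ) else 0))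
      ≤ |((u - w : ℤ) : ℝ)| := by
  wlog h : u ≤ w generalizing u w with H
  · have := H w u (le_of_not_ge h)
    refine le_trans (le_of_eq ?_) (le_trans this (le_of_eq ?_))
    · refine Finset.sum_congr rfl (fun q _ => ?_)
      congr 1
      simp only [ne_eq, eq_iff_iff]
      exact ⟨fun h1 h2 => h1 h2.symm, fun h1 h2 => h1 h2.symm⟩
    · push_cast
      rw [abs_sub_comm]
  · have h1 : ∀ q ∈ Finset.range R, (if (u + q) / (R : ℤ) ≠ (w + q) / (R : ℤ) then (1 : ℝ) else 0)
        ≤ (((w + q) / (R : ℤ) - (u + q) / (R : ℤ) : ℤ) : ℝ) := by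
      intro q _
      have hle : (u + q) / (R : ℤ) ≤ (w + q) / (R : ℤ) :=
        Int.ediv_le_ediv (by exact_mod_cast hR) (by linarith)
      split_ifs with hne
      · have : (u + q) / (R : ℤ) < (w + q) / (R : ℤ) := lt_of_le_of_ne hle hne
        have h2 : (1 : ℤ) ≤ (w + q) / (R : ℤ) - (u + q) / (R : ℤ) := by omega
        exact_mod_cast h2
      · have h2 : (0 : ℤ) ≤ (w + q) / (R : ℤ) - (u + q) / (R : ℤ) := by omega
        exact_mod_cast h2
    refine le_trans (Finset.sum_le_sum h1) ?_
    rw [← Int.cast_sum, Finset.sum_sub_distrib, sum_div_shift R hR, sum_div_shift R hR]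
    push_cast
    rw [abs_sub_comm]
    exact le_abs_self _

/-- a pair of nearby points is separated by few of the shifted partitions -/
lemma sep_le (R : ℕ) (hR : 0 < R) (x y : V) :
    (∑ q ∈ Finset.range R, (1 - same (blk R q) x y)) ≤ 3 * (dist3 x y + 1) := by
  have h1 : ∀ q ∈ Finset.range R, (1 - same (blk R q) x y) ≤
      ∑ i : Fin 3, (if (⌊x i⌋ + q) / (R : ℤ) ≠ (⌊y i⌋ + q) / (R : ℤ) then (1 : ℝ) else 0) := by
    intro q _
    have hnn : ∀ i ∈ (Finset.univ : Finset (Fin 3)),
        0 ≤ (if (⌊x i⌋ + q) / (R : ℤ) ≠ (⌊y i⌋ + q) / (R : ℤ) then (1 : ℝ) else 0) := by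
      intro i _
      split_ifs <;> norm_num
    by_cases h : blk R q x = blk R q y
    · rw [same_eq_one h, sub_self]
      exact Finset.sum_nonneg hnn
    · rw [same_eq_zero h, sub_zero]
      obtain ⟨i, hi⟩ := Function.ne_iff.mp h
      refine le_trans (le_of_eq ?_) (Finset.single_le_sum hnn (Finset.mem_univ i))
      have hi' : (⌊x i⌋ + q) / (R : ℤ) ≠ (⌊y i⌋ + q) / (R : ℤ) := hi
      rw [if_pos hi']
  refine le_trans (Finset.sum_le_sum h1) ?_
  rw [Finset.sum_comm]
  calc ∑ i : Fin 3, ∑ q ∈ Finset.range R,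
        (if (⌊x i⌋ + q) / (R : ℤ) ≠ (⌊y i⌋ + q) / (R : ℤ) then (1 : ℝ) else 0)
      ≤ ∑ _i : Fin 3, (dist3 x y + 1) := by
        refine Finset.sum_le_sum (fun i _ => ?_)
        refine le_trans (coord_sep_le R hR _ _) ?_
        refine le_trans (floor_abs_le _ _) ?_
        have := coord_le_dist3 x y i
        linarith
    _ = 3 * (dist3 x y + 1) := by simp; ring

end Vale.Agent.P171
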