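import Mathlib

open MeasureTheory Set Filter Topology

namespace Vale.Agent.P171

/-- The Euclidean distance of `ℝ³`. -/
noncomputable def dist3 (x y : Fin 3 → ℝ) : ℝ := Real.sqrt (∑ i, (x i - y i) ^ 2)

/-- The energy `U_N`: the sum of `φ(|x_i - x_j|)` over the pairs `i < j`. -/
noncomputable def energy (φ : ℝ → ℝ) {N : ℕ} (x : Fin N → Fin 3 → ℝ) : ℝ :=
  ∑ i, ∑ j, if i < j then φ (dist3 (x i) (x j)) else 0

/-- Locally bounded on `(0,∞)`. -/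
def LocallyBounded (φ : ℝ → ℝ) : Prop :=
  ∀ s t : ℝ, 0 < s → ∃ M : ℝ, ∀ r ∈ Icc s t, |φ r| ≤ M

/-- Stability: `U_N ≥ -B N` for all configurations of distinct points. -/
def Stable (φ : ℝ → ℝ) : Prop :=
  ∃ B : ℝ, ∀ (N : ℕ) (x : Fin N → Fin 3 → ℝ), Function.Injective x → -B * N ≤ energy φ x

/-- Temperedness: `φ(r) ≤ C r^(-3-ε)` for all `r ≥ R₀`. -/
def Tempered (φ : ℝ → ℝ) : Prop :=
  ∃ C ε R₀ : ℝ, 0 < C ∧ 0 < ε ∧ 0 < R₀ ∧ ∀ r, R₀ ≤ r → φ r ≤ C * r ^ (-3 - ε)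

/-- `N` points in the cube `[0,L]³`. -/
def cube (L : ℝ) (N : ℕ) : Set (Fin N → Fin 3 → ℝ) := {x | ∀ i k, x i k ∈ Icc 0 L}

/-- The canonical partition function `Z_{L,N}(β)`. -/
noncomputable def Z (φ : ℝ → ℝ) (β L : ℝ) (N : ℕ) : ℝ :=
  (1 / (N.factorial : ℝ)) * ∫ x in cube L N, Real.exp (-β * energy φ x)

/-- `p z` is the thermodynamic limit `lim L⁻³ log ∑ z^N Z_{L,N}(β)` for every `z > 0`
(the series being convergent). -/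
def IsPressure (φ : ℝ → ℝ) (β : ℝ) (p : ℝ → ℝ) : Prop :=
  ∀ z : ℝ, 0 < z → (∀ L : ℝ, 0 < L → Summable (fun N : ℕ => z ^ N * Z φ β L N)) ∧
    Tendsto (fun L : ℝ => Real.log (∑' N : ℕ, z ^ N * Z φ β L N) / L ^ 3) atTop (𝓝 (p z))

end Vale.Agent.P171
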