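import Vale.Agent.P171.Limit

open MeasureTheory Set Filter Topology
open scoped ENNReal

namespace Vale.Agent.P171

/-- unit cubes at mutual distance at least three -/
def dcell (c : Fin 3 → ℕ) : Set V := Set.pi univ (fun i => Icc (4 * (c i : ℝ)) (4 * c i + 1))

lemma measurableSet_dcell (c : Fin 3 → ℕ) : MeasurableSet (dcell c) :=
  MeasurableSet.univ_pi (fun _ => measurableSet_Icc)

lemma volume_dcell (c : Fin 3 → ℕ) : volume (dcell c) = 1 := by
  unfold dcell
  rw [volume_pi_pi]
  simp [Real.volume_Icc]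

lemma dcell_sep {c c' : Fin 3 → ℕ} (hc : c ≠ c') {x y : V} (hx : x ∈ dcell c)
    (hy : y ∈ dcell c') : 2 ≤ dist3 x y := by
  obtain ⟨i, hi⟩ := Function.ne_iff.mp hc
  have h1 := hx i (Set.mem_univ i)
  have h2 := hy i (Set.mem_univ i)
  simp only [Set.mem_Icc] at h1 h2
  have h3 := coord_le_dist3 x y i
  rcases lt_or_gt_of_ne hi with h | h
  · have h4 : (c i : ℝ) + 1 ≤ c' i := by exact_mod_cast h
    have h6 := neg_abs_le (x i - y i)
    linarith
  · have h4 : (c' i : ℝ) + 1 ≤ c i := by exact_mod_cast h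
    have h6 := le_abs_self (x i - y i)
    linarith

lemma Q_finset (κ : V → V → ℝ) {ι : Type*} (C : Finset ι) (x : ι → V) :
    Q κ (C.val.map x) = ∑ c ∈ C, ∑ c' ∈ C, κ (x c) (x c') := by
  unfold Q cross
  rw [Multiset.map_map]
  simp only [Function.comp_def, Multiset.map_map]
  rfl

lemma Q_core_dense (C : Finset (Fin 3 → ℕ)) (x : (Fin 3 → ℕ) → V) (hx : ∀ c ∈ C, x c ∈ dcell c) :
    Q (indk 2) (C.val.map x) = C.card := by
  classical
  rw [Q_finset]
  have h1 : ∀ c ∈ C, ∑ c' ∈ C, indk 2 (x c) (x c') = 1 := by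
    intro c hc
    rw [Finset.sum_eq_single c]
    · unfold indk ind
      rw [dist3_self, if_pos (by norm_num)]
    · intro b hb hbc
      unfold indk ind
      rw [if_neg]
      exact not_lt.mpr (dcell_sep (Ne.symm hbc) (hx c hc) (hx b hb))
    · intro h
      exact absurd hc h
  rw [Finset.sum_congr rfl h1]
  simp

lemma Q_indk_dense (M : ℕ) (j : ℕ) (hj : j ≤ M + 2) (x : (Fin 3 → ℕ) → V)
    (hx : ∀ c ∈ Fintype.piFinset (fun _ : Fin 3 => Finset.range (2 ^ M)), x c ∈ dcell c) :
    ((Fintype.piFinset (fun _ : Fin 3 => Finset.range (2 ^ M))).card : ℝ) / 64 ≤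
      (1 / 8 : ℝ) ^ j *
        Q (indk (2 ^ (j + 1))) ((Fintype.piFinset (fun _ : Fin 3 => Finset.range (2 ^ M))).val.map x) := by
  classical
  set C := Fintype.piFinset (fun _ : Fin 3 => Finset.range (2 ^ M)) with hC
  rw [Q_finset]
  -- number of close cells
  have key : ∀ c ∈ C, (8 : ℝ) ^ j / 64 ≤ ∑ c' ∈ C, indk (2 ^ (j + 1)) (x c) (x c') := by
    intro c hc
    have hcr : ∀ i, c i < 2 ^ M := fun i =>
      Finset.mem_range.mp (Fintype.mem_piFinset.mp (hC ▸ hc) i)
    rcases Nat.lt_or_ge j 2 with hj2 | hj2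
    · have h1 : (1 : ℝ) ≤ ∑ c' ∈ C, indk (2 ^ (j + 1)) (x c) (x c') := by
        refine le_trans (le_of_eq ?_)
          (Finset.single_le_sum (f := fun c' => indk (2 ^ (j + 1)) (x c) (x c'))
          (fun c' _ => indk_nonneg _ _ _) hc)
        unfold indk ind
        rw [dist3_self, if_pos (by positivity)]
      have h2 : (8 : ℝ) ^ j / 64 ≤ 1 := by
        have : (8 : ℝ) ^ j ≤ 8 ^ 2 := pow_le_pow_right₀ (by norm_num) hj2.le
        linarith
      linarith
    · set p := 2 ^ (j - 2) with hp
      have hp0 : 0 < p := by positivity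
      set T := Fintype.piFinset (fun i : Fin 3 => Finset.Ico (p * (c i / p)) (p * (c i / p) + p))
        with hT
      have hTcard : T.card = p ^ 3 := by
        rw [hT, Fintype.card_piFinset]
        simp
      have hdvd : p ∣ 2 ^ M := by
        rw [hp]
        exact pow_dvd_pow 2 (by omega)
      have hTC : T ⊆ C := by
        intro c' hc'
        rw [hT, Fintype.mem_piFinset] at hc'
        rw [hC, Fintype.mem_piFinset]
        intro i
        have h1 := Finset.mem_Ico.mp (hc' i)
        rw [Finset.mem_range]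
        obtain ⟨e, he⟩ := hdvd
        have h2 : c i / p < e := by
          rw [Nat.div_lt_iff_lt_mul hp0]
          have := hcr i
          rw [he] at this
          rw [mul_comm]
          exact this
        have h3 : p * (c i / p) + p ≤ p * e := by
          have : p * (c i / p + 1) ≤ p * e := Nat.mul_le_mul_left p h2
          linarith
        rw [he]
        omega
      have hclose : ∀ c' ∈ T, indk (2 ^ (j + 1)) (x c) (x c') = 1 := by
        intro c' hc'
        unfold indk ind
        rw [if_pos]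
        have hpj : (4 : ℝ) * p = 2 ^ j := by
          have h3 : 4 * p = 2 ^ j := by
            rw [hp]
            calc 4 * 2 ^ (j - 2) = 2 ^ 2 * 2 ^ (j - 2) := by norm_num
              _ = 2 ^ (2 + (j - 2)) := by rw [pow_add]
              _ = 2 ^ j := by congr 1; omega
          exact_mod_cast h3
        have h1 : ∀ i, |x c i - x c' i| ≤ 2 ^ j := by
          intro i
          have hxc := hx c hc i (Set.mem_univ i)
          have hxc' := hx c' (hTC hc') i (Set.mem_univ i)
          simp only [Set.mem_Icc] at hxc hxc'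
          have h4 := Finset.mem_Ico.mp (Fintype.mem_piFinset.mp hc' i)
          have h5 : p * (c i / p) ≤ c i := Nat.mul_div_le _ _
          have h6 : c i < p * (c i / p) + p := by
            have := Nat.div_add_mod (c i) p
            have := Nat.mod_lt (c i) hp0
            omega
          have h7 : c i + 1 ≤ c' i + p := by omega
          have h8 : c' i + 1 ≤ c i + p := by omega
          have h7' : (c i : ℝ) + 1 ≤ c' i + p := by exact_mod_cast h7
          have h8' : (c' i : ℝ) + 1 ≤ c i + p := by exact_mod_cast h8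
          rw [abs_le]
          constructor <;> linarith
        have h2 := dist3_lt_of_coord (by positivity) h1
        rw [pow_succ]
        linarith
      calc (8 : ℝ) ^ j / 64 = (p : ℝ) ^ 3 := by
            rw [hp]
            push_cast
            rw [← pow_mul, mul_comm (j - 2) 3, pow_mul]
            norm_num
            rw [div_eq_iff (by norm_num)]
            calc (8 : ℝ) ^ j = 8 ^ ((j - 2) + 2) := by congr 1; omega
              _ = 8 ^ (j - 2) * 64 := by rw [pow_add]; norm_num
        _ = ∑ _c' ∈ T, (1 : ℝ) := by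
            rw [Finset.sum_const, hTcard, nsmul_eq_mul, mul_one]
            push_cast
            rfl
        _ = ∑ c' ∈ T, indk (2 ^ (j + 1)) (x c) (x c') :=
            Finset.sum_congr rfl (fun c' hc' => (hclose c' hc').symm)
        _ ≤ ∑ c' ∈ C, indk (2 ^ (j + 1)) (x c) (x c') :=
            Finset.sum_le_sum_of_subset_of_nonneg hTC (fun c' _ _ => indk_nonneg _ _ _)
  calc (C.card : ℝ) / 64 = (1 / 8 : ℝ) ^ j * ∑ _c ∈ C, (8 : ℝ) ^ j / 64 := by
        rw [Finset.sum_const, nsmul_eq_mul]
        have : (1 / 8 : ℝ) ^ j * (C.card * (8 ^ j / 64)) = ((1 / 8) * 8) ^ j * (C.card / 64) := by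
          rw [mul_pow]
          ring
        rw [this]
        norm_num
    _ ≤ (1 / 8 : ℝ) ^ j * ∑ c ∈ C, ∑ c' ∈ C, indk (2 ^ (j + 1)) (x c) (x c') :=
        mul_le_mul_of_nonneg_left (Finset.sum_le_sum key) (by positivity)

lemma lX_dense {K : ℝ} (hK0 : 0 ≤ K) {a : ℕ → ℝ} (ha : ∀ j, 0 ≤ a j) (hs : Summable a)
    (hK : 125 * (∑' j, a j) ≤ K) (m : ℝ) (M : ℕ) :
    ((2 : ℝ) ^ M) ^ 3 * (m - K / 2 + (∑ j ∈ Finset.range (M + 3), a j) / 128) ≤
      lX K a m (4 * 2 ^ M) := by
  classical
  set C := Fintype.piFinset (fun _ : Fin 3 => Finset.range (2 ^ M)) with hC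
  have hcard : (C.card : ℝ) = ((2 : ℝ) ^ M) ^ 3 := by
    rw [hC, Fintype.card_piFinset_const, Finset.card_range]
    push_cast
    rfl
  set v := ((2 : ℝ) ^ M) ^ 3 * (m - K / 2 + (∑ j ∈ Finset.range (M + 3), a j) / 128) with hv
  have hsub : (⋃ c ∈ C, dcell c) ⊆ box (4 * 2 ^ M) := by
    intro y hy
    simp only [Set.mem_iUnion] at hy
    obtain ⟨c, hc, hyc⟩ := hy
    intro i _
    have h1 := hyc i (Set.mem_univ i)
    simp only [Set.mem_Icc] at h1 ⊢
    have h2 : c i < 2 ^ M := Finset.mem_range.mp (Fintype.mem_piFinset.mp (hC ▸ hc) i)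
    have h3 : (c i : ℝ) + 1 ≤ 2 ^ M := by exact_mod_cast h2
    have h4 : (0 : ℝ) ≤ c i := by positivity
    constructor <;> linarith
  have hmain : ENNReal.ofReal (Real.exp v) ≤ Xi K a m (4 * 2 ^ M) := by
    refine le_trans ?_ (G_mono_set hsub _ _)
    refine le_G_biUnion dcell measurableSet_dcell volume_dcell
      (MeasC_W m (measurable_ker K a ha hs)) _ C ?_ 0 ?_
    · intro i _ j _ hij
      rw [Set.disjoint_left]
      intro x hx hx'
      have := dcell_sep hij hx hx'
      rw [dist3_self] at this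
      linarith
    · intro x hx
      rw [add_zero]
      unfold W
      refine ENNReal.ofReal_le_ofReal (Real.exp_le_exp.mpr ?_)
      rw [Q_ker, Q_core_dense C x hx, Multiset.card_map]
      have h1 : Multiset.card C.val = C.card := rfl
      rw [h1, hcard]
      have h2 := Q_attk_hasSum ha hs (C.val.map x)
      have h3 : ∑ j ∈ Finset.range (M + 3), a j * (1 / 8) ^ j * Q (indk (2 ^ (j + 1))) (C.val.map x)
          ≤ Q (attk a) (C.val.map x) :=
        sum_le_hasSum _ (fun j _ => mul_nonneg (mul_nonneg (ha j) (by positivity))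
          (Q_nonneg (fun _ _ _ _ => indk_nonneg _ _ _))) h2
      have h4 : (∑ j ∈ Finset.range (M + 3), a j) * (((2 : ℝ) ^ M) ^ 3 / 64) ≤
          ∑ j ∈ Finset.range (M + 3), a j * (1 / 8) ^ j * Q (indk (2 ^ (j + 1))) (C.val.map x) := by
        rw [Finset.sum_mul]
        refine Finset.sum_le_sum (fun j hj => ?_)
        rw [mul_assoc]
        refine mul_le_mul_of_nonneg_left ?_ (ha j)
        have := Q_indk_dense M j (by have := Finset.mem_range.mp hj; omega) x (hC ▸ hx)
        rw [← hC, hcard] at this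
        exact this
      rw [hv]
      linarith
  unfold lX
  have hnt := Xi_ne_top hK0 ha hs hK m (L := 4 * 2 ^ M) (by positivity)
  have h5 := ENNReal.toReal_mono hnt hmain
  rw [ENNReal.toReal_ofReal (Real.exp_pos _).le] at h5
  have h6 := Real.log_le_log (Real.exp_pos _) h5
  rwa [Real.log_exp] at h6

/-- **dense lower bound** -/
lemma P_dense {K : ℝ} (hK0 : 0 ≤ K) {a : ℕ → ℝ} (ha : ∀ j, 0 ≤ a j) (hs : Summable a)
    (hK : 125 * (∑' j, a j) ≤ K) (m : ℝ) :
    (m - K / 2) / 64 + (∑' j, a j) / 8192 ≤ P K a m := by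
  have h1 := P_tendsto hK0 ha hs hK m
  have h2 : Tendsto (fun M : ℕ => (4 * 2 ^ M : ℝ)) atTop atTop :=
    Tendsto.const_mul_atTop (by norm_num) (tendsto_pow_atTop_atTop_of_one_lt (by norm_num))
  have h3 := h1.comp h2
  have h4 : Tendsto (fun M : ℕ => (m - K / 2) / 64 + (∑ j ∈ Finset.range (M + 3), a j) / 8192)
      atTop (𝓝 ((m - K / 2) / 64 + (∑' j, a j) / 8192)) := by
    refine Tendsto.const_add _ (Tendsto.div_const ?_ _)
    exact (tendsto_add_atTop_iff_nat 3).mpr hs.hasSum.tendsto_sum_nat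
  refine le_of_tendsto_of_tendsto' h4 h3 (fun M => ?_)
  simp only [Function.comp_def]
  rw [le_div_iff₀ (by positivity)]
  refine le_trans (le_of_eq ?_) (lX_dense hK0 ha hs hK m M)
  ring

end Vale.Agent.P171
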