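import Mathlib

open Filter Topology

namespace Vale.Agent.P171

/-- Ekeland's variational principle -/
lemma ekeland {X : Type*} [MetricSpace X] [CompleteSpace X] (F : X → ℝ)
    (hF : LowerSemicontinuous F) (hb : BddBelow (Set.range F)) {ε : ℝ} (hε : 0 < ε) (x0 : X) :
    ∃ x, F x + ε * dist x0 x ≤ F x0 ∧ ∀ y, F x ≤ F y + ε * dist x y := by
  classical
  -- the slice sets
  let T : X → Set X := fun x => {y | F y + ε * dist x y ≤ F x}
  have hself : ∀ x, x ∈ T x := fun x => by simp [T]
  have hTtrans : ∀ x y, y ∈ T x → T y ⊆ T x := by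
    intro x y hy z hz
    simp only [T, Set.mem_setOf_eq] at hy hz ⊢
    have := dist_triangle x y z
    nlinarith
  have hinf : ∀ x, BddBelow (F '' T x) := fun x => hb.mono (Set.image_subset_range _ _)
  have hstep : ∀ (x : X) (δ : ℝ), 0 < δ → ∃ y ∈ T x, F y < sInf (F '' T x) + δ := by
    intro x δ hδ
    obtain ⟨_, ⟨y, hy, rfl⟩, hlt⟩ := Real.lt_sInf_add_pos
      (s := F '' T x) ⟨F x, x, hself x, rfl⟩ hδ
    exact ⟨y, hy, hlt⟩
  choose! nxt hnxt1 hnxt2 using hstep
  let u : ℕ → X := fun n => Nat.rec x0 (fun k x => nxt x ((1 / 2 : ℝ) ^ k)) n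
  have hu0 : u 0 = x0 := rfl
  have hus : ∀ n, u (n + 1) = nxt (u n) ((1 / 2 : ℝ) ^ n) := fun n => rfl
  have hmem : ∀ n, u (n + 1) ∈ T (u n) := fun n => by
    rw [hus]
    exact hnxt1 _ _ (by positivity)
  have hlt : ∀ n, F (u (n + 1)) < sInf (F '' T (u n)) + (1 / 2 : ℝ) ^ n := fun n => by
    rw [hus]
    exact hnxt2 _ _ (by positivity)
  have hmono : ∀ m n, m ≤ n → T (u n) ⊆ T (u m) := by
    intro m n hmn
    induction hmn with
    | refl => exact le_refl _
    | step _ ih => exact (hTtrans _ _ (hmem _)).trans ih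
  -- points of later slices are close
  have hclose : ∀ n, ∀ y ∈ T (u (n + 1)), ε * dist (u (n + 1)) y ≤ (1 / 2 : ℝ) ^ n := by
    intro n y hy
    have h1 : F y + ε * dist (u (n + 1)) y ≤ F (u (n + 1)) := hy
    have h2 : sInf (F '' T (u n)) ≤ F y :=
      csInf_le (hinf _) ⟨y, hmono n (n + 1) (Nat.le_succ n) hy, rfl⟩
    have h3 := hlt n
    linarith
  have hcauchy : CauchySeq u := by
    rw [Metric.cauchySeq_iff']
    intro δ hδ
    have hlim : Tendsto (fun n : ℕ => (1 / 2 : ℝ) ^ n / ε) atTop (𝓝 0) := by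
      have := (tendsto_pow_atTop_nhds_zero_of_lt_one (by norm_num : (0 : ℝ) ≤ 1 / 2)
        (by norm_num)).div_const ε
      simpa using this
    obtain ⟨n, hn⟩ := (hlim.eventually (gt_mem_nhds hδ)).exists
    refine ⟨n + 1, fun m hm => ?_⟩
    have h1 : u m ∈ T (u (n + 1)) := hmono _ _ hm (hself _)
    have h2 := hclose n _ h1
    rw [dist_comm]
    have h3 : dist (u (n + 1)) (u m) ≤ (1 / 2 : ℝ) ^ n / ε := by
      rw [le_div_iff₀ hε]
      linarith
    linarith
  obtain ⟨x, hx⟩ := cauchySeq_tendsto_of_complete hcauchy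
  have hclosed : ∀ z, IsClosed (T z) := by
    intro z
    have hg : LowerSemicontinuous (fun y => F y + ε * dist z y) :=
      hF.add (Continuous.lowerSemicontinuous (by fun_prop))
    have : T z = (fun y => F y + ε * dist z y) ⁻¹' Set.Iic (F z) := rfl
    rw [this]
    exact hg.isClosed_preimage _
  have hxT : ∀ n, x ∈ T (u n) := by
    intro n
    refine (hclosed (u n)).mem_of_tendsto hx ?_
    filter_upwards [eventually_ge_atTop n] with m hm
    exact hmono n m hm (hself _)
  refine ⟨x, ?_, ?_⟩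
  · have := hxT 0
    rw [hu0] at this
    exact this
  · intro y
    by_contra hcon
    push_neg at hcon
    have hyx : y ∈ T x := by
      simp only [T, Set.mem_setOf_eq]
      exact hcon.le
    have hyn : ∀ n, y ∈ T (u n) := fun n => hTtrans _ _ (hxT n) hyx
    -- y is a limit of the sequence
    have hlim2 : Tendsto (fun n : ℕ => (1 / 2 : ℝ) ^ n / ε) atTop (𝓝 0) := by
      have := (tendsto_pow_atTop_nhds_zero_of_lt_one (by norm_num : (0 : ℝ) ≤ 1 / 2)
        (by norm_num)).div_const ε
      simpa using this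
    have hy0 : Tendsto (fun n => u (n + 1)) atTop (𝓝 y) := by
      rw [tendsto_iff_dist_tendsto_zero]
      refine squeeze_zero (fun _ => dist_nonneg) (fun n => ?_) hlim2
      have h2 := hclose n _ (hyn (n + 1))
      rw [le_div_iff₀ hε]
      linarith
    have hxy : x = y := tendsto_nhds_unique ((tendsto_add_atTop_iff_nat 1).mpr hx) hy0
    subst hxy
    simp at hcon

end Vale.Agent.P171
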