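import Vale.Agent.P171.Lsc

open MeasureTheory Set Filter Topology
open scoped ENNReal

namespace Vale.Agent.P171

/-- absolutely summable sequences -/
abbrev ell := lp (fun _ : ℕ => ℝ) 1

lemma ell_summable_abs (f : ell) : Summable (fun j => |f j|) := by
  have h := (lp.memℓp f).summable (by norm_num)
  simpa using h

lemma ell_summable (f : ell) : Summable (fun j => f j) := (ell_summable_abs f).of_abs

lemma ell_norm (f : ell) : ‖f‖ = ∑' j, |f j| := by
  have h := lp.norm_eq_tsum_rpow (p := 1) (by norm_num) f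
  simpa using h

lemma ell_norm_sub (f g : ell) : ‖f - g‖ = ∑' j, |f j - g j| := by
  rw [ell_norm]
  rfl

/-- parameter space -/
def XS (A0 : ℝ) : Set (ℝ × ell) := {p | (∀ j, 0 ≤ p.2 j) ∧ ‖p.2‖ ≤ A0}

lemma isClosed_XS (A0 : ℝ) : IsClosed (XS A0) := by
  have h1 : XS A0 = (⋂ j, {p : ℝ × ell | 0 ≤ p.2 j}) ∩ {p : ℝ × ell | ‖p.2‖ ≤ A0} := by
    ext p
    simp [XS]
  rw [h1]
  refine IsClosed.inter (isClosed_iInter (fun j => ?_)) ?_
  · have hcont : Continuous (fun p : ℝ × ell => p.2 j) := by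
      have h2 : Continuous (fun f : ell => f j) := by
        refine LipschitzWith.continuous (K := 1) (LipschitzWith.of_dist_le_mul (fun f g => ?_))
        rw [NNReal.coe_one, one_mul, dist_eq_norm, dist_eq_norm]
        exact lp.norm_apply_le_norm one_ne_zero (f - g) j
      exact h2.comp continuous_snd
    exact isClosed_le continuous_const hcont
  · exact isClosed_le (by fun_prop) continuous_const

lemma XS_tsum {A0 : ℝ} {p : ℝ × ell} (hp : p ∈ XS A0) : ∑' j, p.2 j = ‖p.2‖ := by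
  rw [ell_norm]
  refine tsum_congr (fun j => ?_)
  rw [abs_of_nonneg (hp.1 j)]

/-- the functional -/
noncomputable def Fn (K A0 : ℝ) (p : XS A0) : ℝ :=
  P K (fun j => p.1.2 j) (p.1.1 + K / 2) - (1 / 2 ^ 10) * (p.1.1 / 64 + ‖p.1.2‖ / 8192)

lemma Fn_lsc {K A0 : ℝ} (hK : 125 * A0 + 2 ≤ K) (hA0 : 0 ≤ A0) : LowerSemicontinuous (Fn K A0) := by
  have hK0 : 0 ≤ K := by linarith
  have h1 : LowerSemicontinuous (fun p : XS A0 => P K (fun j => p.1.2 j) (p.1.1 + K / 2)) := by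
    intro p b hb
    have hpK : 125 * (∑' j, p.1.2 j) ≤ K := by
      rw [XS_tsum p.2]
      have := p.2.2
      linarith
    obtain ⟨δ, hδ, h2⟩ := P_lsc hK0 p.2.1 (ell_summable _) hpK (p.1.1 + K / 2) hb
    filter_upwards [Metric.closedBall_mem_nhds p hδ] with q hq
    have hqK : 125 * (∑' j, q.1.2 j) ≤ K := by
      rw [XS_tsum q.2]
      have := q.2.2
      linarith
    have hd : dist q p ≤ δ := hq
    have hd' : dist q.1 p.1 ≤ δ := hd
    rw [Prod.dist_eq] at hd'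
    have hd1 : dist q.1.1 p.1.1 ≤ δ := (le_max_left _ _).trans hd'
    have hd2 : dist q.1.2 p.1.2 ≤ δ := (le_max_right _ _).trans hd'
    refine h2 _ _ q.2.1 (ell_summable _) hqK ?_ ?_
    · rw [dist_comm, dist_eq_norm, ell_norm_sub] at hd2
      exact hd2
    · rw [dist_comm, Real.dist_eq] at hd1
      have : p.1.1 + K / 2 - (q.1.1 + K / 2) = p.1.1 - q.1.1 := by ring
      rw [this]
      exact hd1
  have h2 : Continuous (fun p : XS A0 => -((1 / 2 ^ 10 : ℝ) * (p.1.1 / 64 + ‖p.1.2‖ / 8192))) := by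
    fun_prop
  have h3 := h1.add h2.lowerSemicontinuous
  have h4 : Fn K A0 = fun p : XS A0 => P K (fun j => p.1.2 j) (p.1.1 + K / 2) +
      -((1 / 2 ^ 10 : ℝ) * (p.1.1 / 64 + ‖p.1.2‖ / 8192)) := by
    funext p
    unfold Fn
    ring
  rw [h4]
  exact h3

lemma Fn_nonneg {K A0 : ℝ} (hK : 125 * A0 + 2 ≤ K) (hA0 : 0 ≤ A0) (p : XS A0) : 0 ≤ Fn K A0 p := by
  have hK0 : 0 ≤ K := by linarith
  have hpK : 125 * (∑' j, p.1.2 j) ≤ K := by
    rw [XS_tsum p.2]
    have := p.2.2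
    linarith
  have h1 := P_nonneg hK0 p.2.1 (ell_summable p.1.2) hpK (p.1.1 + K / 2)
  have h2 := P_dense hK0 p.2.1 (ell_summable p.1.2) hpK (p.1.1 + K / 2)
  rw [XS_tsum p.2] at h2
  unfold Fn
  have h3 : (p.1.1 + K / 2 - K / 2) / 64 = p.1.1 / 64 := by ring
  rw [h3] at h2
  rcases le_total 0 (p.1.1 / 64 + ‖p.1.2‖ / 8192) with h | h
  · have : (1 / 2 ^ 10 : ℝ) * (p.1.1 / 64 + ‖p.1.2‖ / 8192) ≤
        1 * (p.1.1 / 64 + ‖p.1.2‖ / 8192) :=
      mul_le_mul_of_nonneg_right (by norm_num) h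
    linarith
  · have : (1 / 2 ^ 10 : ℝ) * (p.1.1 / 64 + ‖p.1.2‖ / 8192) ≤ 0 :=
      mul_nonpos_of_nonneg_of_nonpos (by norm_num) h
    linarith

lemma att_zero (r : ℝ) : att (fun _ => 0) r = 0 := by
  unfold att
  simp

lemma P_zero_le {K : ℝ} (hK0 : 0 ≤ K) : P K (fun _ => 0) (0 + K / 2) ≤ 1 := by
  have ha : ∀ j : ℕ, (0 : ℝ) ≤ (fun _ : ℕ => (0 : ℝ)) j := fun _ => le_refl _
  have hs : Summable (fun _ : ℕ => (0 : ℝ)) := summable_zero
  have hK : 125 * (∑' _j : ℕ, (0 : ℝ)) ≤ K := by simpa using hK0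
  refine le_of_tendsto (P_tendsto hK0 ha hs hK (0 + K / 2)) ?_
  filter_upwards [eventually_gt_atTop 0] with L hL
  rw [div_le_one (by positivity)]
  have h1 : Xi K (fun _ => 0) (0 + K / 2) L ≤ ENNReal.ofReal (Real.exp (Real.exp 0 * L ^ 3)) := by
    unfold Xi
    refine G_le_exp (measurableSet_box L) (volume_box hL.le) (by positivity) 0 _ (fun s => ?_)
    unfold W
    refine ENNReal.ofReal_le_ofReal (Real.exp_le_exp.mpr ?_)
    rw [Q_ker]
    have h2 : Q (attk (fun _ => 0)) s = 0 := by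
      have : attk (fun _ => 0) = fun _ _ => (0 : ℝ) := by
        funext x y
        unfold attk
        exact att_zero _
      rw [this]
      exact cross_zero s s
    have h3 := Q_cell_le_core s
    have h4 := card_le_Q_cell s
    rw [h2]
    nlinarith
  unfold lX
  have h5 := one_le_toReal (one_le_Xi K (fun _ => 0) (0 + K / 2) L)
    (Xi_ne_top hK0 ha hs hK (0 + K / 2) hL.le)
  have h6 := ENNReal.toReal_le_of_le_ofReal (Real.exp_pos _).le h1
  rw [Real.log_le_iff_le_exp (by linarith)]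
  simpa using h6

/-- **the variational step** -/
lemma exists_extremal (K A0 : ℝ) (hA0 : A0 = 2 ^ 25 + 1) (hK : K = 125 * A0 + 2) :
    ∃ (a : ℕ → ℝ) (μ : ℝ), (∀ j, 0 ≤ a j) ∧ Summable a ∧ ∑' j, a j ≤ 2 ^ 25 ∧
      (∀ h, 0 ≤ h → P K a (μ + K / 2) - P K a (μ - h + K / 2) ≤
        h * (1 / 2 ^ 10 / 64 + 1 / 2 ^ 25)) ∧
      (∀ (k : ℕ) (t : ℝ), 0 ≤ t → t ≤ 1 →
        P K a (μ + K / 2) + t * (1 / 2 ^ 10 / 8192 - 1 / 2 ^ 25) ≤
          P K (pert a k t) (μ + K / 2)) := by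
  have hA0p : 0 ≤ A0 := by rw [hA0]; positivity
  have hK0 : 0 ≤ K := by rw [hK]; positivity
  have hcs : CompleteSpace (XS A0) := (isClosed_XS A0).completeSpace_coe
  let x0 : XS A0 := ⟨(0, 0), by
    constructor
    · intro j
      simp
    · simpa using hA0p⟩
  have hbdd : BddBelow (Set.range (Fn K A0)) :=
    ⟨0, by rintro _ ⟨p, rfl⟩; exact Fn_nonneg hK.ge hA0p p⟩
  obtain ⟨x, hx1, hx2⟩ := ekeland (Fn K A0) (Fn_lsc hK.ge hA0p) hbdd
    (show (0 : ℝ) < 1 / 2 ^ 25 by positivity) x0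
  have hF0 : Fn K A0 x0 ≤ 1 := by
    unfold Fn
    have h1 := P_zero_le hK0
    have h2 : (fun j => x0.1.2 j) = fun _ => (0 : ℝ) := by
      funext j
      rfl
    have h3 : x0.1.1 = 0 := rfl
    have h4 : ‖x0.1.2‖ = 0 := norm_zero
    rw [h2, h3, h4]
    simpa using h1
  have hFx := Fn_nonneg hK.ge hA0p x
  have hdist : dist x0 x ≤ 2 ^ 25 := by
    have : (1 / 2 ^ 25 : ℝ) * dist x0 x ≤ 1 := by linarith
    linarith
  have hnorm : ‖x.1.2‖ ≤ 2 ^ 25 := by
    have h1 : dist x0.1 x.1 ≤ 2 ^ 25 := hdist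
    rw [Prod.dist_eq] at h1
    have h2 : dist x0.1.2 x.1.2 ≤ 2 ^ 25 := (le_max_right _ _).trans h1
    have h3 : x0.1.2 = 0 := rfl
    rw [h3, dist_zero_left] at h2
    exact h2
  refine ⟨fun j => x.1.2 j, x.1.1, x.2.1, ell_summable _, ?_, ?_, ?_⟩
  · rw [XS_tsum x.2]
    exact hnorm
  · intro h hh
    let y : XS A0 := ⟨(x.1.1 - h, x.1.2), x.2⟩
    have h1 := hx2 y
    have h2 : dist x y = h := by
      have : dist x y = dist x.1 y.1 := rfl
      rw [this, Prod.dist_eq]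
      simp only [y, dist_self]
      rw [Real.dist_eq]
      have : x.1.1 - (x.1.1 - h) = h := by ring
      rw [this, abs_of_nonneg hh, max_eq_left hh]
    rw [h2] at h1
    unfold Fn at h1
    simp only [y] at h1
    linarith
  · intro k t ht ht1
    have hsum : ∀ j, (x.1.2 + lp.single 1 k t : ell) j = pert (fun j => x.1.2 j) k t j := by
      intro j
      unfold pert
      rw [lp.coeFn_add, Pi.add_apply, lp.single_apply]
      congr 1
      by_cases hjk : j = k
      · subst hjk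
        simp
      · simp [hjk]
    have hnn := pert_nonneg (a := fun j => x.1.2 j) x.2.1 k ht
    have hyn : ‖(x.1.2 + lp.single 1 k t : ell)‖ = ‖x.1.2‖ + t := by
      have h1 : ‖(x.1.2 + lp.single 1 k t : ell)‖ = ∑' j, pert (fun j => x.1.2 j) k t j := by
        rw [ell_norm]
        refine tsum_congr (fun j => ?_)
        rw [hsum, abs_of_nonneg (hnn j)]
      rw [h1, (pert_hasSum (ell_summable x.1.2) k t).tsum_eq, XS_tsum x.2]
    let y : XS A0 := ⟨(x.1.1, x.1.2 + lp.single 1 k t), by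
      constructor
      · intro j
        rw [hsum]
        exact hnn j
      · rw [hyn]
        linarith⟩
    have h1 := hx2 y
    have h2 : dist x y = t := by
      have : dist x y = dist x.1 y.1 := rfl
      rw [this, Prod.dist_eq]
      simp only [y, dist_self]
      rw [dist_eq_norm]
      have : x.1.2 - (x.1.2 + lp.single 1 k t) = -(lp.single 1 k t : ell) := by abel
      rw [this, norm_neg, lp.norm_single (by norm_num), Real.norm_of_nonneg ht, max_eq_right ht]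
    rw [h2] at h1
    unfold Fn at h1
    simp only [y] at h1
    rw [hyn] at h1
    have h3 : (fun j => (x.1.2 + lp.single 1 k t : ell) j) = pert (fun j => x.1.2 j) k t :=
      funext hsum
    rw [h3] at h1
    linarith

/-- **the pressure has a kink for some potential of the family** -/
theorem exists_kink : ∃ (K : ℝ) (a : ℕ → ℝ), (∀ j, 0 ≤ a j) ∧ Summable a ∧
    125 * (∑' j, a j) + 2 ≤ K ∧ ∃ m, ¬ DifferentiableAt ℝ (P K a) m := by
  set A0 : ℝ := 2 ^ 25 + 1 with hA0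
  set K : ℝ := 125 * A0 + 2 with hKdef
  obtain ⟨a, μ, ha, hs, hsum, hleft, hright⟩ := exists_extremal K A0 hA0 hKdef
  have hK2 : 125 * (∑' j, a j) + 2 ≤ K := by
    rw [hKdef, hA0]
    linarith
  have hK0 : 0 ≤ K := by
    rw [hKdef, hA0]
    positivity
  have hK1 : 125 * (∑' j, a j) ≤ K := by linarith
  refine ⟨K, a, ha, hs, hK2, μ + K / 2, ?_⟩
  intro hdiff
  set m := μ + K / 2 with hm
  set c0 : ℝ := 1 / 2 ^ 10 / 64 + 1 / 2 ^ 25 with hc0
  set ρ := deriv (P K a) m with hρ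
  have hder := hdiff.hasDerivAt
  rw [hasDerivAt_iff_tendsto_slope_zero] at hder
  -- the slope is at most c0
  have hρle : ρ ≤ c0 := by
    have h1 : Tendsto (fun t => t⁻¹ • (P K a (m + t) - P K a m)) (𝓝[<] 0) (𝓝 ρ) :=
      hder.mono_left (nhdsWithin_mono _ (fun x hx => ne_of_lt hx))
    refine le_of_tendsto h1 ?_
    filter_upwards [self_mem_nhdsWithin] with t ht
    have ht' : t < 0 := ht
    have h2 := hleft (-t) (by linarith)
    have h3 : μ - -t + K / 2 = m + t := by rw [hm]; ring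
    rw [h3] at h2
    rw [smul_eq_mul, inv_mul_eq_div, div_le_iff_of_neg ht']
    linarith only [h2]
  set x1 : ℝ := c0 + 1 / 2 ^ 25 with hx1
  have hx1p : 0 ≤ x1 := by rw [hx1, hc0]; positivity
  -- choose h
  obtain ⟨h, hh0, hh⟩ : ∃ h : ℝ, 0 < h ∧ P K a (m + h) - P K a m ≤ h * (c0 + 1 / 2 ^ 26) := by
    have h1 : Tendsto (fun t => t⁻¹ • (P K a (m + t) - P K a m)) (𝓝[>] 0) (𝓝 ρ) :=
      hder.mono_left (nhdsWithin_mono _ (fun x hx => ne_of_gt hx))
    have h2 : ρ < c0 + 1 / 2 ^ 26 := by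
      have : (0 : ℝ) < 1 / 2 ^ 26 := by positivity
      exact lt_of_le_of_lt hρle (lt_add_of_pos_right _ this)
    obtain ⟨h, hh1, hh2⟩ := ((h1.eventually (gt_mem_nhds h2)).and self_mem_nhdsWithin).exists
    have hh3 : 0 < h := hh2
    refine ⟨h, hh3, ?_⟩
    rw [smul_eq_mul, inv_mul_lt_iff₀ hh3] at hh1
    exact hh1.le
  -- choose t
  set t : ℝ := min (1 / 250) (h / (2 ^ 26 * 125 * Real.exp m)) with ht
  have ht0 : 0 < t := lt_min (by norm_num) (by positivity)
  have ht1 : t ≤ 1 / 250 := min_le_left _ _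
  have ht2 : 125 * t * Real.exp m ≤ h / 2 ^ 26 := by
    have h1 : t ≤ h / (2 ^ 26 * 125 * Real.exp m) := min_le_right _ _
    rw [le_div_iff₀ (by positivity)] at h1
    rw [le_div_iff₀ (by positivity)]
    linarith
  -- the upper bound, for large k
  have htau := tau_tendsto ha hs
  have hev : ∀ᶠ k : ℕ in atTop, P K a m + t * (1 / 2 ^ 10 / 8192 - 1 / 2 ^ 25) ≤
      Real.log 3 / ((2 : ℝ) ^ k) ^ 3 + max 0 (max
        (125 * tau a (2 ^ k) / 2 * (2 * Real.exp m) + 125 * t / 2 * x1 ^ 2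
          + lX K a m (2 ^ k) / ((2 : ℝ) ^ k) ^ 3)
        (-(h * x1) + (125 * tau a (2 ^ k) / 2 + 125 * t / 2) * (2 * Real.exp m)
          + lX K a (m + h) (2 ^ k) / ((2 : ℝ) ^ k) ^ 3)) := by
    have h1 : ∀ᶠ k : ℕ in atTop, tau a (2 ^ k) < 1 / 250 :=
      htau.eventually (gt_mem_nhds (by norm_num))
    filter_upwards [h1] with k hk
    refine (hright k t ht0.le (by linarith)).trans ?_
    have htK : 125 * ((∑' j, a j) + t) ≤ K := by linarith
    have h2 := P_upper hK0 ha hs hK2 ht0.le htK hx1p hh0.le m k (by linarith)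
    refine h2.trans (le_of_eq ?_)
    have hR : (0 : ℝ) < ((2 : ℝ) ^ k) ^ 3 := by positivity
    rw [add_div]
    congr 1
    have hdiv : ∀ u v : ℝ, max u v / ((2 : ℝ) ^ k) ^ 3 =
        max (u / ((2 : ℝ) ^ k) ^ 3) (v / ((2 : ℝ) ^ k) ^ 3) := fun u v =>
      (max_div_div_right hR.le u v).symm
    rw [hdiv, hdiv, zero_div, add_div, add_div, mul_div_cancel_left₀ _ hR.ne',
      mul_div_cancel_left₀ _ hR.ne']
  have hlim1 : Tendsto (fun k : ℕ => Real.log 3 / ((2 : ℝ) ^ k) ^ 3) atTop (𝓝 0) := by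
    refine Tendsto.div_atTop tendsto_const_nhds ?_
    exact (tendsto_pow_atTop (by norm_num)).comp (tendsto_pow_atTop_atTop_of_one_lt (by norm_num))
  have h2k : Tendsto (fun k : ℕ => (2 : ℝ) ^ k) atTop atTop :=
    tendsto_pow_atTop_atTop_of_one_lt (by norm_num)
  have hlim2 := (P_tendsto hK0 ha hs hK1 m).comp h2k
  have hlim3 := (P_tendsto hK0 ha hs hK1 (m + h)).comp h2k
  simp only [Function.comp_def] at hlim2 hlim3
  have hlim := hlim1.add ((tendsto_const_nhds (x := (0 : ℝ))).max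
    ((((((htau.const_mul 125).div_const 2).mul_const (2 * Real.exp m)).add_const
      (125 * t / 2 * x1 ^ 2)).add hlim2).max
    ((((((htau.const_mul 125).div_const 2).add_const (125 * t / 2)).mul_const
      (2 * Real.exp m)).const_add (-(h * x1))).add hlim3)))
  have hfin := ge_of_tendsto hlim hev
  have hP0 := P_nonneg hK0 ha hs hK1 m
  have hκ : (0 : ℝ) < t * (1 / 2 ^ 10 / 8192 - 1 / 2 ^ 25) := by
    apply mul_pos ht0
    norm_num
  rw [zero_add] at hfin
  rcases le_max_iff.mp hfin with h1 | h1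
  · exact absurd (add_pos_of_nonneg_of_pos hP0 hκ) (not_lt.mpr h1)
  · rcases le_max_iff.mp h1 with h1 | h1
    · have h3 : 125 / 2 * x1 ^ 2 < 1 / 2 ^ 10 / 8192 - 1 / 2 ^ 25 := by
        rw [hx1, hc0]
        norm_num
      have h4 : t * (125 / 2 * x1 ^ 2) < t * (1 / 2 ^ 10 / 8192 - 1 / 2 ^ 25) :=
        mul_lt_mul_of_pos_left h3 ht0
      linarith only [h1, h4]
    · have h5 : h * x1 = h * (c0 + 1 / 2 ^ 26) + h / 2 ^ 26 := by
        rw [hx1]
        ring
      linarith only [h1, h5, hh, ht2, hκ]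

end Vale.Agent.P171
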