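import Vale.Agent.P171.Count

open MeasureTheory Set Filter Topology
open scoped ENNReal

namespace Vale.Agent.P171

/-- indicator kernel of range `c` -/
noncomputable def indk (c : ℝ) (x y : V) : ℝ := ind c (dist3 x y)

lemma indk_nonneg (c : ℝ) (x y : V) : 0 ≤ indk c x y := ind_nonneg _ _

lemma measurable_indk (c : ℝ) : Measurable (fun p : V × V => indk c p.1 p.2) :=
  (measurable_ind c).comp measurable_dist3

lemma Q_same_toCfg (b : V → Fin 3 → ℤ) {n : ℕ} (x : Fin n → V) :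
    Q (same b) (toCfg x) = ∑ i, ∑ j, (if b (x i) = b (x j) then (1 : ℝ) else 0) := by
  rw [Q_toCfg]
  refine Finset.sum_congr rfl (fun i _ => Finset.sum_congr rfl (fun j _ => ?_))
  unfold same
  congr

lemma blk_diff (R : ℕ) (hR : 0 < R) (q : ℕ) {x y : V} (h : dist3 x y < 2 * R) (i : Fin 3) :
    -2 ≤ blk R q y i - blk R q x i ∧ blk R q y i - blk R q x i ≤ 2 := by
  unfold blk
  have h1 := coord_le_dist3 x y i
  have h2 : |x i - y i| < 2 * R := lt_of_le_of_lt h1 h
  rw [abs_lt] at h2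
  have hRz : (0 : ℤ) < (R : ℤ) := by exact_mod_cast hR
  have f1 : (⌊y i⌋ : ℤ) ≤ ⌊x i⌋ + 2 * R := by
    have h3 : y i < x i + 2 * R := by linarith
    have h4 : ⌊y i⌋ ≤ ⌊x i + ((2 * R : ℤ) : ℝ)⌋ := by
      apply Int.floor_le_floor
      push_cast
      linarith
    rw [Int.floor_add_intCast] at h4
    exact h4
  have f2 : (⌊x i⌋ : ℤ) ≤ ⌊y i⌋ + 2 * R := by
    have h3 : x i < y i + 2 * R := by linarith
    have h4 : ⌊x i⌋ ≤ ⌊y i + ((2 * R : ℤ) : ℝ)⌋ := by
      apply Int.floor_le_floor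
      push_cast
      linarith
    rw [Int.floor_add_intCast] at h4
    exact h4
  have g1 : (⌊y i⌋ + q) / (R : ℤ) ≤ (⌊x i⌋ + q) / (R : ℤ) + 2 := by
    rw [← Int.add_mul_ediv_right _ _ hRz.ne']
    apply Int.ediv_le_ediv hRz
    linarith
  have g2 : (⌊x i⌋ + q) / (R : ℤ) ≤ (⌊y i⌋ + q) / (R : ℤ) + 2 := by
    rw [← Int.add_mul_ediv_right _ _ hRz.ne']
    apply Int.ediv_le_ediv hRz
    linarith
  constructor <;> linarith

lemma Q_indk_le_blk (R : ℕ) (hR : 0 < R) (q : ℕ) (s : Cfg) :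
    Q (indk (2 * R)) s ≤ 125 * Q (same (blk R q)) s := by
  obtain ⟨n, x, rfl⟩ := exists_toCfg s
  set S : Finset (Fin 3 → ℤ) := Fintype.piFinset (fun _ : Fin 3 => Finset.Icc (-2 : ℤ) 2) with hS
  have hcard : (S.card : ℝ) = 125 := by
    have h5 : (Finset.Icc (-2 : ℤ) 2).card = 5 := by rfl
    rw [hS, Fintype.card_piFinset_const, h5]
    norm_num
  have h1 : ∀ i j, indk (2 * R) (x i) (x j) ≤
      ∑ δ ∈ S, (if blk R q (x i) + δ = blk R q (x j) then (1 : ℝ) else 0) := by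
    intro i j
    have hnn : ∀ δ ∈ S, (0 : ℝ) ≤ (if blk R q (x i) + δ = blk R q (x j) then (1 : ℝ) else 0) := by
      intro δ _
      split_ifs <;> norm_num
    unfold indk ind
    split_ifs with hd
    · have hmem : blk R q (x j) - blk R q (x i) ∈ S := by
        rw [hS, Fintype.mem_piFinset]
        intro k
        rw [Finset.mem_Icc]
        exact blk_diff R hR q hd k
      refine le_trans (le_of_eq ?_) (Finset.single_le_sum hnn hmem)
      rw [if_pos]
      abel
    · exact Finset.sum_nonneg hnn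
  rw [Q_toCfg, Q_same_toCfg]
  calc ∑ i, ∑ j, indk (2 * R) (x i) (x j)
      ≤ ∑ i, ∑ j, ∑ δ ∈ S, (if blk R q (x i) + δ = blk R q (x j) then (1 : ℝ) else 0) :=
        Finset.sum_le_sum (fun i _ => Finset.sum_le_sum (fun j _ => h1 i j))
    _ = ∑ δ ∈ S, ∑ i, ∑ j, (if blk R q (x i) + δ = blk R q (x j) then (1 : ℝ) else 0) := by
        rw [Finset.sum_congr rfl (fun i _ => Finset.sum_comm)]
        exact Finset.sum_comm
    _ ≤ ∑ _δ ∈ S, ∑ i, ∑ j, (if blk R q (x i) = blk R q (x j) then (1 : ℝ) else 0) := by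
        refine Finset.sum_le_sum (fun δ _ => ?_)
        refine le_trans (count_le (fun i => blk R q (x i) + δ) (fun j => blk R q (x j))) ?_
        simp only [add_left_inj]
        linarith
    _ = 125 * ∑ i, ∑ j, (if blk R q (x i) = blk R q (x j) then (1 : ℝ) else 0) := by
        rw [Finset.sum_const, nsmul_eq_mul, hcard]

lemma Q_blk_le_cell (R : ℕ) (hR : 0 < R) (q : ℕ) (s : Cfg) :
    Q (same (blk R q)) s ≤ (R : ℝ) ^ 3 * Q (same cell) s := by
  obtain ⟨n, x, rfl⟩ := exists_toCfg s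
  rw [Q_same_toCfg, Q_same_toCfg]
  have h := count_group (fun i => cell (x i)) (fun v : Fin 3 → ℤ => fun i => (v i + q) / (R : ℤ))
    (R ^ 3) (by
      intro c T hT
      have hsub : T ⊆ Fintype.piFinset
          (fun i : Fin 3 => Finset.Ico ((R : ℤ) * c i - q) ((R : ℤ) * c i - q + R)) := by
        intro b hb
        rw [Fintype.mem_piFinset]
        intro i
        have h1 : (b i + q) / (R : ℤ) = c i := congrFun (hT b hb) i
        have hRz : (0 : ℤ) < (R : ℤ) := by exact_mod_cast hR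
        have h2 := Int.emod_add_mul_ediv (b i + q) (R : ℤ)
        have h3 := Int.emod_nonneg (b i + q) hRz.ne'
        have h4 := Int.emod_lt_of_pos (b i + q) hRz
        rw [h1] at h2
        rw [Finset.mem_Ico]
        constructor <;> linarith
      refine le_trans (Finset.card_le_card hsub) ?_
      rw [Fintype.card_piFinset]
      simp)
  refine le_trans (le_of_eq ?_) (le_trans h (le_of_eq ?_))
  · rfl
  · push_cast
    rfl

lemma Q_cell_le_core (s : Cfg) : Q (same cell) s ≤ Q (indk 2) s := by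
  refine Q_mono (fun x _ y _ => ?_)
  unfold indk ind
  by_cases h : cell x = cell y
  · rw [same_eq_one h, if_pos]
    have h1 : ∀ i, |x i - y i| ≤ 1 := by
      intro i
      have h2 : ⌊x i⌋ = ⌊y i⌋ := congrFun h i
      have := Int.floor_le (x i)
      have := Int.lt_floor_add_one (x i)
      have := Int.floor_le (y i)
      have := Int.lt_floor_add_one (y i)
      have h3 : (⌊x i⌋ : ℝ) = ⌊y i⌋ := by exact_mod_cast h2
      rw [abs_le]
      constructor <;> linarith
    have := dist3_lt_of_coord one_pos h1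
    linarith
  · rw [same_eq_zero h]
    split_ifs <;> norm_num

lemma Q_cell_nonneg (s : Cfg) : 0 ≤ Q (same cell) s := Q_nonneg (fun _ _ _ _ => same_nonneg _ _ _)

lemma card_le_Q_cell (s : Cfg) : (Multiset.card s : ℝ) ≤ Q (same cell) s := by
  obtain ⟨n, x, rfl⟩ := exists_toCfg s
  rw [Q_same_toCfg, card_toCfg]
  calc (n : ℝ) = ∑ _i : Fin n, (1 : ℝ) := by simp
    _ ≤ _ := by
      refine Finset.sum_le_sum (fun i _ => ?_)
      have hnn : ∀ j ∈ (Finset.univ : Finset (Fin n)),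
          (0 : ℝ) ≤ (if cell (x i) = cell (x j) then (1 : ℝ) else 0) := by
        intro j _
        split_ifs <;> norm_num
      refine le_trans (le_of_eq ?_) (Finset.single_le_sum hnn (Finset.mem_univ i))
      rw [if_pos rfl]

lemma Q_cell_le_card_sq (s : Cfg) : Q (same cell) s ≤ (Multiset.card s : ℝ) ^ 2 := by
  rw [← Q_one]
  exact Q_mono (fun x _ y _ => same_le_one _ _ _)

/-! ### The potential -/

/-- attractive part -/
noncomputable def att (a : ℕ → ℝ) (r : ℝ) : ℝ := ∑' j : ℕ, a j * (1 / 8) ^ j * ind (2 ^ (j + 1)) r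

/-- the pair potential: a repulsive core and an attractive tail -/
noncomputable def phi (K : ℝ) (a : ℕ → ℝ) (r : ℝ) : ℝ := K * ind 2 r - att a r

lemma att_term_nonneg {a : ℕ → ℝ} (ha : ∀ j, 0 ≤ a j) (j : ℕ) (r : ℝ) :
    0 ≤ a j * (1 / 8) ^ j * ind (2 ^ (j + 1)) r :=
  mul_nonneg (mul_nonneg (ha j) (by positivity)) (ind_nonneg _ _)

lemma att_term_le {a : ℕ → ℝ} (ha : ∀ j, 0 ≤ a j) (j : ℕ) (r : ℝ) :
    a j * (1 / 8) ^ j * ind (2 ^ (j + 1)) r ≤ a j := by
  calc a j * (1 / 8) ^ j * ind (2 ^ (j + 1)) r ≤ a j * 1 * 1 := by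
        refine mul_le_mul (mul_le_mul_of_nonneg_left ?_ (ha j)) (ind_le_one _ _)
          (ind_nonneg _ _) (mul_nonneg (ha j) zero_le_one)
        exact pow_le_one₀ (by norm_num) (by norm_num)
    _ = a j := by ring

lemma att_summable {a : ℕ → ℝ} (ha : ∀ j, 0 ≤ a j) (hs : Summable a) (r : ℝ) :
    Summable (fun j : ℕ => a j * (1 / 8) ^ j * ind (2 ^ (j + 1)) r) :=
  Summable.of_nonneg_of_le (fun j => att_term_nonneg ha j r) (fun j => att_term_le ha j r) hs

lemma att_hasSum {a : ℕ → ℝ} (ha : ∀ j, 0 ≤ a j) (hs : Summable a) (r : ℝ) :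
    HasSum (fun j : ℕ => a j * (1 / 8) ^ j * ind (2 ^ (j + 1)) r) (att a r) :=
  (att_summable ha hs r).hasSum

lemma att_nonneg {a : ℕ → ℝ} (ha : ∀ j, 0 ≤ a j) (r : ℝ) : 0 ≤ att a r :=
  tsum_nonneg (fun j => att_term_nonneg ha j r)

lemma att_le {a : ℕ → ℝ} (ha : ∀ j, 0 ≤ a j) (hs : Summable a) (r : ℝ) : att a r ≤ ∑' j, a j :=
  Summable.tsum_le_tsum (fun j => att_term_le ha j r) (att_summable ha hs r) hs

/-- attractive kernel -/
noncomputable def attk (a : ℕ → ℝ) (x y : V) : ℝ := att a (dist3 x y)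

lemma attk_hasSum {a : ℕ → ℝ} (ha : ∀ j, 0 ≤ a j) (hs : Summable a) (x y : V) :
    HasSum (fun j : ℕ => a j * (1 / 8) ^ j * indk (2 ^ (j + 1)) x y) (attk a x y) :=
  att_hasSum ha hs _

lemma measurable_att (a : ℕ → ℝ) (ha : ∀ j, 0 ≤ a j) (hs : Summable a) : Measurable (att a) := by
  refine measurable_of_tendsto_metrizable (f := fun n r => ∑ j ∈ Finset.range n,
    a j * (1 / 8) ^ j * ind (2 ^ (j + 1)) r) (fun n => ?_) ?_
  · exact Finset.measurable_sum _ (fun j _ => (measurable_ind _).const_mul _)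
  · rw [tendsto_pi_nhds]
    intro r
    exact (att_hasSum ha hs r).tendsto_sum_nat

lemma measurable_attk (a : ℕ → ℝ) (ha : ∀ j, 0 ≤ a j) (hs : Summable a) :
    Measurable (fun p : V × V => attk a p.1 p.2) :=
  (measurable_att a ha hs).comp measurable_dist3

lemma Q_attk_hasSum {a : ℕ → ℝ} (ha : ∀ j, 0 ≤ a j) (hs : Summable a) (s : Cfg) :
    HasSum (fun j : ℕ => a j * (1 / 8) ^ j * Q (indk (2 ^ (j + 1))) s) (Q (attk a) s) := by
  have h := hasSum_Q (fun x y => attk_hasSum ha hs x y) s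
  simpa only [Q_mulk] using h

lemma Q_indk_dyadic (j : ℕ) (s : Cfg) :
    (1 / 8 : ℝ) ^ j * Q (indk (2 ^ (j + 1))) s ≤ 125 * Q (same cell) s := by
  have h1 := Q_indk_le_blk (2 ^ j) (by positivity) 0 s
  have h2 := Q_blk_le_cell (2 ^ j) (by positivity) 0 s
  have e : (2 : ℝ) * ((2 ^ j : ℕ) : ℝ) = 2 ^ (j + 1) := by
    push_cast
    ring
  rw [e] at h1
  have e2 : (((2 ^ j : ℕ) : ℝ)) ^ 3 = 8 ^ j := by
    push_cast
    rw [← pow_mul, mul_comm j 3, pow_mul]
    norm_num
  rw [e2] at h2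
  have h3 : Q (indk (2 ^ (j + 1))) s ≤ 125 * (8 ^ j * Q (same cell) s) := by linarith
  calc (1 / 8 : ℝ) ^ j * Q (indk (2 ^ (j + 1))) s
      ≤ (1 / 8 : ℝ) ^ j * (125 * (8 ^ j * Q (same cell) s)) :=
        mul_le_mul_of_nonneg_left h3 (by positivity)
    _ = ((1 / 8 : ℝ) * 8) ^ j * (125 * Q (same cell) s) := by rw [mul_pow]; ring
    _ = 125 * Q (same cell) s := by norm_num

lemma Q_attk_le {a : ℕ → ℝ} (ha : ∀ j, 0 ≤ a j) (hs : Summable a) (s : Cfg) :
    Q (attk a) s ≤ 125 * (∑' j, a j) * Q (same cell) s := by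
  have h1 := Q_attk_hasSum ha hs s
  have h2 : HasSum (fun j => a j * (125 * Q (same cell) s)) ((∑' j, a j) * (125 * Q (same cell) s)) :=
    hs.hasSum.mul_right _
  have h3 := hasSum_le (fun j => ?_) h1 h2
  · linarith
  · have := Q_indk_dyadic j s
    calc a j * (1 / 8) ^ j * Q (indk (2 ^ (j + 1))) s
        = a j * ((1 / 8) ^ j * Q (indk (2 ^ (j + 1))) s) := by ring
      _ ≤ a j * (125 * Q (same cell) s) := mul_le_mul_of_nonneg_left this (ha j)

end Vale.Agent.P171
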