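import Vale.Agent.P171.Blocks

open MeasureTheory Set Filter Topology
open scoped ENNReal

namespace Vale.Agent.P171

/-- grand canonical partition function of the cube -/
noncomputable def Xi (K : ℝ) (a : ℕ → ℝ) (m L : ℝ) : ℝ≥0∞ := G (box L) (W m (ker K a)) 0

/-- its logarithm -/
noncomputable def lX (K : ℝ) (a : ℕ → ℝ) (m L : ℝ) : ℝ := Real.log (Xi K a m L).toReal

lemma one_le_Xi (K : ℝ) (a : ℕ → ℝ) (m L : ℝ) : 1 ≤ Xi K a m L := by
  unfold Xi
  rw [← W_zero m (ker K a)]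
  exact le_G_zero_term _ _ _

lemma Xi_le_exp {K : ℝ} (hK0 : 0 ≤ K) {a : ℕ → ℝ} (ha : ∀ j, 0 ≤ a j) (hs : Summable a)
    (hK : 125 * (∑' j, a j) ≤ K) (m : ℝ) {L : ℝ} (hL : 0 ≤ L) :
    Xi K a m L ≤ ENNReal.ofReal (Real.exp (Real.exp m * L ^ 3)) := by
  unfold Xi
  refine G_le_exp (measurableSet_box L) (volume_box hL) (by positivity) m _ (fun s => ?_)
  unfold W
  refine ENNReal.ofReal_le_ofReal (Real.exp_le_exp.mpr ?_)
  have h1 := Q_ker_le hK0 ha hs s
  have h2 := Q_cell_nonneg s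
  nlinarith

lemma Xi_ne_top {K : ℝ} (hK0 : 0 ≤ K) {a : ℕ → ℝ} (ha : ∀ j, 0 ≤ a j) (hs : Summable a)
    (hK : 125 * (∑' j, a j) ≤ K) (m : ℝ) {L : ℝ} (hL : 0 ≤ L) : Xi K a m L ≠ ⊤ :=
  ne_top_of_le_ne_top ENNReal.ofReal_ne_top (Xi_le_exp hK0 ha hs hK m hL)

lemma one_le_toReal {x : ℝ≥0∞} (h1 : 1 ≤ x) (h2 : x ≠ ⊤) : 1 ≤ x.toReal := by
  have := ENNReal.toReal_mono h2 h1
  simpa using this

lemma lX_nonneg {K : ℝ} (hK0 : 0 ≤ K) {a : ℕ → ℝ} (ha : ∀ j, 0 ≤ a j) (hs : Summable a)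
    (hK : 125 * (∑' j, a j) ≤ K) (m : ℝ) {L : ℝ} (hL : 0 ≤ L) : 0 ≤ lX K a m L :=
  Real.log_nonneg (one_le_toReal (one_le_Xi _ _ _ _) (Xi_ne_top hK0 ha hs hK m hL))

lemma lX_le {K : ℝ} (hK0 : 0 ≤ K) {a : ℕ → ℝ} (ha : ∀ j, 0 ≤ a j) (hs : Summable a)
    (hK : 125 * (∑' j, a j) ≤ K) (m : ℝ) {L : ℝ} (hL : 0 ≤ L) :
    lX K a m L ≤ Real.exp m * L ^ 3 := by
  unfold lX
  have h1 := one_le_toReal (one_le_Xi K a m L) (Xi_ne_top hK0 ha hs hK m hL)
  rw [Real.log_le_iff_le_exp (by linarith)]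
  exact ENNReal.toReal_le_of_le_ofReal (Real.exp_pos _).le (Xi_le_exp hK0 ha hs hK m hL)

/-- shifted cube -/
def tbox (L : ℝ) (c : Fin 3 → ℕ) : Set V :=
  (fun x => x + (fun i => -((L + 2) * (c i : ℝ)))) ⁻¹' box L

lemma mem_tbox {L : ℝ} {c : Fin 3 → ℕ} {x : V} :
    x ∈ tbox L c ↔ ∀ i, (L + 2) * c i ≤ x i ∧ x i ≤ (L + 2) * c i + L := by
  unfold tbox box
  simp only [Set.mem_preimage, Set.mem_univ_pi, Pi.add_apply, Set.mem_Icc]
  constructor
  · intro h i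
    have := h i
    constructor <;> linarith
  · intro h i
    have := h i
    constructor <;> linarith

lemma measurableSet_tbox (L : ℝ) (c : Fin 3 → ℕ) : MeasurableSet (tbox L c) :=
  (measurable_id.add_const _) (measurableSet_box L)

lemma tbox_sep {L : ℝ} (hL : 0 ≤ L) {c c' : Fin 3 → ℕ} (hc : c ≠ c') {x y : V}
    (hx : x ∈ tbox L c) (hy : y ∈ tbox L c') : 2 ≤ dist3 x y := by
  rw [mem_tbox] at hx hy
  obtain ⟨i, hi⟩ := Function.ne_iff.mp hc
  have h1 := hx i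
  have h2 := hy i
  have h3 := coord_le_dist3 x y i
  rcases lt_or_gt_of_ne hi with h | h
  · have h4 : (c i : ℝ) + 1 ≤ c' i := by exact_mod_cast h
    have h5 : (L + 2) * ((c i : ℝ) + 1) ≤ (L + 2) * c' i :=
      mul_le_mul_of_nonneg_left h4 (by linarith)
    have h6 := neg_abs_le (x i - y i)
    linarith
  · have h4 : (c' i : ℝ) + 1 ≤ c i := by exact_mod_cast h
    have h5 : (L + 2) * ((c' i : ℝ) + 1) ≤ (L + 2) * c i :=
      mul_le_mul_of_nonneg_left h4 (by linarith)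
    have h6 := le_abs_self (x i - y i)
    linarith

lemma ker_nonneg_far {K : ℝ} {a : ℕ → ℝ} (ha : ∀ j, 0 ≤ a j) {x y : V} (h : 2 ≤ dist3 x y) :
    0 ≤ ker K a x y := by
  rw [ker_eq]
  have h1 : indk 2 x y = 0 := by
    unfold indk ind
    rw [if_neg (not_lt.mpr h)]
  rw [h1, mul_zero, zero_add]
  exact att_nonneg ha _

lemma W_map_add (m K : ℝ) (a : ℕ → ℝ) (v : V) (s : Cfg) :
    W m (ker K a) (s.map (fun x => x + v)) = W m (ker K a) s := by
  unfold W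
  rw [Q_map, Multiset.card_map]
  have : (fun x y : V => ker K a (x + v) (y + v)) = ker K a := by
    funext x y
    unfold ker
    rw [dist3_add]
  rw [this]

lemma G_tbox (K : ℝ) (a : ℕ → ℝ) (m L : ℝ) (c : Fin 3 → ℕ) :
    G (tbox L c) (W m (ker K a)) 0 = Xi K a m L :=
  G_translate (box L) (measurableSet_box L) _ _ (fun s => W_map_add m K a _ s)

lemma Xi_superadd {K : ℝ} {a : ℕ → ℝ} (ha : ∀ j, 0 ≤ a j) (hs : Summable a) (m : ℝ) {L : ℝ}
    (hL : 0 ≤ L) (k : ℕ) {M : ℝ} (hM : k * (L + 2) ≤ M) :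
    (Xi K a m L) ^ (k ^ 3) ≤ Xi K a m M := by
  classical
  set C := Fintype.piFinset (fun _ : Fin 3 => Finset.range k) with hC
  have hcard : C.card = k ^ 3 := by
    rw [hC, Fintype.card_piFinset_const, Finset.card_range]
  have hW := MeasC_W m (measurable_ker K a ha hs)
  calc (Xi K a m L) ^ (k ^ 3) = ∏ _c ∈ C, Xi K a m L := by rw [Finset.prod_const, hcard]
    _ = ∏ c ∈ C, G (tbox L c) (W m (ker K a)) 0 :=
        Finset.prod_congr rfl (fun c _ => (G_tbox K a m L c).symm)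
    _ ≤ G (⋃ c ∈ C, tbox L c) (W m (ker K a)) 0 := by
        refine G_biUnion_ge (tbox L) (measurableSet_tbox L) hW (le_of_eq (W_zero _ _).symm) C ?_ ?_
        · intro i _ j _ hij
          rw [Set.disjoint_left]
          intro x hx hx'
          have := tbox_sep hL hij hx hx'
          rw [dist3_self] at this
          linarith
        · intro i _ T _ hiT x hx y hy
          have hfar : ∀ u ∈ x, ∀ v ∈ y, 2 ≤ dist3 u v := by
            intro u hu v hv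
            have h2 := hy v hv
            simp only [Set.mem_iUnion] at h2
            obtain ⟨j, hj, hvj⟩ := h2
            exact tbox_sep (c := i) (c' := j) hL (fun h => hiT (by rw [h]; exact hj)) (hx u hu) hvj
          refine W_add_ge (fun u hu v hv => ?_) (fun v hv u hu => ?_)
          · exact ker_nonneg_far ha (hfar u hu v hv)
          · refine ker_nonneg_far ha ?_
            rw [dist3_comm]
            exact hfar u hu v hv
    _ ≤ Xi K a m M := by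
        refine G_mono_set ?_ _ _
        intro x hx
        simp only [Set.mem_iUnion] at hx
        obtain ⟨c, hc, hxc⟩ := hx
        rw [mem_tbox] at hxc
        intro i _
        have h1 := hxc i
        have h2 : c i < k := Finset.mem_range.mp (Fintype.mem_piFinset.mp hc i)
        have h3 : (c i : ℝ) + 1 ≤ k := by exact_mod_cast h2
        have h4 : (0 : ℝ) ≤ c i := by positivity
        constructor
        · have : 0 ≤ (L + 2) * (c i : ℝ) := by positivity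
          linarith
        · have : (L + 2) * ((c i : ℝ) + 1) ≤ (L + 2) * k :=
            mul_le_mul_of_nonneg_left h3 (by linarith)
          nlinarith

lemma lX_superadd {K : ℝ} (hK0 : 0 ≤ K) {a : ℕ → ℝ} (ha : ∀ j, 0 ≤ a j) (hs : Summable a)
    (hK : 125 * (∑' j, a j) ≤ K) (m : ℝ) {L : ℝ}
    (hL : 0 ≤ L) (k : ℕ) {M : ℝ} (hM : k * (L + 2) ≤ M) :
    (k : ℝ) ^ 3 * lX K a m L ≤ lX K a m M := by
  have hM0 : 0 ≤ M := le_trans (by positivity) hM
  have h1 := Xi_superadd (K := K) ha hs m hL k hM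
  have h2 := ENNReal.toReal_mono (Xi_ne_top hK0 ha hs hK m hM0) h1
  rw [ENNReal.toReal_pow] at h2
  have h3 := one_le_toReal (one_le_Xi K a m L) (Xi_ne_top hK0 ha hs hK m hL)
  have h4 := Real.log_le_log (by positivity) h2
  rw [Real.log_pow] at h4
  unfold lX
  push_cast at h4
  exact h4

/-- an abstract limit lemma -/
lemma limit_aux (f : ℝ → ℝ) (C : ℝ) (hf0 : ∀ L, 0 ≤ L → 0 ≤ f L)
    (hfC : ∀ L, 0 ≤ L → f L ≤ C * L ^ 3)
    (hsup : ∀ L, 0 ≤ L → ∀ (k : ℕ) (M : ℝ), k * (L + 2) ≤ M → (k : ℝ) ^ 3 * f L ≤ f M) :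
    BddAbove ((fun L : ℝ => f L / (L + 2) ^ 3) '' Ici 0) ∧
    Tendsto (fun L : ℝ => f L / L ^ 3) atTop (𝓝 (sSup ((fun L : ℝ => f L / (L + 2) ^ 3) '' Ici 0))) := by
  set S := (fun L : ℝ => f L / (L + 2) ^ 3) '' Ici 0 with hS
  set P := sSup S with hP
  have hC : 0 ≤ C := by
    have h1 := hf0 1 (by norm_num)
    have h2 := hfC 1 (by norm_num)
    linarith
  have hbdd : BddAbove S := by
    refine ⟨C, ?_⟩
    rintro _ ⟨L, hL, rfl⟩
    simp only [Set.mem_Ici] at hL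
    rw [div_le_iff₀ (by positivity)]
    refine (hfC L hL).trans ?_
    refine mul_le_mul_of_nonneg_left ?_ hC
    gcongr
    linarith
  have hle : ∀ L, 0 ≤ L → f L ≤ P * (L + 2) ^ 3 := by
    intro L hL
    have h1 : f L / (L + 2) ^ 3 ≤ P := le_csSup hbdd ⟨L, hL, rfl⟩
    rwa [div_le_iff₀ (by positivity)] at h1
  have hP0 : 0 ≤ P := by
    have h1 := hle 0 (le_refl _)
    have h2 := hf0 0 (le_refl _)
    nlinarith
  refine ⟨hbdd, ?_⟩
  rw [tendsto_order]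
  constructor
  · intro b hb
    have hne : S.Nonempty := ⟨_, 0, by simp, rfl⟩
    obtain ⟨_, ⟨L, hL, rfl⟩, hbL⟩ := exists_lt_of_lt_csSup hne hb
    simp only [Set.mem_Ici] at hL
    have hlim : Tendsto (fun M : ℝ => ((⌊(1 / (L + 2)) * M⌋₊ : ℝ) / M) ^ 3 * f L) atTop
        (𝓝 ((1 / (L + 2)) ^ 3 * f L)) :=
      ((tendsto_nat_floor_mul_div_atTop (by positivity)).pow 3).mul_const _
    have hlt : b < (1 / (L + 2)) ^ 3 * f L := by
      have : (1 / (L + 2)) ^ 3 * f L = f L / (L + 2) ^ 3 := by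
        rw [div_pow, one_pow]
        ring
      rw [this]
      exact hbL
    filter_upwards [hlim.eventually (lt_mem_nhds hlt), eventually_gt_atTop 0] with M hM hM0
    refine lt_of_lt_of_le hM ?_
    have h1 : ((⌊(1 / (L + 2)) * M⌋₊ : ℕ) : ℝ) * (L + 2) ≤ M := by
      have h2 := Nat.floor_le (a := (1 / (L + 2)) * M) (by positivity)
      calc ((⌊(1 / (L + 2)) * M⌋₊ : ℕ) : ℝ) * (L + 2) ≤ ((1 / (L + 2)) * M) * (L + 2) :=
            mul_le_mul_of_nonneg_right h2 (by linarith)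
        _ = M := by field_simp
    have h3 := hsup L hL _ M h1
    rw [div_pow, div_mul_eq_mul_div]
    gcongr
  · intro b hb
    have hlim : Tendsto (fun M : ℝ => P * (1 + 2 * M⁻¹) ^ 3) atTop (𝓝 (P * (1 + 2 * 0) ^ 3)) :=
      (((tendsto_inv_atTop_zero.const_mul 2).const_add 1).pow 3).const_mul P
    have hb' : P * (1 + 2 * 0) ^ 3 < b := by simpa using hb
    filter_upwards [hlim.eventually (gt_mem_nhds hb'), eventually_gt_atTop 0] with M hM hM0
    refine lt_of_le_of_lt ?_ hM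
    rw [div_le_iff₀ (by positivity)]
    refine (hle M hM0.le).trans (le_of_eq ?_)
    rw [mul_assoc, ← mul_pow]
    congr 2
    field_simp

/-- the pressure -/
noncomputable def P (K : ℝ) (a : ℕ → ℝ) (m : ℝ) : ℝ :=
  sSup ((fun L : ℝ => lX K a m L / (L + 2) ^ 3) '' Ici 0)

section
variable {K : ℝ} {a : ℕ → ℝ}

lemma P_bdd (hK0 : 0 ≤ K) (ha : ∀ j, 0 ≤ a j) (hs : Summable a)
    (hK : 125 * (∑' j, a j) ≤ K) (m : ℝ) :
    BddAbove ((fun L : ℝ => lX K a m L / (L + 2) ^ 3) '' Ici 0) :=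
  (limit_aux (lX K a m) (Real.exp m) (fun _ hL => lX_nonneg hK0 ha hs hK m hL)
    (fun _ hL => lX_le hK0 ha hs hK m hL)
    (fun _ hL k _ hM => lX_superadd hK0 ha hs hK m hL k hM)).1

lemma P_tendsto (hK0 : 0 ≤ K) (ha : ∀ j, 0 ≤ a j) (hs : Summable a)
    (hK : 125 * (∑' j, a j) ≤ K) (m : ℝ) :
    Tendsto (fun L : ℝ => lX K a m L / L ^ 3) atTop (𝓝 (P K a m)) :=
  (limit_aux (lX K a m) (Real.exp m) (fun _ hL => lX_nonneg hK0 ha hs hK m hL)
    (fun _ hL => lX_le hK0 ha hs hK m hL)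
    (fun _ hL k _ hM => lX_superadd hK0 ha hs hK m hL k hM)).2

lemma lX_le_P (hK0 : 0 ≤ K) (ha : ∀ j, 0 ≤ a j) (hs : Summable a)
    (hK : 125 * (∑' j, a j) ≤ K) (m : ℝ) {L : ℝ} (hL : 0 ≤ L) :
    lX K a m L ≤ P K a m * (L + 2) ^ 3 := by
  have h1 : lX K a m L / (L + 2) ^ 3 ≤ P K a m :=
    le_csSup (P_bdd hK0 ha hs hK m) ⟨L, hL, rfl⟩
  rwa [div_le_iff₀ (by positivity)] at h1

lemma P_nonneg (hK0 : 0 ≤ K) (ha : ∀ j, 0 ≤ a j) (hs : Summable a)
    (hK : 125 * (∑' j, a j) ≤ K) (m : ℝ) : 0 ≤ P K a m := by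
  have h1 := lX_le_P hK0 ha hs hK m (le_refl 0)
  have h2 := lX_nonneg hK0 ha hs hK m (le_refl (0 : ℝ))
  nlinarith

end

end Vale.Agent.P171
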