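import Vale.Agent.P171.Upper
import Vale.Agent.P171.Ekeland

open MeasureTheory Set Filter Topology
open scoped ENNReal

namespace Vale.Agent.P171

/-- one term of the grand canonical sum -/
noncomputable def term (K : ℝ) (a : ℕ → ℝ) (m L : ℝ) (n : ℕ) : ℝ≥0∞ :=
  ((n.factorial : ℝ≥0∞))⁻¹ * (D (box L))^[n] (W m (ker K a)) 0

lemma Xi_eq_tsum (K : ℝ) (a : ℕ → ℝ) (m L : ℝ) : Xi K a m L = ∑' n, term K a m L n := rfl

lemma Q_attk_diff {a a' : ℕ → ℝ} (ha : ∀ j, 0 ≤ a j) (hs : Summable a) (ha' : ∀ j, 0 ≤ a' j)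
    (hs' : Summable a') {δ : ℝ} (hδ : ∑' j, |a j - a' j| ≤ δ) (s : Cfg) :
    Q (attk a) s - 125 * δ * (Multiset.card s : ℝ) ^ 2 ≤ Q (attk a') s := by
  have h1 := (Q_attk_hasSum ha hs s).sub (Q_attk_hasSum ha' hs' s)
  have hd : Summable (fun j => |a j - a' j|) := (hs.sub hs').abs
  have h2 : HasSum (fun j => |a j - a' j| * (125 * Q (same cell) s))
      ((∑' j, |a j - a' j|) * (125 * Q (same cell) s)) := hd.hasSum.mul_right _
  have h3 := hasSum_le (fun j => ?_) h1 h2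
  · have h4 := Q_cell_le_card_sq s
    have h5 := Q_cell_nonneg s
    have h6 : 0 ≤ ∑' j, |a j - a' j| := tsum_nonneg (fun j => abs_nonneg _)
    have h7 : (∑' j, |a j - a' j|) * (125 * Q (same cell) s) ≤
        δ * (125 * (Multiset.card s : ℝ) ^ 2) := by
      have : 0 ≤ δ := h6.trans hδ
      gcongr
    linarith
  · have h4 := Q_indk_dyadic j s
    have h5 : 0 ≤ (1 / 8 : ℝ) ^ j * Q (indk (2 ^ (j + 1))) s :=
      mul_nonneg (by positivity) (Q_nonneg (fun _ _ _ _ => indk_nonneg _ _ _))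
    calc a j * (1 / 8) ^ j * Q (indk (2 ^ (j + 1))) s - a' j * (1 / 8) ^ j * Q (indk (2 ^ (j + 1))) s
        = (a j - a' j) * ((1 / 8) ^ j * Q (indk (2 ^ (j + 1))) s) := by ring
      _ ≤ |a j - a' j| * ((1 / 8) ^ j * Q (indk (2 ^ (j + 1))) s) :=
          mul_le_mul_of_nonneg_right (le_abs_self _) h5
      _ ≤ |a j - a' j| * (125 * Q (same cell) s) :=
          mul_le_mul_of_nonneg_left h4 (abs_nonneg _)

lemma term_le {K : ℝ} {a a' : ℕ → ℝ} (ha : ∀ j, 0 ≤ a j) (hs : Summable a) (ha' : ∀ j, 0 ≤ a' j)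
    (hs' : Summable a') {δ : ℝ} (hδ : ∑' j, |a j - a' j| ≤ δ) {m m' : ℝ} (hm : |m - m'| ≤ δ)
    (L : ℝ) (n : ℕ) {N : ℕ} (hn : n ≤ N) :
    ENNReal.ofReal (Real.exp (-(δ * (N + 63 * (N : ℝ) ^ 2)))) * term K a m L n ≤
      term K a' m' L n := by
  have hδ0 : 0 ≤ δ := (abs_nonneg _).trans hm
  unfold term
  rw [iterate_eq_lintegral _ (MeasC_W m (measurable_ker K a ha hs)),
    iterate_eq_lintegral _ (MeasC_W m' (measurable_ker K a' ha' hs'))]
  rw [← mul_assoc, mul_comm (ENNReal.ofReal _), mul_assoc]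
  refine mul_le_mul_right ?_ _
  rw [← lintegral_const_mul' _ _ ENNReal.ofReal_ne_top]
  refine lintegral_mono (fun x => ?_)
  simp only [add_zero]
  unfold W
  rw [← ENNReal.ofReal_mul (Real.exp_pos _).le, ← Real.exp_add]
  refine ENNReal.ofReal_le_ofReal (Real.exp_le_exp.mpr ?_)
  rw [Q_ker, Q_ker, card_toCfg]
  have h1 := Q_attk_diff ha hs ha' hs' hδ (toCfg x)
  rw [card_toCfg] at h1
  have hn' : (n : ℝ) ≤ N := by exact_mod_cast hn
  have hn0 : (0 : ℝ) ≤ n := by positivity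
  have h2 : (n : ℝ) ^ 2 ≤ (N : ℝ) ^ 2 := by gcongr
  have h3 : m * n - m' * n ≤ δ * N := by
    calc m * n - m' * n = (m - m') * n := by ring
      _ ≤ |m - m'| * n := mul_le_mul_of_nonneg_right (le_abs_self _) hn0
      _ ≤ δ * N := by gcongr
  have h4 : δ * (n : ℝ) ^ 2 ≤ δ * (N : ℝ) ^ 2 := mul_le_mul_of_nonneg_left h2 hδ0
  have h5 : 0 ≤ δ * (N : ℝ) ^ 2 := by positivity
  nlinarith

/-- lower semicontinuity of the finite volume pressure -/
lemma lX_lsc {K : ℝ} (hK0 : 0 ≤ K) {a : ℕ → ℝ} (ha : ∀ j, 0 ≤ a j) (hs : Summable a)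
    (hK : 125 * (∑' j, a j) ≤ K) (m : ℝ) {L : ℝ} (hL : 0 ≤ L) {c : ℝ} (hc : c < lX K a m L) :
    ∃ δ > 0, ∀ (a' : ℕ → ℝ) (m' : ℝ), (∀ j, 0 ≤ a' j) → Summable a' → 125 * (∑' j, a' j) ≤ K →
      ∑' j, |a j - a' j| ≤ δ → |m - m'| ≤ δ → c < lX K a' m' L := by
  have hX1 := one_le_Xi K a m L
  have hXt := Xi_ne_top hK0 ha hs hK m hL
  have hXr := one_le_toReal hX1 hXt
  have h1 : ENNReal.ofReal (Real.exp c) < Xi K a m L := by
    unfold lX at hc
    rw [ENNReal.ofReal_lt_iff_lt_toReal (Real.exp_pos _).le hXt]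
    rwa [Real.lt_log_iff_exp_lt (by linarith)] at hc
  rw [Xi_eq_tsum, ENNReal.tsum_eq_iSup_nat, lt_iSup_iff] at h1
  obtain ⟨N, hN⟩ := h1
  set T := (∑ n ∈ Finset.range N, term K a m L n) with hT
  have hTt : T ≠ ⊤ := by
    refine ne_top_of_le_ne_top hXt ?_
    rw [Xi_eq_tsum]
    exact ENNReal.sum_le_tsum _
  have hTr : Real.exp c < T.toReal := by
    rwa [ENNReal.ofReal_lt_iff_lt_toReal (Real.exp_pos _).le hTt] at hN
  have hTpos : 0 < T.toReal := (Real.exp_pos _).trans hTr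
  have hlog : c < Real.log T.toReal := by rwa [Real.lt_log_iff_exp_lt hTpos]
  set Bd : ℝ := N + 63 * (N : ℝ) ^ 2 with hBd
  have hBd0 : 0 ≤ Bd := by positivity
  refine ⟨(Real.log T.toReal - c) / (2 * (Bd + 1)), by
    apply div_pos (by linarith) (by positivity), ?_⟩
  intro a' m' ha' hs' hK' hδ hm
  set δ := (Real.log T.toReal - c) / (2 * (Bd + 1)) with hδdef
  have hδ0 : 0 ≤ δ := by
    have : 0 < Real.log T.toReal - c := by linarith
    positivity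
  have h2 : ENNReal.ofReal (Real.exp (-(δ * Bd))) * T ≤ Xi K a' m' L := by
    rw [Xi_eq_tsum]
    refine le_trans ?_ (ENNReal.sum_le_tsum (Finset.range N))
    rw [hT, Finset.mul_sum]
    refine Finset.sum_le_sum (fun n hn => ?_)
    exact term_le ha hs ha' hs' hδ hm L n (Finset.mem_range.mp hn).le
  have hXt' := Xi_ne_top hK0 ha' hs' hK' m' hL
  have h3 := ENNReal.toReal_mono hXt' h2
  rw [ENNReal.toReal_mul, ENNReal.toReal_ofReal (Real.exp_pos _).le] at h3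
  have h4 := Real.log_le_log (by positivity) h3
  rw [Real.log_mul (Real.exp_pos _).ne' hTpos.ne', Real.log_exp] at h4
  unfold lX
  have h5 : δ * Bd ≤ (Real.log T.toReal - c) / 2 := by
    have : δ * Bd ≤ δ * (Bd + 1) := mul_le_mul_of_nonneg_left (by linarith) hδ0
    refine this.trans (le_of_eq ?_)
    rw [hδdef]
    field_simp
  linarith

/-- lower semicontinuity of the pressure -/
lemma P_lsc {K : ℝ} (hK0 : 0 ≤ K) {a : ℕ → ℝ} (ha : ∀ j, 0 ≤ a j) (hs : Summable a)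
    (hK : 125 * (∑' j, a j) ≤ K) (m : ℝ) {b : ℝ} (hb : b < P K a m) :
    ∃ δ > 0, ∀ (a' : ℕ → ℝ) (m' : ℝ), (∀ j, 0 ≤ a' j) → Summable a' → 125 * (∑' j, a' j) ≤ K →
      ∑' j, |a j - a' j| ≤ δ → |m - m'| ≤ δ → b < P K a' m' := by
  unfold P at hb
  have hne : ((fun L : ℝ => lX K a m L / (L + 2) ^ 3) '' Ici 0).Nonempty := ⟨_, 0, by simp, rfl⟩
  obtain ⟨_, ⟨L, hL, rfl⟩, hbL⟩ := exists_lt_of_lt_csSup hne hb
  simp only [Set.mem_Ici] at hL
  have hpos : (0 : ℝ) < (L + 2) ^ 3 := by positivity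
  have h1 : b * (L + 2) ^ 3 < lX K a m L := by
    rwa [lt_div_iff₀ hpos] at hbL
  obtain ⟨δ, hδ, h2⟩ := lX_lsc hK0 ha hs hK m hL h1
  refine ⟨δ, hδ, fun a' m' ha' hs' hK' h3 h4 => ?_⟩
  have h5 := h2 a' m' ha' hs' hK' h3 h4
  have h6 : b < lX K a' m' L / (L + 2) ^ 3 := by
    rwa [lt_div_iff₀ hpos]
  refine lt_of_lt_of_le h6 ?_
  exact le_csSup (P_bdd hK0 ha' hs' hK' m') ⟨L, hL, rfl⟩

end Vale.Agent.P171
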