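import Vale.Agent.P171.Cfg2
import Vale.Agent.P171.Defs

open MeasureTheory Set
open scoped ENNReal

namespace Vale.Agent.P171

/-- cross pair sum -/
noncomputable def cross (κ : V → V → ℝ) (s t : Cfg) : ℝ :=
  (s.map (fun x => (t.map (fun y => κ x y)).sum)).sum

/-- pair sum including the diagonal -/
noncomputable def Q (κ : V → V → ℝ) (s : Cfg) : ℝ := cross κ s s

lemma Q_toCfg (κ : V → V → ℝ) {n : ℕ} (x : Fin n → V) :
    Q κ (toCfg x) = ∑ i, ∑ j, κ (x i) (x j) := by
  unfold Q cross toCfg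
  rw [Multiset.map_map]
  simp only [Function.comp_def, Multiset.map_map]
  rfl

lemma cross_add_left (κ : V → V → ℝ) (s t u : Cfg) :
    cross κ (s + t) u = cross κ s u + cross κ t u := by
  unfold cross
  rw [Multiset.map_add, Multiset.sum_add]

lemma cross_add_right (κ : V → V → ℝ) (s t u : Cfg) :
    cross κ s (t + u) = cross κ s t + cross κ s u := by
  unfold cross
  rw [← Multiset.sum_map_add]
  congr 1
  refine Multiset.map_congr rfl (fun x _ => ?_)
  rw [Multiset.map_add, Multiset.sum_add]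

lemma Q_add (κ : V → V → ℝ) (s t : Cfg) :
    Q κ (s + t) = Q κ s + Q κ t + (cross κ s t + cross κ t s) := by
  unfold Q
  rw [cross_add_left, cross_add_right, cross_add_right]
  ring

lemma msum_le {s : Cfg} {f g : V → ℝ} (h : ∀ x ∈ s, f x ≤ g x) :
    (s.map f).sum ≤ (s.map g).sum :=
  Multiset.sum_map_le_sum_map f g h

lemma cross_mono {κ κ' : V → V → ℝ} {s t : Cfg} (h : ∀ x ∈ s, ∀ y ∈ t, κ x y ≤ κ' x y) :
    cross κ s t ≤ cross κ' s t :=
  msum_le (fun x hx => msum_le (fun y hy => h x hx y hy))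

lemma cross_zero (s t : Cfg) : cross (fun _ _ => 0) s t = 0 := by
  unfold cross
  simp

lemma cross_nonneg {κ : V → V → ℝ} {s t : Cfg} (h : ∀ x ∈ s, ∀ y ∈ t, 0 ≤ κ x y) :
    0 ≤ cross κ s t := by
  rw [← cross_zero s t]
  exact cross_mono h

lemma cross_nonpos {κ : V → V → ℝ} {s t : Cfg} (h : ∀ x ∈ s, ∀ y ∈ t, κ x y ≤ 0) :
    cross κ s t ≤ 0 := by
  rw [← cross_zero s t]
  exact cross_mono h

lemma cross_addk (κ κ' : V → V → ℝ) (s t : Cfg) :
    cross (fun x y => κ x y + κ' x y) s t = cross κ s t + cross κ' s t := by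
  unfold cross
  simp only [Multiset.sum_map_add]

lemma cross_mulk (c : ℝ) (κ : V → V → ℝ) (s t : Cfg) :
    cross (fun x y => c * κ x y) s t = c * cross κ s t := by
  unfold cross
  simp only [Multiset.sum_map_mul_left]

lemma Q_mono {κ κ' : V → V → ℝ} {s : Cfg} (h : ∀ x ∈ s, ∀ y ∈ s, κ x y ≤ κ' x y) :
    Q κ s ≤ Q κ' s := cross_mono h

lemma Q_nonneg {κ : V → V → ℝ} {s : Cfg} (h : ∀ x ∈ s, ∀ y ∈ s, 0 ≤ κ x y) :
    0 ≤ Q κ s := cross_nonneg h

lemma Q_addk (κ κ' : V → V → ℝ) (s : Cfg) :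
    Q (fun x y => κ x y + κ' x y) s = Q κ s + Q κ' s := cross_addk κ κ' s s

lemma Q_mulk (c : ℝ) (κ : V → V → ℝ) (s : Cfg) :
    Q (fun x y => c * κ x y) s = c * Q κ s := cross_mulk c κ s s

lemma Q_one (s : Cfg) : Q (fun _ _ => 1) s = (Multiset.card s : ℝ) ^ 2 := by
  unfold Q cross
  simp [sq]

lemma Q_map (κ : V → V → ℝ) (f : V → V) (s : Cfg) :
    Q κ (s.map f) = Q (fun x y => κ (f x) (f y)) s := by
  unfold Q cross
  simp only [Multiset.map_map, Function.comp_def]

lemma Q_zero (κ : V → V → ℝ) : Q κ 0 = 0 := by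
  unfold Q cross
  simp

lemma hasSum_msum {f : ℕ → V → ℝ} {g : V → ℝ} (s : Cfg) (h : ∀ x ∈ s, HasSum (fun j => f j x) (g x)) :
    HasSum (fun j => (s.map (f j)).sum) (s.map g).sum := by
  induction s using Multiset.induction_on with
  | empty => simp
  | cons a s ih =>
    simp only [Multiset.map_cons, Multiset.sum_cons]
    exact (h a (Multiset.mem_cons_self a s)).add
      (ih (fun x hx => h x (Multiset.mem_cons_of_mem hx)))

lemma hasSum_cross {f : ℕ → V → V → ℝ} {g : V → V → ℝ}
    (h : ∀ x y, HasSum (fun j => f j x y) (g x y)) (s t : Cfg) :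
    HasSum (fun j => cross (f j) s t) (cross g s t) := by
  unfold cross
  exact hasSum_msum s (fun x _ => hasSum_msum t (fun y _ => h x y))

lemma hasSum_Q {f : ℕ → V → V → ℝ} {g : V → V → ℝ}
    (h : ∀ x y, HasSum (fun j => f j x y) (g x y)) (s : Cfg) :
    HasSum (fun j => Q (f j) s) (Q g s) := hasSum_cross h s s

/-- the weight -/
noncomputable def W (μ : ℝ) (κ : V → V → ℝ) (s : Cfg) : ℝ≥0∞ :=
  ENNReal.ofReal (Real.exp (μ * Multiset.card s + Q κ s / 2))

lemma W_zero (μ : ℝ) (κ : V → V → ℝ) : W μ κ 0 = 1 := by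
  unfold W
  simp [Q_zero]

lemma MeasC_W (μ : ℝ) {κ : V → V → ℝ} (hκ : Measurable (fun p : V × V => κ p.1 p.2)) :
    MeasC (W μ κ) := by
  intro n
  unfold W
  simp only [card_toCfg, Q_toCfg]
  refine ENNReal.measurable_ofReal.comp (Real.measurable_exp.comp ?_)
  refine Measurable.add measurable_const (Measurable.div_const ?_ _)
  refine Finset.measurable_sum _ (fun i _ => Finset.measurable_sum _ (fun j _ => ?_))
  have h1 : Measurable (fun x : Fin n → V => (x i : V)) := measurable_pi_apply i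
  have h2 : Measurable (fun x : Fin n → V => (x j : V)) := measurable_pi_apply j
  exact hκ.comp (h1.prodMk h2)

lemma W_add_ge {μ : ℝ} {κ : V → V → ℝ} {s t : Cfg}
    (h1 : ∀ x ∈ s, ∀ y ∈ t, 0 ≤ κ x y) (h2 : ∀ x ∈ t, ∀ y ∈ s, 0 ≤ κ x y) :
    W μ κ s * W μ κ t ≤ W μ κ (s + t) := by
  unfold W
  rw [← ENNReal.ofReal_mul (Real.exp_pos _).le, ← Real.exp_add]
  refine ENNReal.ofReal_le_ofReal (Real.exp_le_exp.mpr ?_)
  rw [Q_add, Multiset.card_add]
  push_cast
  have := cross_nonneg h1
  have := cross_nonneg h2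
  linarith

lemma W_add_le {μ : ℝ} {κ : V → V → ℝ} {s t : Cfg}
    (h1 : ∀ x ∈ s, ∀ y ∈ t, κ x y ≤ 0) (h2 : ∀ x ∈ t, ∀ y ∈ s, κ x y ≤ 0) :
    W μ κ (s + t) ≤ W μ κ s * W μ κ t := by
  unfold W
  rw [← ENNReal.ofReal_mul (Real.exp_pos _).le, ← Real.exp_add]
  refine ENNReal.ofReal_le_ofReal (Real.exp_le_exp.mpr ?_)
  rw [Q_add, Multiset.card_add]
  push_cast
  have := cross_nonpos h1
  have := cross_nonpos h2
  linarith

/-! ### Kernels -/

lemma dist3_comm (x y : V) : dist3 x y = dist3 y x := by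
  unfold dist3
  congr 1
  refine Finset.sum_congr rfl (fun i _ => ?_)
  ring

lemma dist3_self (x : V) : dist3 x x = 0 := by
  unfold dist3
  simp

lemma measurable_dist3 : Measurable (fun p : V × V => dist3 p.1 p.2) := by
  unfold dist3
  refine Real.continuous_sqrt.measurable.comp ?_
  refine Finset.measurable_sum _ (fun i _ => ?_)
  refine Measurable.pow_const ?_ 2
  exact ((measurable_pi_apply i).comp measurable_fst).sub
    ((measurable_pi_apply i).comp measurable_snd)

lemma coord_le_dist3 (x y : V) (i : Fin 3) : |x i - y i| ≤ dist3 x y := by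
  unfold dist3
  rw [← Real.sqrt_sq_eq_abs]
  refine Real.sqrt_le_sqrt ?_
  exact Finset.single_le_sum (f := fun i => (x i - y i) ^ 2) (fun j _ => sq_nonneg _)
    (Finset.mem_univ i)

lemma dist3_lt_of_coord {x y : V} {r : ℝ} (hr : 0 < r) (h : ∀ i, |x i - y i| ≤ r) :
    dist3 x y < 2 * r := by
  unfold dist3
  rw [Real.sqrt_lt' (by linarith)]
  have h1 : ∀ i, (x i - y i) ^ 2 ≤ r ^ 2 := by
    intro i
    rw [← sq_abs]
    have := h i
    have := abs_nonneg (x i - y i)
    nlinarith
  calc ∑ i, (x i - y i) ^ 2 ≤ ∑ _i : Fin 3, r ^ 2 := Finset.sum_le_sum (fun i _ => h1 i)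
    _ = 3 * r ^ 2 := by simp
    _ < (2 * r) ^ 2 := by nlinarith [sq_pos_of_pos hr]

/-- indicator of `r < c` -/
noncomputable def ind (c r : ℝ) : ℝ := if r < c then 1 else 0

lemma ind_nonneg (c r : ℝ) : 0 ≤ ind c r := by
  unfold ind
  split_ifs <;> norm_num

lemma ind_le_one (c r : ℝ) : ind c r ≤ 1 := by
  unfold ind
  split_ifs <;> norm_num

lemma measurable_ind (c : ℝ) : Measurable (ind c) := by
  unfold ind
  exact Measurable.ite measurableSet_Iio measurable_const measurable_const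

/-- cell of a point -/
noncomputable def cell (x : V) : Fin 3 → ℤ := fun i => ⌊x i⌋

/-- block of a point -/
noncomputable def blk (R : ℕ) (q : ℕ) (x : V) : Fin 3 → ℤ := fun i => (⌊x i⌋ + q) / (R : ℤ)

/-- same-index kernel -/
noncomputable def same (b : V → Fin 3 → ℤ) (x y : V) : ℝ := by
  classical exact if b x = b y then 1 else 0

lemma same_nonneg (b : V → Fin 3 → ℤ) (x y : V) : 0 ≤ same b x y := by
  unfold same
  split_ifs <;> norm_num

lemma same_le_one (b : V → Fin 3 → ℤ) (x y : V) : same b x y ≤ 1 := by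
  unfold same
  split_ifs <;> norm_num

lemma same_eq_one {b : V → Fin 3 → ℤ} {x y : V} (h : b x = b y) : same b x y = 1 := by
  unfold same
  rw [if_pos h]

lemma same_eq_zero {b : V → Fin 3 → ℤ} {x y : V} (h : b x ≠ b y) : same b x y = 0 := by
  unfold same
  rw [if_neg h]

lemma measurable_same {b : V → Fin 3 → ℤ} (hb : Measurable b) :
    Measurable (fun p : V × V => same b p.1 p.2) := by
  classical
  unfold same
  refine Measurable.ite ?_ measurable_const measurable_const
  have h1 : Measurable (fun p : V × V => b p.1) := hb.comp measurable_fst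
  have h2 : Measurable (fun p : V × V => b p.2) := hb.comp measurable_snd
  exact measurableSet_eq_fun h1 h2

lemma measurable_cell : Measurable cell := by
  rw [measurable_pi_iff]
  intro i
  exact Int.measurable_floor.comp (measurable_pi_apply i)

lemma measurable_blk (R q : ℕ) : Measurable (blk R q) := by
  rw [measurable_pi_iff]
  intro i
  exact (measurable_from_top (f := fun z : ℤ => (z + q) / (R : ℤ))).comp
    (Int.measurable_floor.comp (measurable_pi_apply i))

end Vale.Agent.P171
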