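import Vale.Agent.P171.Kernel

open MeasureTheory Set Filter Topology
open scoped ENNReal

namespace Vale.Agent.P171

/-- kernel of the full interaction (with the sign of the exponent) -/
noncomputable def ker (K : ℝ) (a : ℕ → ℝ) (x y : V) : ℝ := -phi K a (dist3 x y)

lemma ker_eq (K : ℝ) (a : ℕ → ℝ) (x y : V) : ker K a x y = (-K) * indk 2 x y + attk a x y := by
  unfold ker phi indk attk
  ring

lemma Q_ker (K : ℝ) (a : ℕ → ℝ) (s : Cfg) : Q (ker K a) s = (-K) * Q (indk 2) s + Q (attk a) s := by
  have : ker K a = fun x y => (fun x y => (-K) * indk 2 x y) x y + attk a x y := by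
    funext x y
    exact ker_eq K a x y
  rw [this, Q_addk, Q_mulk]

lemma Q_ker_le {K : ℝ} (hK : 0 ≤ K) {a : ℕ → ℝ} (ha : ∀ j, 0 ≤ a j) (hs : Summable a) (s : Cfg) :
    Q (ker K a) s ≤ (125 * (∑' j, a j) - K) * Q (same cell) s := by
  rw [Q_ker]
  have h1 := Q_attk_le ha hs s
  have h2 := Q_cell_le_core s
  nlinarith

lemma measurable_ker (K : ℝ) (a : ℕ → ℝ) (ha : ∀ j, 0 ≤ a j) (hs : Summable a) :
    Measurable (fun p : V × V => ker K a p.1 p.2) := by
  simp only [ker_eq]
  exact ((measurable_indk 2).const_mul _).add (measurable_attk a ha hs)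

lemma measurable_same_cell : Measurable (fun p : V × V => same cell p.1 p.2) :=
  measurable_same measurable_cell

lemma measurable_same_blk (R q : ℕ) : Measurable (fun p : V × V => same (blk R q) p.1 p.2) :=
  measurable_same (measurable_blk R q)

/-- separation weights -/
noncomputable def sepw (R : ℕ) (j : ℕ) : ℝ := min (R : ℝ) (3 * (2 ^ (j + 1) + 1)) / R

/-- separation cost -/
noncomputable def tau (a : ℕ → ℝ) (R : ℕ) : ℝ := ∑' j, a j * sepw R j

lemma sepw_nonneg (R j : ℕ) : 0 ≤ sepw R j := by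
  unfold sepw
  refine div_nonneg (le_min (by positivity) (by positivity)) (by positivity)

lemma sepw_le_one (R j : ℕ) : sepw R j ≤ 1 := by
  unfold sepw
  exact div_le_one_of_le₀ (min_le_left _ _) (by positivity)

lemma tau_summable {a : ℕ → ℝ} (ha : ∀ j, 0 ≤ a j) (hs : Summable a) (R : ℕ) :
    Summable (fun j => a j * sepw R j) :=
  Summable.of_nonneg_of_le (fun j => mul_nonneg (ha j) (sepw_nonneg R j))
    (fun j => by
      have := mul_le_mul_of_nonneg_left (sepw_le_one R j) (ha j)
      linarith) hs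

lemma tau_nonneg {a : ℕ → ℝ} (ha : ∀ j, 0 ≤ a j) (R : ℕ) : 0 ≤ tau a R :=
  tsum_nonneg (fun j => mul_nonneg (ha j) (sepw_nonneg R j))

lemma tau_tendsto {a : ℕ → ℝ} (ha : ∀ j, 0 ≤ a j) (hs : Summable a) :
    Tendsto (fun k : ℕ => tau a (2 ^ k)) atTop (𝓝 0) := by
  have h := tendsto_tsum_of_dominated_convergence (𝓕 := atTop)
    (f := fun (k : ℕ) (j : ℕ) => a j * sepw (2 ^ k) j) (g := fun _ => (0 : ℝ)) (bound := a) hs
    (fun j => ?_) ?_
  · unfold tau
    simpa using h
  · have h1 : Tendsto (fun k : ℕ => (3 * (2 ^ (j + 1) + 1) : ℝ) / ((2 ^ k : ℕ) : ℝ)) atTop (𝓝 0) := by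
      refine Tendsto.div_atTop tendsto_const_nhds ?_
      push_cast
      exact tendsto_pow_atTop_atTop_of_one_lt (by norm_num)
    have h2 : Tendsto (fun k : ℕ => sepw (2 ^ k) j) atTop (𝓝 0) := by
      refine squeeze_zero (fun k => sepw_nonneg _ _) (fun k => ?_) h1
      unfold sepw
      gcongr
      exact min_le_right _ _
    simpa using h2.const_mul (a j)
  · refine Eventually.of_forall (fun k j => ?_)
    rw [Real.norm_of_nonneg (mul_nonneg (ha j) (sepw_nonneg _ _))]
    have := mul_le_mul_of_nonneg_left (sepw_le_one (2 ^ k) j) (ha j)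
    linarith

lemma Q_sum {ι : Type*} (T : Finset ι) (κ : ι → V → V → ℝ) (s : Cfg) :
    Q (fun x y => ∑ q ∈ T, κ q x y) s = ∑ q ∈ T, Q (κ q) s := by
  classical
  induction T using Finset.induction_on with
  | empty =>
    simp only [Finset.sum_empty]
    exact cross_zero s s
  | insert a T ha ih =>
    simp only [Finset.sum_insert ha]
    rw [← ih]
    exact Q_addk _ _ s

/-- some shifted partition separates little attraction -/
lemma exists_shift {a : ℕ → ℝ} (ha : ∀ j, 0 ≤ a j) (hs : Summable a) {R : ℕ} (hR : 0 < R)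
    (s : Cfg) :
    ∃ q ∈ Finset.range R, Q (fun x y => attk a x y * (1 - same (blk R q) x y)) s ≤
      125 * tau a R * Q (same cell) s := by
  have hRr : (0 : ℝ) < R := by exact_mod_cast hR
  -- the sum over all shifts
  have hsum : ∑ q ∈ Finset.range R, Q (fun x y => attk a x y * (1 - same (blk R q) x y)) s ≤
      ∑ _q ∈ Finset.range R, 125 * tau a R * Q (same cell) s := by
    rw [← Q_sum]
    have hb : ∀ j, 0 ≤ a j * sepw R j := fun j => mul_nonneg (ha j) (sepw_nonneg R j)
    have hbs := tau_summable ha hs R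
    have hpt : ∀ x y : V, (∑ q ∈ Finset.range R, attk a x y * (1 - same (blk R q) x y)) ≤
        R * attk (fun j => a j * sepw R j) x y := by
      intro x y
      rw [← Finset.mul_sum]
      have h1 := (attk_hasSum ha hs x y).mul_right
        (∑ q ∈ Finset.range R, (1 - same (blk R q) x y))
      have h2 := (attk_hasSum hb hbs x y).mul_left (R : ℝ)
      refine hasSum_le (fun j => ?_) h1 h2
      unfold indk ind
      split_ifs with hd
      · have e1 := sep_le R hR x y
        have e2 : ∑ q ∈ Finset.range R, (1 - same (blk R q) x y) ≤ R := by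
          calc ∑ q ∈ Finset.range R, (1 - same (blk R q) x y) ≤ ∑ _q ∈ Finset.range R, (1 : ℝ) := by
                refine Finset.sum_le_sum (fun q _ => ?_)
                have := same_nonneg (blk R q) x y
                linarith
            _ = R := by simp
        have e3 : ∑ q ∈ Finset.range R, (1 - same (blk R q) x y) ≤
            min (R : ℝ) (3 * (2 ^ (j + 1) + 1)) := by
          refine le_min e2 (e1.trans ?_)
          have := hd.le
          linarith
        have e4 : (R : ℝ) * sepw R j = min (R : ℝ) (3 * (2 ^ (j + 1) + 1)) := by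
          unfold sepw
          field_simp
        calc a j * (1 / 8) ^ j * 1 * ∑ q ∈ Finset.range R, (1 - same (blk R q) x y)
            ≤ a j * (1 / 8) ^ j * 1 * ((R : ℝ) * sepw R j) := by
              rw [e4]
              refine mul_le_mul_of_nonneg_left e3 ?_
              have := ha j
              positivity
          _ = (R : ℝ) * (a j * sepw R j * (1 / 8) ^ j * 1) := by ring
      · simp
    calc Q (fun x y => ∑ q ∈ Finset.range R, attk a x y * (1 - same (blk R q) x y)) s
        ≤ Q (fun x y => R * attk (fun j => a j * sepw R j) x y) s :=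
          Q_mono (fun x _ y _ => hpt x y)
      _ = R * Q (attk (fun j => a j * sepw R j)) s := Q_mulk _ _ _
      _ ≤ R * (125 * tau a R * Q (same cell) s) := by
          refine mul_le_mul_of_nonneg_left ?_ hRr.le
          exact Q_attk_le hb hbs s
      _ = ∑ _q ∈ Finset.range R, 125 * tau a R * Q (same cell) s := by simp
  exact Finset.exists_le_of_sum_le ⟨0, Finset.mem_range.mpr hR⟩ hsum

/-- perturbed coefficients -/
noncomputable def pert (a : ℕ → ℝ) (k : ℕ) (t : ℝ) : ℕ → ℝ := fun j => a j + if j = k then t else 0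

lemma pert_nonneg {a : ℕ → ℝ} (ha : ∀ j, 0 ≤ a j) (k : ℕ) {t : ℝ} (ht : 0 ≤ t) :
    ∀ j, 0 ≤ pert a k t j := by
  intro j
  unfold pert
  have := ha j
  split_ifs <;> linarith

lemma pert_hasSum {a : ℕ → ℝ} (hs : Summable a) (k : ℕ) (t : ℝ) :
    HasSum (pert a k t) ((∑' j, a j) + t) := by
  unfold pert
  exact hs.hasSum.add (hasSum_ite_eq k t)

lemma att_pert {a : ℕ → ℝ} (ha : ∀ j, 0 ≤ a j) (hs : Summable a) (k : ℕ) (t : ℝ) (r : ℝ) :
    att (pert a k t) r = att a r + t * (1 / 8) ^ k * ind (2 ^ (k + 1)) r := by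
  have h1 := att_hasSum ha hs r
  have h2 : HasSum (fun j : ℕ => if j = k then t * (1 / 8) ^ k * ind (2 ^ (k + 1)) r else 0)
      (t * (1 / 8) ^ k * ind (2 ^ (k + 1)) r) := hasSum_ite_eq k _
  have h3 := h1.add h2
  have h4 : (fun j : ℕ => a j * (1 / 8) ^ j * ind (2 ^ (j + 1)) r +
      if j = k then t * (1 / 8) ^ k * ind (2 ^ (k + 1)) r else 0) =
      fun j => pert a k t j * (1 / 8) ^ j * ind (2 ^ (j + 1)) r := by
    funext j
    unfold pert
    split_ifs with h
    · subst h
      ring
    · ring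
  rw [h4] at h3
  exact h3.tsum_eq

/-- block kernel -/
noncomputable def bker (K : ℝ) (a : ℕ → ℝ) (θ c : ℝ) (x y : V) : ℝ :=
  ker K a x y + θ * same cell x y + c

lemma measurable_bker (K : ℝ) (a : ℕ → ℝ) (ha : ∀ j, 0 ≤ a j) (hs : Summable a) (θ c : ℝ) :
    Measurable (fun p : V × V => bker K a θ c p.1 p.2) := by
  unfold bker
  exact ((measurable_ker K a ha hs).add (measurable_same_cell.const_mul _)).add measurable_const

/-- restricted to blocks -/
noncomputable def rker (κ : V → V → ℝ) (R q : ℕ) (x y : V) : ℝ := κ x y * same (blk R q) x y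

lemma Q_ker_pert_le {K : ℝ} (hK : 0 ≤ K) {a : ℕ → ℝ} (ha : ∀ j, 0 ≤ a j) (hs : Summable a)
    (k : ℕ) {t : ℝ} (ht : 0 ≤ t) (s : Cfg) :
    ∃ q ∈ Finset.range (2 ^ k), Q (ker K (pert a k t)) s ≤
      Q (rker (bker K a (125 * tau a (2 ^ k)) (125 * t * (1 / 8) ^ k)) (2 ^ k) q) s := by
  obtain ⟨q, hq, hle⟩ := exists_shift ha hs (R := 2 ^ k) (by positivity) s
  refine ⟨q, hq, ?_⟩
  have e0 : (2 : ℝ) * ((2 ^ k : ℕ) : ℝ) = 2 ^ (k + 1) := by
    push_cast
    ring
  have h2 := Q_indk_le_blk (2 ^ k) (by positivity) q s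
  rw [e0] at h2
  set b := blk (2 ^ k) q with hb
  -- decomposition of the left side
  have e1 : Q (ker K (pert a k t)) s = Q (fun x y => ker K a x y * same b x y) s +
      Q (fun x y => ker K a x y * (1 - same b x y)) s +
      (t * (1 / 8) ^ k) * Q (indk (2 ^ (k + 1))) s := by
    rw [← Q_addk, ← Q_mulk, ← Q_addk]
    congr 1
    funext x y
    rw [ker_eq, ker_eq]
    unfold attk indk
    rw [att_pert ha hs]
    ring
  have e2 : Q (fun x y => ker K a x y * (1 - same b x y)) s ≤
      Q (fun x y => attk a x y * (1 - same b x y)) s := by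
    refine Q_mono (fun x _ y _ => ?_)
    have h3 := same_le_one b x y
    have h4 := indk_nonneg 2 x y
    rw [ker_eq]
    nlinarith [mul_nonneg (mul_nonneg hK h4) (sub_nonneg.mpr h3)]
  have e3 : Q (rker (bker K a (125 * tau a (2 ^ k)) (125 * t * (1 / 8) ^ k)) (2 ^ k) q) s =
      Q (fun x y => ker K a x y * same b x y) s +
      (125 * tau a (2 ^ k)) * Q (same cell) s + (125 * t * (1 / 8) ^ k) * Q (same b) s := by
    rw [← Q_mulk, ← Q_addk, ← Q_mulk, ← Q_addk]
    congr 1
    funext x y
    unfold rker bker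
    rw [← hb]
    have h5 : same cell x y * same b x y = same cell x y := by
      by_cases h : cell x = cell y
      · have : b x = b y := by
          rw [hb]
          unfold blk
          funext i
          have h6 : ⌊x i⌋ = ⌊y i⌋ := congrFun h i
          rw [h6]
        rw [same_eq_one this, mul_one]
      · rw [same_eq_zero h, zero_mul]
    calc (ker K a x y + 125 * tau a (2 ^ k) * same cell x y + 125 * t * (1 / 8) ^ k) * same b x y
        = ker K a x y * same b x y + 125 * tau a (2 ^ k) * (same cell x y * same b x y)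
          + 125 * t * (1 / 8) ^ k * same b x y := by ring
      _ = _ := by rw [h5]
  rw [e1, e3]
  have h6 : (t * (1 / 8) ^ k) * Q (indk (2 ^ (k + 1))) s ≤ (t * (1 / 8) ^ k) * (125 * Q (same b) s) :=
    mul_le_mul_of_nonneg_left h2 (by positivity)
  have h7 := e2.trans hle
  linarith

lemma W_ker_pert_le {K : ℝ} (hK : 0 ≤ K) {a : ℕ → ℝ} (ha : ∀ j, 0 ≤ a j) (hs : Summable a)
    (k : ℕ) {t : ℝ} (ht : 0 ≤ t) (m : ℝ) (s : Cfg) :
    W m (ker K (pert a k t)) s ≤ ∑ q ∈ Finset.range (2 ^ k),
      W m (rker (bker K a (125 * tau a (2 ^ k)) (125 * t * (1 / 8) ^ k)) (2 ^ k) q) s := by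
  obtain ⟨q, hq, hle⟩ := Q_ker_pert_le hK ha hs k ht s
  refine le_trans ?_ (Finset.single_le_sum (fun _ _ => zero_le) hq)
  unfold W
  refine ENNReal.ofReal_le_ofReal (Real.exp_le_exp.mpr ?_)
  linarith

end Vale.Agent.P171
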