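import Vale.Agent.P171.Dense

open MeasureTheory Set Filter Topology
open scoped ENNReal

namespace Vale.Agent.P171

lemma Q_bker (K : ℝ) (a : ℕ → ℝ) (θ d : ℝ) (s : Cfg) :
    Q (bker K a θ d) s = Q (ker K a) s + θ * Q (same cell) s + d * (Multiset.card s : ℝ) ^ 2 := by
  rw [← Q_one, ← Q_mulk, ← Q_mulk, ← Q_addk, ← Q_addk]
  congr 1
  funext x y
  unfold bker
  ring

lemma card_sq_le {R : ℕ} (hR : 0 < R) {s : Cfg} (hs : Inside (B0 R) s) :
    (Multiset.card s : ℝ) ^ 2 ≤ (R : ℝ) ^ 3 * Q (same cell) s := by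
  refine le_trans ?_ (Q_blk_le_cell R hR 0 s)
  rw [← Q_one]
  refine Q_mono (fun x hx y hy => ?_)
  rw [same_eq_one]
  exact (hs x hx).trans (hs y hy).symm

/-- pointwise block estimate -/
lemma block_pt {R : ℕ} (hR : 0 < R) (K : ℝ) (a : ℕ → ℝ) {θ d0 x1 h Cs : ℝ} (hθ : 0 ≤ θ)
    (hd0 : 0 ≤ d0) (hx1 : 0 ≤ x1) (hh : 0 ≤ h) (hsmall : θ / 2 + d0 / 2 ≤ 1 / 2)
    (m : ℝ) {s : Cfg} (hs : Inside (B0 R) s) :
    W m (bker K a θ (d0 / (R : ℝ) ^ 3)) s ≤
      ENNReal.ofReal (Real.exp ((R : ℝ) ^ 3 * (θ / 2 * Cs + d0 / 2 * x1 ^ 2))) * W m (ker K a) s +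
      (ENNReal.ofReal (Real.exp ((R : ℝ) ^ 3 * (-(h * x1) + (θ / 2 + d0 / 2) * Cs))) *
        W (m + h) (ker K a) s +
      ENNReal.ofReal (Real.exp (-((R : ℝ) ^ 3 * (Cs / 2)))) * W m (bker K a 2 0) s) := by
  have hRr : (0 : ℝ) < (R : ℝ) := by exact_mod_cast hR
  have hV : (0 : ℝ) < (R : ℝ) ^ 3 := by positivity
  set v := (R : ℝ) ^ 3 with hv
  set N := (Multiset.card s : ℝ) with hN
  have hN0 : 0 ≤ N := by positivity
  set S := Q (same cell) s with hS
  have hS0 : 0 ≤ S := Q_cell_nonneg s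
  set E := Q (ker K a) s with hE
  have hNS : N ^ 2 ≤ v * S := card_sq_le hR hs
  have hdN : d0 / v * N ^ 2 ≤ d0 * S := by
    rw [div_mul_eq_mul_div, div_le_iff₀ hV]
    nlinarith
  have hmul : ∀ (u w : ℝ), ENNReal.ofReal (Real.exp u) * ENNReal.ofReal (Real.exp w) =
      ENNReal.ofReal (Real.exp (u + w)) := fun u w => by
    rw [← ENNReal.ofReal_mul (Real.exp_pos _).le, ← Real.exp_add]
  unfold W
  rw [Q_bker, Q_bker, ← hN, ← hS, ← hE, hmul, hmul, hmul]
  by_cases hc : S ≤ Cs * v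
  · by_cases hn : N ≤ x1 * v
    · refine le_trans ?_ le_self_add
      refine ENNReal.ofReal_le_ofReal (Real.exp_le_exp.mpr ?_)
      have h1 : d0 / v * N ^ 2 ≤ d0 * x1 ^ 2 * v := by
        rw [div_mul_eq_mul_div, div_le_iff₀ hV]
        have : N ^ 2 ≤ (x1 * v) ^ 2 := pow_le_pow_left₀ hN0 hn 2
        nlinarith
      have h2 : θ * S ≤ θ * (Cs * v) := mul_le_mul_of_nonneg_left hc hθ
      nlinarith
    · refine le_trans ?_ le_add_self
      refine le_trans ?_ le_self_add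
      refine ENNReal.ofReal_le_ofReal (Real.exp_le_exp.mpr ?_)
      rw [not_le] at hn
      have h1 : h * (x1 * v) ≤ h * N := mul_le_mul_of_nonneg_left hn.le hh
      have h2 : (θ + d0) * S ≤ (θ + d0) * (Cs * v) :=
        mul_le_mul_of_nonneg_left hc (by linarith)
      nlinarith
  · refine le_trans ?_ le_add_self
    refine le_trans ?_ le_add_self
    refine ENNReal.ofReal_le_ofReal (Real.exp_le_exp.mpr ?_)
    rw [not_le] at hc
    have h1 : (θ + d0) * S ≤ 1 * S := mul_le_mul_of_nonneg_right (by linarith) hS0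
    nlinarith

lemma MeasC_bker {K : ℝ} {a : ℕ → ℝ} (ha : ∀ j, 0 ≤ a j) (hs : Summable a) (θ c m : ℝ) :
    MeasC (W m (bker K a θ c)) := MeasC_W m (measurable_bker K a ha hs θ c)

/-- block estimate for the partition function -/
lemma block_est {R : ℕ} (hR : 0 < R) {K : ℝ} (hK0 : 0 ≤ K) {a : ℕ → ℝ} (ha : ∀ j, 0 ≤ a j)
    (hs : Summable a) (hK : 125 * (∑' j, a j) + 2 ≤ K) {θ d0 x1 h : ℝ} (hθ : 0 ≤ θ)
    (hd0 : 0 ≤ d0) (hx1 : 0 ≤ x1) (hh : 0 ≤ h) (hsmall : θ / 2 + d0 / 2 ≤ 1 / 2) (m : ℝ) :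
    G (B0 R) (W m (bker K a θ (d0 / (R : ℝ) ^ 3))) 0 ≤
      ENNReal.ofReal (Real.exp ((R : ℝ) ^ 3 * (θ / 2 * (2 * Real.exp m) + d0 / 2 * x1 ^ 2)
        + lX K a m R)) +
      (ENNReal.ofReal (Real.exp ((R : ℝ) ^ 3 * (-(h * x1) + (θ / 2 + d0 / 2) * (2 * Real.exp m))
        + lX K a (m + h) R)) + 1) := by
  have hRr : (0 : ℝ) ≤ (R : ℝ) := by positivity
  have hK' : 125 * (∑' j, a j) ≤ K := by linarith
  have hmk := MeasC_W m (measurable_ker K a ha hs)
  have hmk' := MeasC_W (m + h) (measurable_ker K a ha hs)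
  have hle : ∀ (m' : ℝ), G (B0 R) (W m' (ker K a)) 0 ≤ ENNReal.ofReal (Real.exp (lX K a m' R)) := by
    intro m'
    refine (G_mono_set (B0_subset_box R hR) _ _).trans ?_
    have h1 : G (box (R : ℝ)) (W m' (ker K a)) 0 = Xi K a m' R := rfl
    rw [h1]
    unfold lX
    have h2 := one_le_toReal (one_le_Xi K a m' R) (Xi_ne_top hK0 ha hs hK' m' hRr)
    rw [Real.exp_log (by linarith), ENNReal.ofReal_toReal (Xi_ne_top hK0 ha hs hK' m' hRr)]
  have hthird : G (B0 R) (W m (bker K a 2 0)) 0 ≤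
      ENNReal.ofReal (Real.exp (Real.exp m * (R : ℝ) ^ 3)) := by
    refine (G_mono_set (B0_subset_box R hR) _ _).trans ?_
    refine G_le_exp (measurableSet_box _) (volume_box hRr) (by positivity) m _ (fun s => ?_)
    unfold W
    refine ENNReal.ofReal_le_ofReal (Real.exp_le_exp.mpr ?_)
    rw [Q_bker]
    have h1 := Q_ker_le hK0 ha hs s
    have h2 := Q_cell_nonneg s
    nlinarith
  have hmul : ∀ (u w : ℝ), ENNReal.ofReal (Real.exp u) * ENNReal.ofReal (Real.exp w) =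
      ENNReal.ofReal (Real.exp (u + w)) := fun u w => by
    rw [← ENNReal.ofReal_mul (Real.exp_pos _).le, ← Real.exp_add]
  refine le_trans (G_mono_inside (g := fun s => ENNReal.ofReal (Real.exp ((R : ℝ) ^ 3 *
        (θ / 2 * (2 * Real.exp m) + d0 / 2 * x1 ^ 2))) * W m (ker K a) s +
      (ENNReal.ofReal (Real.exp ((R : ℝ) ^ 3 * (-(h * x1) + (θ / 2 + d0 / 2) * (2 * Real.exp m)))) *
        W (m + h) (ker K a) s +
      ENNReal.ofReal (Real.exp (-((R : ℝ) ^ 3 * ((2 * Real.exp m) / 2)))) * W m (bker K a 2 0) s))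
      (measurableSet_B0 R) 0 (fun s hs' => ?_)) ?_
  · rw [add_zero]
    exact block_pt hR K a hθ hd0 hx1 hh hsmall m hs'
  · rw [G_add _ (hmk.const_mul _), G_add _ (hmk'.const_mul _), G_const_mul _ hmk,
      G_const_mul _ hmk', G_const_mul _ (MeasC_bker ha hs 2 0 m)]
    refine add_le_add ?_ (add_le_add ?_ ?_)
    · rw [Real.exp_add, ENNReal.ofReal_mul (Real.exp_pos _).le]
      gcongr
      exact hle m
    · rw [Real.exp_add, ENNReal.ofReal_mul (Real.exp_pos _).le]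
      gcongr
      exact hle (m + h)
    · calc ENNReal.ofReal (Real.exp (-((R : ℝ) ^ 3 * ((2 * Real.exp m) / 2)))) *
            G (B0 R) (W m (bker K a 2 0)) 0
          ≤ ENNReal.ofReal (Real.exp (-((R : ℝ) ^ 3 * ((2 * Real.exp m) / 2)))) *
            ENNReal.ofReal (Real.exp (Real.exp m * (R : ℝ) ^ 3)) := by gcongr
        _ = 1 := by
            rw [hmul]
            have : -((R : ℝ) ^ 3 * ((2 * Real.exp m) / 2)) + Real.exp m * (R : ℝ) ^ 3 = 0 := by ring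
            rw [this, Real.exp_zero, ENNReal.ofReal_one]

/-- **upper bound for the perturbed pressure** -/
lemma P_upper {K : ℝ} (hK0 : 0 ≤ K) {a : ℕ → ℝ} (ha : ∀ j, 0 ≤ a j)
    (hs : Summable a) (hK : 125 * (∑' j, a j) + 2 ≤ K) {t x1 h : ℝ} (ht : 0 ≤ t)
    (htK : 125 * ((∑' j, a j) + t) ≤ K) (hx1 : 0 ≤ x1) (hh : 0 ≤ h) (m : ℝ) (k : ℕ)
    (hsmall : 125 * tau a (2 ^ k) / 2 + 125 * t / 2 ≤ 1 / 2) :
    P K (pert a k t) m ≤ (Real.log 3 + max 0 (max
      (((2 : ℝ) ^ k) ^ 3 * (125 * tau a (2 ^ k) / 2 * (2 * Real.exp m) + 125 * t / 2 * x1 ^ 2)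
        + lX K a m (2 ^ k))
      (((2 : ℝ) ^ k) ^ 3 * (-(h * x1) + (125 * tau a (2 ^ k) / 2 + 125 * t / 2) * (2 * Real.exp m))
        + lX K a (m + h) (2 ^ k)))) / ((2 : ℝ) ^ k) ^ 3 := by
  have hK' : 125 * (∑' j, a j) ≤ K := by linarith
  set R : ℕ := 2 ^ k with hR
  have hRpos : 0 < R := by positivity
  have hRr : ((R : ℕ) : ℝ) = 2 ^ k := by rw [hR]; push_cast; rfl
  rw [← hRr]
  set θ := 125 * tau a R with hθ
  have hθ0 : 0 ≤ θ := by
    have := tau_nonneg ha R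
    positivity
  set Mx := max 0 (max
      ((R : ℝ) ^ 3 * (θ / 2 * (2 * Real.exp m) + 125 * t / 2 * x1 ^ 2) + lX K a m R)
      ((R : ℝ) ^ 3 * (-(h * x1) + (θ / 2 + 125 * t / 2) * (2 * Real.exp m))
        + lX K a (m + h) R)) with hMx
  have hMx0 : 0 ≤ Mx := le_max_left _ _
  -- the block partition function
  set Gb := G (B0 R) (W m (bker K a θ (125 * t / (R : ℝ) ^ 3))) 0 with hGb
  have hGb_le : Gb ≤ ENNReal.ofReal (Real.exp (Real.log 3 + Mx)) := by
    refine (block_est hRpos hK0 ha hs hK hθ0 (by positivity) hx1 hh hsmall m).trans ?_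
    have hexp : Real.exp (Real.log 3 + Mx) = 3 * Real.exp Mx := by
      rw [Real.exp_add, Real.exp_log (by norm_num)]
    rw [hexp, ENNReal.ofReal_mul (by norm_num)]
    have h1 : ENNReal.ofReal (Real.exp ((R : ℝ) ^ 3 * (θ / 2 * (2 * Real.exp m)
        + 125 * t / 2 * x1 ^ 2) + lX K a m R)) ≤ ENNReal.ofReal (Real.exp Mx) :=
      ENNReal.ofReal_le_ofReal (Real.exp_le_exp.mpr ((le_max_left _ _).trans (le_max_right _ _)))
    have h2 : ENNReal.ofReal (Real.exp ((R : ℝ) ^ 3 * (-(h * x1) + (θ / 2 + 125 * t / 2)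
        * (2 * Real.exp m)) + lX K a (m + h) R)) ≤ ENNReal.ofReal (Real.exp Mx) :=
      ENNReal.ofReal_le_ofReal (Real.exp_le_exp.mpr ((le_max_right _ _).trans (le_max_right _ _)))
    have h3 : (1 : ℝ≥0∞) ≤ ENNReal.ofReal (Real.exp Mx) := by
      rw [← ENNReal.ofReal_one]
      exact ENNReal.ofReal_le_ofReal (Real.one_le_exp hMx0)
    calc _ ≤ ENNReal.ofReal (Real.exp Mx) + (ENNReal.ofReal (Real.exp Mx)
          + ENNReal.ofReal (Real.exp Mx)) := add_le_add h1 (add_le_add h2 h3)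
      _ = ENNReal.ofReal 3 * ENNReal.ofReal (Real.exp Mx) := by
          have : ENNReal.ofReal 3 = 3 := by norm_num
          rw [this]
          ring
  have hpa := pert_nonneg ha k ht
  have hps := (pert_hasSum hs k t).summable
  have hpt := (pert_hasSum hs k t).tsum_eq
  have hKp : 125 * (∑' j, pert a k t j) ≤ K := by rw [hpt]; exact htK
  have hd : 125 * t * (1 / 8 : ℝ) ^ k = 125 * t / (R : ℝ) ^ 3 := by
    rw [hRr, ← pow_mul, mul_comm k 3, pow_mul, div_pow, one_pow]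
    norm_num
    ring
  -- finite volume bound
  have hfin : ∀ n : ℕ, lX K (pert a k t) m ((n * R : ℕ) : ℝ) ≤
      Real.log R + ((n : ℝ) + 1) ^ 3 * (Real.log 3 + Mx) := by
    intro n
    have h1 := box_upper hK0 ha hs k ht m n
    rw [← hR, hd, ← hθ, ← hGb] at h1
    have hX : Xi K (pert a k t) m ((n * R : ℕ) : ℝ) ≤
        ENNReal.ofReal (R * Real.exp (Real.log 3 + Mx) ^ ((n + 1) ^ 3)) := by
      refine h1.trans ?_
      rw [ENNReal.ofReal_mul (by positivity), ENNReal.ofReal_natCast,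
        ENNReal.ofReal_pow (Real.exp_pos _).le]
      gcongr
    have hR1 : (0 : ℝ) < (R : ℝ) := by exact_mod_cast hRpos
    have h2 := ENNReal.toReal_le_of_le_ofReal (by positivity) hX
    have h3 := one_le_toReal (one_le_Xi K (pert a k t) m ((n * R : ℕ) : ℝ))
      (Xi_ne_top hK0 hpa hps hKp m (by positivity))
    have h4 := Real.log_le_log (by linarith) h2
    rw [Real.log_mul hR1.ne' (by positivity), Real.log_pow, Real.log_exp] at h4
    unfold lX
    refine h4.trans (le_of_eq ?_)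
    push_cast
    ring
  -- pass to the limit
  have hR1 : (0 : ℝ) < (R : ℝ) := by exact_mod_cast hRpos
  have hseq : Tendsto (fun n : ℕ => ((n * R : ℕ) : ℝ)) atTop atTop := by
    push_cast
    exact tendsto_natCast_atTop_atTop.atTop_mul_const hR1
  have h1 := (P_tendsto hK0 hpa hps hKp m).comp hseq
  have h2 : Tendsto (fun n : ℕ => Real.log R / (R : ℝ) ^ 3 * ((n : ℝ)⁻¹) ^ 3 +
      (1 + (n : ℝ)⁻¹) ^ 3 * ((Real.log 3 + Mx) / (R : ℝ) ^ 3)) atTop
      (𝓝 (Real.log R / (R : ℝ) ^ 3 * 0 ^ 3 + (1 + 0) ^ 3 * ((Real.log 3 + Mx) / (R : ℝ) ^ 3))) := by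
    have hinv : Tendsto (fun n : ℕ => ((n : ℝ)⁻¹)) atTop (𝓝 0) := tendsto_inv_atTop_nhds_zero_nat
    exact ((hinv.pow 3).const_mul _).add (((hinv.const_add 1).pow 3).mul_const _)
  have h3 : Real.log R / (R : ℝ) ^ 3 * 0 ^ 3 + (1 + 0) ^ 3 * ((Real.log 3 + Mx) / (R : ℝ) ^ 3)
      = (Real.log 3 + Mx) / (R : ℝ) ^ 3 := by ring
  rw [h3] at h2
  refine le_of_tendsto_of_tendsto h1 h2 ?_
  filter_upwards [eventually_gt_atTop 0] with n hn
  have hn' : (0 : ℝ) < n := by exact_mod_cast hn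
  simp only [Function.comp_def]
  rw [div_le_iff₀ (by positivity)]
  refine (hfin n).trans (le_of_eq ?_)
  push_cast
  field_simp

end Vale.Agent.P171
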